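import Crest.Agent.Lib.SmoothFlow
import Crest.Prelude.Def_QuadricHamiltonian

/-!
# Algebra of the explicit Hamiltonian system on the quadric threefold

Coordinates, the quadratic functions `p i j`, the skew coefficient functions and the vector field
`Gz`, together with the conservation laws and the closed system for the `p i j`.
-/

open scoped ContDiff Topology NNReal
open Set

set_option linter.unusedSectionVars false
set_option linter.unusedSimpArgs false

noncomputable section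

namespace Crest.Agent.Lib.QuadricFlow

open Crest.GeometryTopology.Quadric

/-- Complex 5-space. -/
abbrev E5 : Type := Fin 5 → ℂ

/-- A vector given by its coordinates. -/
def mk5 (a b c d e : ℂ) : E5 := ![a, b, c, d, e]

@[simp] lemma mk5_0 (a b c d e : ℂ) : mk5 a b c d e 0 = a := rfl
@[simp] lemma mk5_1 (a b c d e : ℂ) : mk5 a b c d e 1 = b := rfl
@[simp] lemma mk5_2 (a b c d e : ℂ) : mk5 a b c d e 2 = c := rfl
@[simp] lemma mk5_3 (a b c d e : ℂ) : mk5 a b c d e 3 = d := rfl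
@[simp] lemma mk5_4 (a b c d e : ℂ) : mk5 a b c d e 4 = e := rfl

lemma ext5 {x y : E5} (h0 : x 0 = y 0) (h1 : x 1 = y 1) (h2 : x 2 = y 2) (h3 : x 3 = y 3)
    (h4 : x 4 = y 4) : x = y := by
  funext j
  fin_cases j <;> assumption

/-- The quadratic functions `2 Im (conj (z i) * z j)`. -/
def p (i j : Fin 5) (z : E5) : ℝ := 2 * ((z i).re * (z j).im - (z i).im * (z j).re)

/-- The polar form of `p i j`. -/
def dp (i j : Fin 5) (z w : E5) : ℝ :=
  2 * ((z i).re * (w j).im - (z i).im * (w j).re + ((w i).re * (z j).im - (w i).im * (z j).re))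

/-- The squared norm. -/
def nsq (z : E5) : ℝ := ∑ j, ((z j).re * (z j).re + (z j).im * (z j).im)

/-- Real part of the sum of the squares. -/
def q1 (z : E5) : ℝ := ∑ j, ((z j).re * (z j).re - (z j).im * (z j).im)

/-- Half the imaginary part of the sum of the squares. -/
def q2 (z : E5) : ℝ := ∑ j, ((z j).re * (z j).im)

lemma herm_self (z : E5) : herm z z = (nsq z : ℂ) := by
  unfold herm nsq
  push_cast
  refine Finset.sum_congr rfl fun j _ => ?_
  apply Complex.ext <;> simp <;> ring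

lemma sum_sq_eq (z : E5) : ∑ j, z j ^ 2 = (q1 z : ℂ) + (2 * q2 z : ℝ) * Complex.I := by
  apply Complex.ext
  · simp [q1, q2, Fin.sum_univ_five, pow_two]
    ring
  · simp [q1, q2, Fin.sum_univ_five, pow_two]
    ring

lemma mem_cone_iff (z : E5) : z ∈ unitCone ↔ nsq z = 1 ∧ q1 z = 0 ∧ q2 z = 0 := by
  unfold unitCone
  simp only [mem_ofPred_eq, herm_self, sum_sq_eq]
  constructor
  · rintro ⟨h1, h2⟩
    refine ⟨by exact_mod_cast h1, ?_, ?_⟩
    · have := congrArg Complex.re h2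
      simpa using this
    · have := congrArg Complex.im h2
      simpa using this
  · rintro ⟨h1, h2, h3⟩
    rw [h1, h2, h3]
    simp

lemma herm_re (u w : E5) : (herm u w).re = ∑ j, ((u j).re * (w j).re + (u j).im * (w j).im) := by
  simp [herm]

lemma herm_im (u w : E5) : (herm u w).im = ∑ j, ((u j).re * (w j).im - (u j).im * (w j).re) := by
  simp only [herm, Complex.im_sum]
  refine Finset.sum_congr rfl fun j _ => ?_
  simp
  ring

/-! ### The coefficient functions -/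

def g01 (z : E5) : ℝ := 2 * p 0 2 z
def g02 (z : E5) : ℝ := 2 * (1 + p 0 1 z)
def g03 (z : E5) : ℝ := 2 * p 0 3 z
def g12 (z : E5) : ℝ := -2 * p 1 2 z
def g13 (z : E5) : ℝ := 2 * p 2 3 z
def g23 (z : E5) : ℝ := 2 * p 1 3 z

/-- The vector `G(z) z`, where `G(z)` is the real skew matrix with the entries `g`. -/
def Gz (z : E5) : E5 :=
  mk5 (g01 z • z 1 + g02 z • z 2 + g03 z • z 3)
    (-g01 z • z 0 + g12 z • z 2 + g13 z • z 3)
    (-g02 z • z 0 - g12 z • z 1 + g23 z • z 3)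
    (-g03 z • z 0 - g13 z • z 1 - g23 z • z 2)
    0

/-- The Hamiltonian on the cone (up to the rotation and the small factor). -/
def Ft (z : E5) : ℝ :=
  2 * p 0 2 z * (1 + p 0 1 z) + 2 * p 1 3 z * p 2 3 z + p 0 3 z ^ 2 - p 1 2 z ^ 2

/-- Polar derivative of `Ft`. -/
def dFt (z w : E5) : ℝ :=
  g01 z * dp 0 1 z w + g02 z * dp 0 2 z w + g03 z * dp 0 3 z w + g12 z * dp 1 2 z w
    + g13 z * dp 1 3 z w + g23 z * dp 2 3 z w

section Coordinates

variable {y : ℝ → E5} {y' : E5} {t : ℝ}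

lemma hasDerivAt_coord (h : HasDerivAt y y' t) (j : Fin 5) :
    HasDerivAt (fun s => y s j) (y' j) t := (hasDerivAt_pi.1 h) j

lemma hasDerivAt_re (h : HasDerivAt y y' t) (j : Fin 5) :
    HasDerivAt (fun s => (y s j).re) (y' j).re t :=
  Complex.reCLM.hasFDerivAt.comp_hasDerivAt t (hasDerivAt_coord h j)

lemma hasDerivAt_im (h : HasDerivAt y y' t) (j : Fin 5) :
    HasDerivAt (fun s => (y s j).im) (y' j).im t :=
  Complex.imCLM.hasFDerivAt.comp_hasDerivAt t (hasDerivAt_coord h j)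

lemma p_hasDerivAt (h : HasDerivAt y y' t) (i j : Fin 5) :
    HasDerivAt (fun s => p i j (y s)) (dp i j (y t) y') t := by
  have h1 := (((hasDerivAt_re h i).mul (hasDerivAt_im h j)).sub
    ((hasDerivAt_im h i).mul (hasDerivAt_re h j))).const_mul 2
  refine h1.congr_deriv ?_
  unfold dp
  ring

lemma nsq_hasDerivAt (h : HasDerivAt y y' t) :
    HasDerivAt (fun s => nsq (y s))
      (2 * ∑ j, ((y t j).re * (y' j).re + (y t j).im * (y' j).im)) t := by
  unfold nsq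
  rw [Finset.mul_sum]
  refine HasDerivAt.fun_sum fun j _ => ?_
  have h1 := ((hasDerivAt_re h j).mul (hasDerivAt_re h j)).add
    ((hasDerivAt_im h j).mul (hasDerivAt_im h j))
  refine h1.congr_deriv ?_
  ring

lemma q1_hasDerivAt (h : HasDerivAt y y' t) :
    HasDerivAt (fun s => q1 (y s))
      (2 * ∑ j, ((y t j).re * (y' j).re - (y t j).im * (y' j).im)) t := by
  unfold q1
  rw [Finset.mul_sum]
  refine HasDerivAt.fun_sum fun j _ => ?_
  have h1 := ((hasDerivAt_re h j).mul (hasDerivAt_re h j)).sub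
    ((hasDerivAt_im h j).mul (hasDerivAt_im h j))
  refine h1.congr_deriv ?_
  ring

lemma q2_hasDerivAt (h : HasDerivAt y y' t) :
    HasDerivAt (fun s => q2 (y s))
      (∑ j, ((y t j).re * (y' j).im + (y t j).im * (y' j).re)) t := by
  unfold q2
  refine HasDerivAt.fun_sum fun j _ => ?_
  have h1 := (hasDerivAt_re h j).mul (hasDerivAt_im h j)
  refine h1.congr_deriv ?_
  ring

end Coordinates

/-! ### Coordinates of `Gz` -/

lemma Gz_re0 (z : E5) : (Gz z 0).re = g01 z * (z 1).re + g02 z * (z 2).re + g03 z * (z 3).re := by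
  simp [Gz]
lemma Gz_re1 (z : E5) : (Gz z 1).re = -g01 z * (z 0).re + g12 z * (z 2).re + g13 z * (z 3).re := by
  simp [Gz]
lemma Gz_re2 (z : E5) : (Gz z 2).re = -g02 z * (z 0).re - g12 z * (z 1).re + g23 z * (z 3).re := by
  simp [Gz]
lemma Gz_re3 (z : E5) : (Gz z 3).re = -g03 z * (z 0).re - g13 z * (z 1).re - g23 z * (z 2).re := by
  simp [Gz]
lemma Gz_re4 (z : E5) : (Gz z 4).re = 0 := by simp [Gz]
lemma Gz_im0 (z : E5) : (Gz z 0).im = g01 z * (z 1).im + g02 z * (z 2).im + g03 z * (z 3).im := by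
  simp [Gz]
lemma Gz_im1 (z : E5) : (Gz z 1).im = -g01 z * (z 0).im + g12 z * (z 2).im + g13 z * (z 3).im := by
  simp [Gz]
lemma Gz_im2 (z : E5) : (Gz z 2).im = -g02 z * (z 0).im - g12 z * (z 1).im + g23 z * (z 3).im := by
  simp [Gz]
lemma Gz_im3 (z : E5) : (Gz z 3).im = -g03 z * (z 0).im - g13 z * (z 1).im - g23 z * (z 2).im := by
  simp [Gz]
lemma Gz_im4 (z : E5) : (Gz z 4).im = 0 := by simp [Gz]

/-! ### Conservation laws: pointwise identities -/

lemma nsq_polar_Gz (z : E5) (κ : ℝ) :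
    ∑ j, ((z j).re * ((κ • Gz z) j).re + (z j).im * ((κ • Gz z) j).im) = 0 := by
  simp only [Fin.sum_univ_five, Pi.smul_apply, Complex.smul_re, Complex.smul_im, smul_eq_mul,
    Gz_re0, Gz_re1, Gz_re2, Gz_re3, Gz_re4, Gz_im0, Gz_im1, Gz_im2, Gz_im3, Gz_im4]
  ring

lemma q1_polar_Gz (z : E5) (κ : ℝ) :
    ∑ j, ((z j).re * ((κ • Gz z) j).re - (z j).im * ((κ • Gz z) j).im) = 0 := by
  simp only [Fin.sum_univ_five, Pi.smul_apply, Complex.smul_re, Complex.smul_im, smul_eq_mul,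
    Gz_re0, Gz_re1, Gz_re2, Gz_re3, Gz_re4, Gz_im0, Gz_im1, Gz_im2, Gz_im3, Gz_im4]
  ring

lemma q2_polar_Gz (z : E5) (κ : ℝ) :
    ∑ j, ((z j).re * ((κ • Gz z) j).im + (z j).im * ((κ • Gz z) j).re) = 0 := by
  simp only [Fin.sum_univ_five, Pi.smul_apply, Complex.smul_re, Complex.smul_im, smul_eq_mul,
    Gz_re0, Gz_re1, Gz_re2, Gz_re3, Gz_re4, Gz_im0, Gz_im1, Gz_im2, Gz_im3, Gz_im4]
  ring

/-! ### The closed system for the `p i j` -/

/-- The six functions `p i j`, with `i < j < 4`. -/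
def Pv (z : E5) : Fin 6 → ℝ := ![p 0 1 z, p 0 2 z, p 0 3 z, p 1 2 z, p 1 3 z, p 2 3 z]

/-- The closed system. -/
def Wq (P : Fin 6 → ℝ) : Fin 6 → ℝ :=
  ![2 * (-(1 + P 0) * P 3 - P 2 * P 4 - P 3 * P 1 + P 5 * P 2),
    2 * (P 1 * P 3 - P 2 * P 5 + P 3 * P 0 + P 4 * P 2),
    2 * P 5,
    2 * (-P 1 ^ 2 - P 5 ^ 2 + P 0 * (1 + P 0) + P 4 ^ 2),
    2 * (-P 1 * P 2 - P 3 * P 5 + P 2 * P 0 - P 4 * P 3),
    2 * (-(1 + P 0) * P 2 + P 3 * P 4 + P 2 * P 1 + P 5 * P 3)]

lemma dp_scale (i j : Fin 5) (z w : E5) (κ : ℝ) : dp i j z (κ • w) = κ * dp i j z w := by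
  simp only [dp, Pi.smul_apply, Complex.smul_re, Complex.smul_im, smul_eq_mul]
  ring

lemma dp_Gz_0 (z : E5) : dp 0 1 z (Gz z) = Wq (Pv z) 0 := by
  simp only [dp, Wq, Pv, Gz_re0, Gz_re1, Gz_im0, Gz_im1, g01, g02, g03, g12, g13, g23]
  simp [p]
  ring

lemma dp_Gz_1 (z : E5) : dp 0 2 z (Gz z) = Wq (Pv z) 1 := by
  simp only [dp, Wq, Pv, Gz_re0, Gz_re2, Gz_im0, Gz_im2, g01, g02, g03, g12, g13, g23]
  simp [p]
  ring

lemma dp_Gz_2 (z : E5) : dp 0 3 z (Gz z) = Wq (Pv z) 2 := by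
  simp only [dp, Wq, Pv, Gz_re0, Gz_re3, Gz_im0, Gz_im3, g01, g02, g03, g12, g13, g23]
  simp [p]
  ring

lemma dp_Gz_3 (z : E5) : dp 1 2 z (Gz z) = Wq (Pv z) 3 := by
  simp only [dp, Wq, Pv, Gz_re1, Gz_re2, Gz_im1, Gz_im2, g01, g02, g03, g12, g13, g23]
  simp [p]
  ring

lemma dp_Gz_4 (z : E5) : dp 1 3 z (Gz z) = Wq (Pv z) 4 := by
  simp only [dp, Wq, Pv, Gz_re1, Gz_re3, Gz_im1, Gz_im3, g01, g02, g03, g12, g13, g23]
  simp [p]
  ring

lemma dp_Gz_5 (z : E5) : dp 2 3 z (Gz z) = Wq (Pv z) 5 := by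
  simp only [dp, Wq, Pv, Gz_re2, Gz_re3, Gz_im2, Gz_im3, g01, g02, g03, g12, g13, g23]
  simp [p]
  ring

end Crest.Agent.Lib.QuadricFlow
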