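import Crest.Agent.Lib.QuadricRot

/-!
# The degenerate fixed point and the final assembly
-/

open scoped ContDiff Topology NNReal
open Set

set_option linter.unusedSectionVars false
set_option linter.unusedSimpArgs false
set_option linter.unusedVariables false

noncomputable section

namespace Crest.Agent.Lib.QuadricFlow

open Crest.GeometryTopology.Quadric
open Crest.Agent.Lib.SmoothFlow

/-- The derivative of `Gz` along a vector. -/
def dGz (z v : E5) : E5 :=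
  mk5 ((2 * dp 0 2 z v) • z 1 + g01 z • v 1 + (2 * dp 0 1 z v) • z 2 + g02 z • v 2
        + (2 * dp 0 3 z v) • z 3 + g03 z • v 3)
    ((-(2 * dp 0 2 z v)) • z 0 + (-g01 z) • v 0 + (-2 * dp 1 2 z v) • z 2 + g12 z • v 2
        + (2 * dp 2 3 z v) • z 3 + g13 z • v 3)
    ((-(2 * dp 0 1 z v)) • z 0 + (-g02 z) • v 0 - (-2 * dp 1 2 z v) • z 1 - g12 z • v 1
        + (2 * dp 1 3 z v) • z 3 + g23 z • v 3)
    ((-(2 * dp 0 3 z v)) • z 0 + (-g03 z) • v 0 - (2 * dp 2 3 z v) • z 1 - g13 z • v 1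
        - (2 * dp 1 3 z v) • z 2 - g23 z • v 2)
    0

lemma Gz_line {y : ℝ → E5} {y' : E5} {t : ℝ} (h : HasDerivAt y y' t) :
    HasDerivAt (fun s => Gz (y s)) (dGz (y t) y') t := by
  have hd := hasDerivAt_coord h
  have h01 : HasDerivAt (fun s => g01 (y s)) (2 * dp 0 2 (y t) y') t :=
    (p_hasDerivAt h 0 2).const_mul 2
  have h02 : HasDerivAt (fun s => g02 (y s)) (2 * dp 0 1 (y t) y') t :=
    ((p_hasDerivAt h 0 1).const_add 1).const_mul 2
  have h03 : HasDerivAt (fun s => g03 (y s)) (2 * dp 0 3 (y t) y') t :=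
    (p_hasDerivAt h 0 3).const_mul 2
  have h12 : HasDerivAt (fun s => g12 (y s)) (-2 * dp 1 2 (y t) y') t :=
    (p_hasDerivAt h 1 2).const_mul (-2)
  have h13 : HasDerivAt (fun s => g13 (y s)) (2 * dp 2 3 (y t) y') t :=
    (p_hasDerivAt h 2 3).const_mul 2
  have h23 : HasDerivAt (fun s => g23 (y s)) (2 * dp 1 3 (y t) y') t :=
    (p_hasDerivAt h 1 3).const_mul 2
  have c0 : HasDerivAt (fun s => Gz (y s) 0) (dGz (y t) y' 0) t := by
    refine (((h01.smul (hd 1)).add (h02.smul (hd 2))).add (h03.smul (hd 3))).congr_deriv ?_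
    simp only [dGz, mk5_0]
    abel
  have c1 : HasDerivAt (fun s => Gz (y s) 1) (dGz (y t) y' 1) t := by
    refine (((h01.neg.smul (hd 0)).add (h12.smul (hd 2))).add (h13.smul (hd 3))).congr_deriv ?_
    simp only [dGz, mk5_1, Pi.neg_apply]
    abel
  have c2 : HasDerivAt (fun s => Gz (y s) 2) (dGz (y t) y' 2) t := by
    refine (((h02.neg.smul (hd 0)).sub (h12.smul (hd 1))).add (h23.smul (hd 3))).congr_deriv ?_
    simp only [dGz, mk5_2, Pi.neg_apply]
    abel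
  have c3 : HasDerivAt (fun s => Gz (y s) 3) (dGz (y t) y' 3) t := by
    refine (((h03.neg.smul (hd 0)).sub (h13.smul (hd 1))).sub (h23.smul (hd 2))).congr_deriv ?_
    simp only [dGz, mk5_3, Pi.neg_apply]
    abel
  have c4 : HasDerivAt (fun s => Gz (y s) 4) (dGz (y t) y' 4) t := by
    have e : (fun s => Gz (y s) 4) = fun _ => (0 : ℂ) := rfl
    rw [e]
    exact hasDerivAt_const _ _
  rw [hasDerivAt_pi]
  intro j
  fin_cases j
  · exact c0
  · exact c1
  · exact c2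
  · exact c3
  · exact c4

/-- The degenerate fixed point. -/
def z0 : E5 := zs (-1) 0

/-- The degenerate direction. -/
def w0 : E5 := mk5 0 0 Complex.I (-1) 0

/-- The circle direction at the degenerate fixed point. -/
def v0 : E5 := Complex.I • z0

lemma z0_cone : z0 ∈ unitCone := zs_cone (by norm_num)

lemma Gz_z0 : Gz z0 = 0 := by
  have h := Gz_zs (a := -1) (b := 0) (l := 0) (by norm_num) (by norm_num) (by norm_num)
  simpa [z0] using h

lemma g01_z0 : g01 z0 = 0 := by simp [g01, z0, p02_zs]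
lemma g02_z0 : g02 z0 = 0 := by simp [g02, z0, p01_zs]
lemma g03_z0 : g03 z0 = 0 := by simp [g03, z0, p03_zs]
lemma g12_z0 : g12 z0 = 0 := by simp [g12, z0, p12_zs]
lemma g13_z0 : g13 z0 = 0 := by simp [g13, z0, p23_zs]
lemma g23_z0 : g23 z0 = 0 := by simp [g23, z0, p13_zs]

lemma z0_re0 : (z0 0).re = s2 := zs_re0 _ _
lemma z0_im0 : (z0 0).im = 0 := zs_im0 _ _
lemma z0_re1 : (z0 1).re = 0 := zs_re1 _ _
lemma z0_im1 : (z0 1).im = -s2 := by simp [z0, zs_im1]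
lemma z0_re2 : (z0 2).re = 0 := zs_re2 _ _
lemma z0_im2 : (z0 2).im = 0 := by simp [z0, zs_im2]
lemma z0_2 : z0 2 = 0 := by
  apply Complex.ext
  · exact z0_re2
  · exact z0_im2
lemma z0_3 : z0 3 = 0 := rfl
lemma z0_4 : z0 4 = 0 := rfl

lemma dGz_w0 : dGz z0 w0 = mk5 ((4 * s2) • z0 1) (-((4 * s2) • z0 0)) 0 0 0 := by
  have d01 : dp 0 1 z0 w0 = 0 := by simp [dp, w0, z0_re0, z0_im0, z0_re1, z0_im1]
  have d02 : dp 0 2 z0 w0 = 2 * s2 := by simp [dp, w0, z0_re0, z0_im0, z0_2]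
  have d03 : dp 0 3 z0 w0 = 0 := by simp [dp, w0, z0_re0, z0_im0, z0_3]
  have d12 : dp 1 2 z0 w0 = 0 := by simp [dp, w0, z0_re1, z0_im1, z0_2]
  have d13 : dp 1 3 z0 w0 = -(2 * s2) := by simp [dp, w0, z0_re1, z0_im1, z0_3]
  have d23 : dp 2 3 z0 w0 = 0 := by simp [dp, w0, z0_2, z0_3]
  unfold dGz
  rw [d01, d02, d03, d12, d13, d23, g01_z0, g02_z0, g03_z0, g12_z0, g13_z0, g23_z0, z0_2, z0_3]
  refine ext5 ?_ ?_ ?_ ?_ ?_ <;> simp only [mk5_0, mk5_1, mk5_2, mk5_3, mk5_4] <;>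
    simp only [Complex.real_smul] <;> push_cast <;> ring

lemma dGz_v0 : dGz z0 v0 = 0 := by
  have hv0 : (v0 0).re = 0 ∧ (v0 0).im = s2 ∧ (v0 1).re = s2 ∧ (v0 1).im = 0 ∧ v0 2 = 0 ∧ v0 3 = 0 := by
    refine ⟨?_, ?_, ?_, ?_, ?_, ?_⟩
    · simp [v0, z0_re0, z0_im0]
    · simp [v0, z0_re0, z0_im0]
    · simp [v0, z0_re1, z0_im1]
    · simp [v0, z0_re1, z0_im1]
    · simp [v0, z0_2]
    · simp [v0, z0_3]
  obtain ⟨h1, h2, h3, h4, h5, h6⟩ := hv0
  have d01 : dp 0 1 z0 v0 = 0 := by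
    simp only [dp, h1, h2, h3, h4, z0_re0, z0_im0, z0_re1, z0_im1]
    ring
  have d02 : dp 0 2 z0 v0 = 0 := by simp [dp, h1, h2, h5, z0_re0, z0_im0, z0_2]
  have d03 : dp 0 3 z0 v0 = 0 := by simp [dp, h1, h2, h6, z0_re0, z0_im0, z0_3]
  have d12 : dp 1 2 z0 v0 = 0 := by simp [dp, h3, h4, h5, z0_re1, z0_im1, z0_2]
  have d13 : dp 1 3 z0 v0 = 0 := by simp [dp, h3, h4, h6, z0_re1, z0_im1, z0_3]
  have d23 : dp 2 3 z0 v0 = 0 := by simp [dp, h5, h6, z0_2, z0_3]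
  unfold dGz
  rw [d01, d02, d03, d12, d13, d23, g01_z0, g02_z0, g03_z0, g12_z0, g13_z0, g23_z0, z0_2, z0_3]
  refine ext5 ?_ ?_ ?_ ?_ ?_ <;> simp

lemma Ye_line (ε : ℝ) (v : E5) :
    fderiv ℝ (Ye ε) z0 v = (-ε) • dGz z0 v := by
  have hdiff : DifferentiableAt ℝ (Ye ε) z0 :=
    ((contDiff_Ye ε).differentiable (by simp)) z0
  have hline := Gz_line (line_deriv z0 v)
  have hzero : z0 + (0 : ℝ) • v = z0 := by simp
  rw [hzero] at hline
  have h1 : HasDerivAt (fun δ : ℝ => (-ε) • Gz (z0 + δ • v)) ((-ε) • dGz z0 v) 0 :=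
    hline.const_smul (-ε)
  have hcont : Continuous fun δ : ℝ => nsq (z0 + δ • v) :=
    contDiff_nsq.continuous.comp (continuous_const.add (continuous_id.smul continuous_const))
  have hnsq0 : nsq (z0 + (0 : ℝ) • v) < 2 := by
    rw [hzero, ((mem_cone_iff _).1 z0_cone).1]
    norm_num
  have hev : ∀ᶠ δ in 𝓝 (0 : ℝ), nsq (z0 + δ • v) < 2 :=
    hcont.continuousAt.eventually (gt_mem_nhds hnsq0)
  refine fderiv_of_line hdiff (h1.congr_of_eventuallyEq ?_)
  filter_upwards [hev] with δ hδ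
  rw [Ye_eq, chi_eq_one hδ.le, mul_one]

/-- The real number in the degenerate direction. -/
def r0 (ε : ℝ) : ℝ := 4 * s2 * ε

lemma Ye_w0 (ε : ℝ) : fderiv ℝ (Ye ε) z0 w0 = ((r0 ε : ℂ) * Complex.I) • z0 := by
  rw [Ye_line, dGz_w0]
  have hs := s2_sq
  have hz01 : z0 1 = ((-s2 : ℝ) : ℂ) * Complex.I := by
    simp [z0, zs]
  have hz00 : z0 0 = (s2 : ℂ) := rfl
  have hI := Complex.I_mul_I
  refine ext5 ?_ ?_ ?_ ?_ ?_
  · simp only [Pi.smul_apply, mk5_0, smul_eq_mul, Complex.real_smul, r0]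
    rw [hz01, hz00]
    push_cast
    ring
  · simp only [Pi.smul_apply, mk5_1, smul_eq_mul, Complex.real_smul, r0]
    rw [hz01, hz00]
    push_cast
    linear_combination (4 * (s2 : ℂ) * (s2 : ℂ) * (ε : ℂ)) * hI
  · simp [z0_2]
  · simp [z0_3]
  · simp [z0_4]

lemma Ye_v0 (ε : ℝ) : fderiv ℝ (Ye ε) z0 v0 = 0 := by
  rw [Ye_line, dGz_v0, smul_zero]

namespace Setup

variable {S : Setup}

lemma flow_z0 {t : ℝ} (ht : |t| < 2) : S.Φ (t, z0) = z0 := S.flow_eq_const Gz_z0 ht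

/-- The differential of the flow in the degenerate direction. -/
theorem fderiv_flow_w0 :
    fderiv ℝ (fun x' => S.Φ (1, x')) z0 w0 = w0 + ((r0 S.ε : ℂ) * Complex.I) • z0 := by
  set L := fderiv ℝ (Ye S.ε) z0 with hL
  have hdY : Differentiable ℝ (Ye S.ε) := (contDiff_Ye S.ε).differentiable (by simp)
  have hD : ∀ t ∈ Ioo (-2 : ℝ) 2, HasDerivAt (fun s => fderiv ℝ (fun x' => S.Φ (s, x')) z0 w0)
      (L (fderiv ℝ (fun x' => S.Φ (t, x')) z0 w0)) t := by
    intro t ht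
    have ht' : |t| < 2 := abs_lt.2 ht
    have h := variational S.smooth hdY S.ode ht' z0 w0
    rwa [flow_z0 ht'] at h
  have hrI : ((r0 S.ε : ℂ) * Complex.I) • z0 = r0 S.ε • v0 := by
    funext j
    simp only [v0, Pi.smul_apply, smul_eq_mul, Complex.real_smul]
    ring
  have hD' : ∀ t ∈ Ioo (-2 : ℝ) 2, HasDerivAt (fun s : ℝ => w0 + s • (r0 S.ε • v0))
      (L (w0 + t • (r0 S.ε • v0))) t := by
    intro t _
    have h1 := ((hasDerivAt_id t).smul_const (r0 S.ε • v0)).const_add w0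
    refine h1.congr_deriv ?_
    rw [map_add, map_smul, map_smul, hL, Ye_v0, Ye_w0, hrI]
    simp
  have huniq := ODE_solution_unique_of_mem_Ioo (v := fun _ => (L : E5 → E5)) (s := fun _ => univ)
    (K := ‖L‖₊) (a := -2) (b := 2) (t₀ := 0)
    (f := fun s => fderiv ℝ (fun x' => S.Φ (s, x')) z0 w0) (g := fun s : ℝ => w0 + s • (r0 S.ε • v0))
    (fun _ _ => L.lipschitz.lipschitzOnWith) (by norm_num)
    (fun t ht => ⟨hD t ht, mem_univ _⟩) (fun t ht => ⟨hD' t ht, mem_univ _⟩)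
    (by
      have e : (fun x' => S.Φ (0, x')) = id := by
        funext x'
        exact S.init x'
      simp [e])
  have h1 := huniq (show (1 : ℝ) ∈ Ioo (-2 : ℝ) 2 by norm_num)
  simp only at h1
  rw [h1, hrI, one_smul]

end Setup

/-- `negA` as a real linear map. -/
def negALin : E5 →ₗ[ℝ] E5 where
  toFun := negA
  map_add' := fun x y => by
    refine ext5 ?_ ?_ ?_ ?_ ?_ <;> simp [negA] <;> ring
  map_smul' := fun r x => by
    refine ext5 ?_ ?_ ?_ ?_ ?_ <;> simp [negA]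

/-- `negA` as a continuous real linear map. -/
def negACLM : E5 →L[ℝ] E5 := LinearMap.toContinuousLinearMap negALin

lemma negACLM_apply (x : E5) : negACLM x = negA x := rfl

end Crest.Agent.Lib.QuadricFlow
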