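import Crest.Agent.Lib.QuadricSetup

/-!
# Classification of the fixed points of the flow composed with the rotation
-/

open scoped ContDiff Topology NNReal
open Set

set_option linter.unusedSectionVars false
set_option linter.unusedSimpArgs false

noncomputable section

namespace Crest.Agent.Lib.QuadricFlow

open Crest.GeometryTopology.Quadric

/-- A small Lipschitz closed system has no nonconstant periodic orbit of period `1`. -/
theorem no_periodic {ι : Type} [Fintype ι] {P V : ℝ → ι → ℝ} {L : ℝ} (hL : L < 1)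
    (hP : ∀ s ∈ Icc (0 : ℝ) 1, HasDerivAt P (V s) s) (hV : ContinuousOn V (Icc (0 : ℝ) 1))
    (hLip : ∀ s ∈ Icc (0 : ℝ) 1, ∀ s' ∈ Icc (0 : ℝ) 1, ∀ k, |V s k - V s' k| ≤ L * ‖P s - P s'‖)
    (hper : P 1 = P 0) : V 0 = 0 := by
  have hcomp : IsCompact (Icc (0 : ℝ) 1) := isCompact_Icc
  have hne : (Icc (0 : ℝ) 1).Nonempty := ⟨0, by norm_num, by norm_num⟩
  obtain ⟨s₀, hs₀, hmax⟩ := hcomp.exists_isMaxOn hne (hV.norm)
  have hmax' : ∀ s ∈ Icc (0 : ℝ) 1, ‖V s‖ ≤ ‖V s₀‖ := fun s hs => hmax hs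
  set M := ‖V s₀‖ with hM
  have hM0 : 0 ≤ M := norm_nonneg _
  -- bound on the displacement
  have hdisp : ∀ s ∈ Icc (0 : ℝ) 1, ∀ s' ∈ Icc (0 : ℝ) 1, ‖P s - P s'‖ ≤ M := by
    intro s hs s' hs'
    have h1 := (convex_Icc (0 : ℝ) 1).norm_image_sub_le_of_norm_hasDerivWithin_le
      (f := P) (f' := V) (s := Icc (0 : ℝ) 1) (C := M)
      (fun x hx => (hP x hx).hasDerivWithinAt) hmax' hs' hs
    have h2 : ‖s - s'‖ ≤ 1 := by
      rw [Real.norm_eq_abs, abs_le]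
      constructor <;> linarith [hs.1, hs.2, hs'.1, hs'.2]
    calc ‖P s - P s'‖ ≤ M * ‖s - s'‖ := h1
      _ ≤ M * 1 := by gcongr
      _ = M := mul_one M
  -- Rolle in each coordinate
  have hrolle : ∀ k, ∃ ξ ∈ Ioo (0 : ℝ) 1, V ξ k = 0 := by
    intro k
    have hcoord : ∀ s ∈ Icc (0 : ℝ) 1, HasDerivAt (fun s => P s k) (V s k) s :=
      fun s hs => (hasDerivAt_pi.1 (hP s hs)) k
    exact exists_hasDerivAt_eq_zero (f := fun s => P s k) (f' := fun s => V s k) (by norm_num)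
      (fun s hs => (hcoord s hs).continuousAt.continuousWithinAt)
      (congrFun hper.symm k) (fun s hs => hcoord s ⟨hs.1.le, hs.2.le⟩)
  have hbound : M ≤ max L 0 * M := by
    rw [hM]
    refine (pi_norm_le_iff_of_nonneg (by positivity)).2 fun k => ?_
    obtain ⟨ξ, hξ, hξ0⟩ := hrolle k
    have hξ' : ξ ∈ Icc (0 : ℝ) 1 := ⟨hξ.1.le, hξ.2.le⟩
    have h1 := hLip s₀ hs₀ ξ hξ' k
    rw [hξ0, sub_zero] at h1
    rw [Real.norm_eq_abs]
    calc |V s₀ k| ≤ L * ‖P s₀ - P ξ‖ := h1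
      _ ≤ max L 0 * ‖P s₀ - P ξ‖ := by gcongr; exact le_max_left _ _
      _ ≤ max L 0 * ‖V s₀‖ := by
        gcongr
        exact hdisp s₀ hs₀ ξ hξ'
  have hL' : max L 0 < 1 := max_lt hL (by norm_num)
  have hM00 : M ≤ 0 := by
    by_contra hpos
    push Not at hpos
    nlinarith
  have hfinal : ‖V 0‖ ≤ 0 := (hmax' 0 ⟨le_rfl, by norm_num⟩).trans hM00
  exact norm_le_zero_iff.1 hfinal

/-! ### Bounds on the cone -/

lemma two_mul_bound (a b c d : ℝ) : |2 * (a * d - b * c)| ≤ a * a + b * b + c * c + d * d :=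
  abs_le.2 ⟨by nlinarith [sq_nonneg (a + d), sq_nonneg (b - c)],
    by nlinarith [sq_nonneg (a - d), sq_nonneg (b + c)]⟩

lemma Pv_bound {z : E5} (hz : nsq z = 1) : ‖Pv z‖ ≤ 1 := by
  refine (pi_norm_le_iff_of_nonneg (by norm_num)).2 fun k => ?_
  rw [Real.norm_eq_abs]
  simp only [nsq, Fin.sum_univ_five] at hz
  have h0 := mul_self_nonneg (z 0).re
  have h1 := mul_self_nonneg (z 0).im
  have h2 := mul_self_nonneg (z 1).re
  have h3 := mul_self_nonneg (z 1).im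
  have h4 := mul_self_nonneg (z 2).re
  have h5 := mul_self_nonneg (z 2).im
  have h6 := mul_self_nonneg (z 3).re
  have h7 := mul_self_nonneg (z 3).im
  have h8 := mul_self_nonneg (z 4).re
  have h9 := mul_self_nonneg (z 4).im
  fin_cases k
  · have := two_mul_bound (z 0).re (z 0).im (z 1).re (z 1).im
    simp only [Pv, p]
    exact this.trans (by linarith)
  · have := two_mul_bound (z 0).re (z 0).im (z 2).re (z 2).im
    simp only [Pv, p]
    exact this.trans (by linarith)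
  · have := two_mul_bound (z 0).re (z 0).im (z 3).re (z 3).im
    simp only [Pv, p]
    exact this.trans (by linarith)
  · have := two_mul_bound (z 1).re (z 1).im (z 2).re (z 2).im
    simp only [Pv, p]
    exact this.trans (by linarith)
  · have := two_mul_bound (z 1).re (z 1).im (z 3).re (z 3).im
    simp only [Pv, p]
    exact this.trans (by linarith)
  · have := two_mul_bound (z 2).re (z 2).im (z 3).re (z 3).im
    simp only [Pv, p]
    exact this.trans (by linarith)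

lemma mul_diff {x x' y y' δ : ℝ} (hx : |x| ≤ 1) (hy' : |y'| ≤ 1)
    (h1 : |x - x'| ≤ δ) (h2 : |y - y'| ≤ δ) (hx' : |x'| ≤ 1) (hy : |y| ≤ 1) :
    -(2 * δ) ≤ x * y - x' * y' ∧ x * y - x' * y' ≤ 2 * δ := by
  have e : x * y - x' * y' = (x - x') * y + x' * (y - y') := by ring
  have h3 : |(x - x') * y| ≤ δ * 1 := by
    rw [abs_mul]
    exact mul_le_mul h1 hy (abs_nonneg _) ((abs_nonneg _).trans h1)
  have h4 : |x' * (y - y')| ≤ 1 * δ := by
    rw [abs_mul]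
    exact mul_le_mul hx' h2 (abs_nonneg _) (by norm_num)
  have h5 := abs_le.1 h3
  have h6 := abs_le.1 h4
  rw [e]
  constructor <;> linarith [h5.1, h5.2, h6.1, h6.2]

lemma Wq_lip {P Q : Fin 6 → ℝ} (hP : ‖P‖ ≤ 1) (hQ : ‖Q‖ ≤ 1) (k : Fin 6) :
    |Wq P k - Wq Q k| ≤ 18 * ‖P - Q‖ := by
  have hPk : ∀ m, |P m| ≤ 1 := fun m => (norm_le_pi_norm P m).trans hP
  have hQk : ∀ m, |Q m| ≤ 1 := fun m => (norm_le_pi_norm Q m).trans hQ
  have hd : ∀ m, |P m - Q m| ≤ ‖P - Q‖ := fun m => norm_le_pi_norm (P - Q) m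
  have hdl : ∀ m, P m - Q m ≤ ‖P - Q‖ := fun m => (abs_le.1 (hd m)).2
  have hdr : ∀ m, -‖P - Q‖ ≤ P m - Q m := fun m => (abs_le.1 (hd m)).1
  have hδ : 0 ≤ ‖P - Q‖ := norm_nonneg _
  have hm : ∀ m n, -(2 * ‖P - Q‖) ≤ P m * P n - Q m * Q n ∧ P m * P n - Q m * Q n ≤ 2 * ‖P - Q‖ :=
    fun m n => mul_diff (hPk m) (hQk n) (hd m) (hd n) (hQk m) (hPk n)
  rw [abs_le]
  fin_cases k
  · simp only [Wq]
    change -(18 * ‖P - Q‖) ≤ 2 * (-(1 + P 0) * P 3 - P 2 * P 4 - P 3 * P 1 + P 5 * P 2) -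
        2 * (-(1 + Q 0) * Q 3 - Q 2 * Q 4 - Q 3 * Q 1 + Q 5 * Q 2) ∧
      2 * (-(1 + P 0) * P 3 - P 2 * P 4 - P 3 * P 1 + P 5 * P 2) -
        2 * (-(1 + Q 0) * Q 3 - Q 2 * Q 4 - Q 3 * Q 1 + Q 5 * Q 2) ≤ 18 * ‖P - Q‖
    constructor <;>
    linarith [(hm 0 3).1, (hm 0 3).2, (hm 2 4).1, (hm 2 4).2, (hm 3 1).1, (hm 3 1).2, (hm 5 2).1,
      (hm 5 2).2, hdl 3, hdr 3]
  · simp only [Wq]
    change -(18 * ‖P - Q‖) ≤ 2 * (P 1 * P 3 - P 2 * P 5 + P 3 * P 0 + P 4 * P 2) -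
        2 * (Q 1 * Q 3 - Q 2 * Q 5 + Q 3 * Q 0 + Q 4 * Q 2) ∧
      2 * (P 1 * P 3 - P 2 * P 5 + P 3 * P 0 + P 4 * P 2) -
        2 * (Q 1 * Q 3 - Q 2 * Q 5 + Q 3 * Q 0 + Q 4 * Q 2) ≤ 18 * ‖P - Q‖
    constructor <;>
    linarith [(hm 1 3).1, (hm 1 3).2, (hm 2 5).1, (hm 2 5).2, (hm 3 0).1, (hm 3 0).2, (hm 4 2).1,
      (hm 4 2).2]
  · simp only [Wq]
    change -(18 * ‖P - Q‖) ≤ 2 * P 5 - 2 * Q 5 ∧ 2 * P 5 - 2 * Q 5 ≤ 18 * ‖P - Q‖
    constructor <;> linarith [hdl 5, hdr 5]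
  · simp only [Wq]
    change -(18 * ‖P - Q‖) ≤ 2 * (-P 1 ^ 2 - P 5 ^ 2 + P 0 * (1 + P 0) + P 4 ^ 2) -
        2 * (-Q 1 ^ 2 - Q 5 ^ 2 + Q 0 * (1 + Q 0) + Q 4 ^ 2) ∧
      2 * (-P 1 ^ 2 - P 5 ^ 2 + P 0 * (1 + P 0) + P 4 ^ 2) -
        2 * (-Q 1 ^ 2 - Q 5 ^ 2 + Q 0 * (1 + Q 0) + Q 4 ^ 2) ≤ 18 * ‖P - Q‖
    constructor <;>
    linarith [(hm 1 1).1, (hm 1 1).2, (hm 5 5).1, (hm 5 5).2, (hm 0 0).1, (hm 0 0).2, (hm 4 4).1,
      (hm 4 4).2, hdl 0, hdr 0]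
  · simp only [Wq]
    change -(18 * ‖P - Q‖) ≤ 2 * (-P 1 * P 2 - P 3 * P 5 + P 2 * P 0 - P 4 * P 3) -
        2 * (-Q 1 * Q 2 - Q 3 * Q 5 + Q 2 * Q 0 - Q 4 * Q 3) ∧
      2 * (-P 1 * P 2 - P 3 * P 5 + P 2 * P 0 - P 4 * P 3) -
        2 * (-Q 1 * Q 2 - Q 3 * Q 5 + Q 2 * Q 0 - Q 4 * Q 3) ≤ 18 * ‖P - Q‖
    constructor <;>
    linarith [(hm 1 2).1, (hm 1 2).2, (hm 3 5).1, (hm 3 5).2, (hm 2 0).1, (hm 2 0).2, (hm 4 3).1,
      (hm 4 3).2]
  · simp only [Wq]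
    change -(18 * ‖P - Q‖) ≤ 2 * (-(1 + P 0) * P 2 + P 3 * P 4 + P 2 * P 1 + P 5 * P 3) -
        2 * (-(1 + Q 0) * Q 2 + Q 3 * Q 4 + Q 2 * Q 1 + Q 5 * Q 3) ∧
      2 * (-(1 + P 0) * P 2 + P 3 * P 4 + P 2 * P 1 + P 5 * P 3) -
        2 * (-(1 + Q 0) * Q 2 + Q 3 * Q 4 + Q 2 * Q 1 + Q 5 * Q 3) ≤ 18 * ‖P - Q‖
    constructor <;>
    linarith [(hm 0 2).1, (hm 0 2).2, (hm 3 4).1, (hm 3 4).2, (hm 2 1).1, (hm 2 1).2, (hm 5 3).1,
      (hm 5 3).2, hdl 2, hdr 2]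

lemma continuous_Wq : Continuous Wq := by
  refine continuous_pi fun k => ?_
  fin_cases k <;> simp only [Wq] <;> fun_prop

namespace Setup

variable {S : Setup}

lemma Pv_curve {x : E5} (hx : x ∈ unitCone) {t : ℝ} (ht : |t| < 2) :
    HasDerivAt (fun s => Pv (S.Φ (s, x))) ((-S.ε) • Wq (Pv (S.Φ (t, x)))) t := by
  have h := curve_deriv_cone (S := S) hx ht
  rw [hasDerivAt_pi]
  intro k
  fin_cases k
  · have h1 := p_hasDerivAt h 0 1
    rw [dp_scale, dp_Gz_0] at h1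
    exact h1
  · have h1 := p_hasDerivAt h 0 2
    rw [dp_scale, dp_Gz_1] at h1
    exact h1
  · have h1 := p_hasDerivAt h 0 3
    rw [dp_scale, dp_Gz_2] at h1
    exact h1
  · have h1 := p_hasDerivAt h 1 2
    rw [dp_scale, dp_Gz_3] at h1
    exact h1
  · have h1 := p_hasDerivAt h 1 3
    rw [dp_scale, dp_Gz_4] at h1
    exact h1
  · have h1 := p_hasDerivAt h 2 3
    rw [dp_scale, dp_Gz_5] at h1
    exact h1

lemma abs_lt_two_of_mem {s : ℝ} (hs : s ∈ Icc (0 : ℝ) 1) : |s| < 2 := by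
  rw [abs_of_nonneg hs.1]
  linarith [hs.2]

/-- A periodic orbit of the system for the `p i j` is an equilibrium. -/
theorem Wq_zero_of_periodic {x : E5} (hx : x ∈ unitCone) (hper : Pv (S.Φ (1, x)) = Pv x) :
    Wq (Pv x) = 0 := by
  have hε := S.ε_pos
  have hε2 := S.ε_le
  have hP : ∀ s ∈ Icc (0 : ℝ) 1, HasDerivAt (fun s => Pv (S.Φ (s, x)))
      ((fun s => (-S.ε) • Wq (Pv (S.Φ (s, x)))) s) s :=
    fun s hs => Pv_curve hx (abs_lt_two_of_mem hs)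
  have hcontP : ContinuousOn (fun s => Pv (S.Φ (s, x))) (Icc (0 : ℝ) 1) :=
    fun s hs => (hP s hs).continuousAt.continuousWithinAt
  have hV : ContinuousOn (fun s => (-S.ε) • Wq (Pv (S.Φ (s, x)))) (Icc (0 : ℝ) 1) :=
    ((continuous_Wq.comp_continuousOn hcontP).const_smul (-S.ε))
  have hbd : ∀ s ∈ Icc (0 : ℝ) 1, ‖Pv (S.Φ (s, x))‖ ≤ 1 := fun s hs =>
    Pv_bound ((mem_cone_iff _).1 (flow_cone hx (abs_lt_two_of_mem hs))).1
  have hL : S.ε * 18 < 1 := by linarith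
  have h := no_periodic (P := fun s => Pv (S.Φ (s, x)))
    (V := fun s => (-S.ε) • Wq (Pv (S.Φ (s, x)))) hL hP hV
    (fun s hs s' hs' k => by
      have h1 := Wq_lip (hbd s hs) (hbd s' hs') k
      have e : ((-S.ε) • Wq (Pv (S.Φ (s, x)))) k - ((-S.ε) • Wq (Pv (S.Φ (s', x)))) k
          = (-S.ε) * (Wq (Pv (S.Φ (s, x))) k - Wq (Pv (S.Φ (s', x))) k) := by
        simp only [Pi.smul_apply, smul_eq_mul]
        ring
      rw [e, abs_mul, abs_neg, abs_of_pos hε]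
      calc S.ε * |Wq (Pv (S.Φ (s, x))) k - Wq (Pv (S.Φ (s', x))) k|
          ≤ S.ε * (18 * ‖Pv (S.Φ (s, x)) - Pv (S.Φ (s', x))‖) := by gcongr
        _ = S.ε * 18 * ‖Pv (S.Φ (s, x)) - Pv (S.Φ (s', x))‖ := by ring)
    (by simp only [S.init]; exact hper)
  simp only [S.init] at h
  have hne : (-S.ε) ≠ 0 := by
    intro h'
    linarith
  exact (smul_eq_zero.1 h).resolve_left hne

/-- There is no point moved to its "antipode". -/
theorem no_antipodal {x : E5} (hx : x ∈ unitCone)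
    (h0 : S.Φ (1, x) 0 = - x 0) (h1 : S.Φ (1, x) 1 = - x 1) (h2 : S.Φ (1, x) 2 = - x 2)
    (h3 : S.Φ (1, x) 3 = - x 3) : False := by
  set e : E5 := mk5 0 0 0 0 (x 4) with he
  have hGe : Gz e = 0 := by
    refine ext5 ?_ ?_ ?_ ?_ ?_ <;> simp [Gz, he]
  have hYe : Ye S.ε e = 0 := by simp [Ye, Y1, hGe]
  set δ := dist x e with hδ
  have hδ0 : 0 ≤ δ := dist_nonneg
  have hK0 : (0 : ℝ) ≤ S.K := S.K.2
  have hK1 := S.K_lt
  have hode : ∀ s ∈ Icc (0 : ℝ) 1, HasDerivAt (fun s => S.Φ (s, x)) (Ye S.ε (S.Φ (s, x))) s :=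
    fun s hs => S.ode s x (abs_lt_two_of_mem hs)
  have hgron := dist_le_of_trajectories_ODE (v := fun _ => Ye S.ε) (K := S.K) (δ := δ)
    (f := fun s => S.Φ (s, x)) (g := fun _ => e) (a := 0) (b := 1)
    (fun _ => S.lip)
    (fun s hs => (hode s hs).continuousAt.continuousWithinAt)
    (fun s hs => (hode s ⟨hs.1, hs.2.le⟩).hasDerivWithinAt)
    continuousOn_const
    (fun s _ => by rw [hYe]; exact (hasDerivAt_const s e).hasDerivWithinAt)
    (by simp [S.init, hδ])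
  -- exponential bound
  have hexp : Real.exp (1 / 2) ≤ 2 := by
    have h4 : Real.exp (1 / 2) * Real.exp (1 / 2) = Real.exp 1 := by
      rw [← Real.exp_add]; norm_num
    have h5 := Real.exp_one_lt_d9
    have h6 := Real.exp_pos (1 / 2)
    nlinarith
  have hbound : ∀ s ∈ Icc (0 : ℝ) 1, ‖Ye S.ε (S.Φ (s, x))‖ ≤ (S.K * 2) * δ := by
    intro s hs
    have h4 := hgron s hs
    have h5 : Real.exp (S.K * (s - 0)) ≤ 2 := by
      refine (Real.exp_le_exp.2 ?_).trans hexp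
      rw [sub_zero]
      nlinarith [hs.1, hs.2]
    have h6 : dist (S.Φ (s, x)) e ≤ 2 * δ := by
      calc _ ≤ δ * Real.exp (S.K * (s - 0)) := h4
        _ ≤ δ * 2 := by gcongr
        _ = 2 * δ := by ring
    have h7 := S.lip.dist_le_mul (S.Φ (s, x)) e
    rw [hYe, dist_zero_right] at h7
    calc _ ≤ S.K * dist (S.Φ (s, x)) e := h7
      _ ≤ S.K * (2 * δ) := by gcongr
      _ = (S.K * 2) * δ := by ring
  have hmv := (convex_Icc (0 : ℝ) 1).norm_image_sub_le_of_norm_hasDerivWithin_le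
      (f := fun s => S.Φ (s, x)) (f' := fun s => Ye S.ε (S.Φ (s, x))) (s := Icc (0 : ℝ) 1)
      (C := (S.K * 2) * δ) (x := 0) (y := 1)
      (fun s hs => (hode s hs).hasDerivWithinAt) hbound ⟨le_rfl, by norm_num⟩ ⟨by norm_num, le_rfl⟩
  simp only [S.init] at hmv
  have h4' : S.Φ (1, x) 4 = x 4 := flow_coord4 x (by norm_num)
  have hdiff : S.Φ (1, x) - x = (-2 : ℝ) • (x - e) := by
    refine ext5 ?_ ?_ ?_ ?_ ?_
    · simp [h0, he]; ring
    · simp [h1, he]; ring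
    · simp [h2, he]; ring
    · simp [h3, he]; ring
    · simp [h4', he]
  have hnorm : ‖S.Φ (1, x) - x‖ = 2 * δ := by
    rw [hdiff, norm_smul, hδ, dist_eq_norm]
    norm_num
  rw [hnorm] at hmv
  have hδz : δ ≤ 0 := by
    have h5 : ‖(1 : ℝ) - 0‖ = 1 := by norm_num
    rw [h5, mul_one] at hmv
    by_contra hpos
    push Not at hpos
    nlinarith
  have hxe : x = e := by
    have : dist x e ≤ 0 := hδz
    exact dist_le_zero.1 this
  have hc := (mem_cone_iff x).1 hx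
  rw [hxe] at hc
  simp only [nsq, q1, q2, Fin.sum_univ_five, he, mk5_0, mk5_1, mk5_2, mk5_3, mk5_4, Complex.zero_re,
    Complex.zero_im, mul_zero, add_zero, zero_add, sub_zero] at hc
  obtain ⟨h5, h6, h7⟩ := hc
  have h8 : (x 4).re * (x 4).re = 1 / 2 := by linarith
  have h9 : (x 4).im * (x 4).im = 1 / 2 := by linarith
  have h10 : ((x 4).re * (x 4).im) * ((x 4).re * (x 4).im) = 1 / 4 := by
    have : ((x 4).re * (x 4).im) * ((x 4).re * (x 4).im)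
        = ((x 4).re * (x 4).re) * ((x 4).im * (x 4).im) := by ring
    rw [this, h8, h9]
    norm_num
  rw [h7] at h10
  norm_num at h10

end Setup

end Crest.Agent.Lib.QuadricFlow
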