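import Crest.Agent.Lib.QuadricFixed

/-!
# The three fixed lines
-/

open scoped ContDiff Topology NNReal
open Set

set_option linter.unusedSectionVars false
set_option linter.unusedSimpArgs false
set_option linter.unusedVariables false

noncomputable section

namespace Crest.Agent.Lib.QuadricFlow

open Crest.GeometryTopology.Quadric

/-! ### Solving the critical point equations -/

lemma solve_W {a b c d e f : ℝ}
    (h0 : 2 * (-(1 + a) * d - c * e - d * b + f * c) = 0)
    (h1 : 2 * (b * d - c * f + d * a + e * c) = 0)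
    (h2 : 2 * f = 0)
    (h3 : 2 * (-b ^ 2 - f ^ 2 + a * (1 + a) + e ^ 2) = 0)
    (h4 : 2 * (-b * c - d * f + c * a - e * d) = 0)
    (h5 : 2 * (-(1 + a) * c + d * e + c * b + f * d) = 0)
    (hA : (a + f) ^ 2 + (b - e) ^ 2 + (c + d) ^ 2 = 1)
    (hB : (a - f) ^ 2 + (b + e) ^ 2 + (c - d) ^ 2 = 1) :
    c = 0 ∧ d = 0 ∧ e = 0 ∧ f = 0 ∧ ((a = -1 ∧ b = 0) ∨ (a = 1 / 2 ∧ b ^ 2 = 3 / 4)) := by
  have hf : f = 0 := by linarith
  subst hf
  have hc : c = 0 := by linear_combination (-1 / 2) * h4 + (-1 / 2) * h5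
  subst hc
  have hd : d = 0 := by linear_combination (-1 / 2) * h0 + (-1 / 2) * h1
  subst hd
  have hbe : b * e = 0 := by linear_combination (1 / 4) * hB - (1 / 4) * hA
  have hsum : a ^ 2 + b ^ 2 + e ^ 2 = 1 := by linear_combination (1 / 2) * hA + (1 / 2) * hB
  have h3' : -b ^ 2 + a * (1 + a) + e ^ 2 = 0 := by linear_combination (1 / 2) * h3
  rcases mul_eq_zero.1 hbe with hb | he
  · subst hb
    have ha : a = -1 := by linear_combination h3' - hsum
    subst ha
    have he2 : e ^ 2 = 0 := by linear_combination hsum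
    have he : e = 0 := by simpa using he2
    exact ⟨rfl, rfl, he, rfl, Or.inl ⟨rfl, rfl⟩⟩
  · subst he
    have hfac : (2 * a - 1) * (a + 1) = 0 := by linear_combination h3' + hsum
    rcases mul_eq_zero.1 hfac with ha | ha
    · have ha' : a = 1 / 2 := by linarith
      subst ha'
      refine ⟨rfl, rfl, rfl, rfl, Or.inr ⟨rfl, ?_⟩⟩
      linear_combination hsum
    · have ha' : a = -1 := by linarith
      subst ha'
      have hb2 : b ^ 2 = 0 := by linear_combination hsum
      have hb : b = 0 := by simpa using hb2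
      exact ⟨rfl, rfl, rfl, rfl, Or.inl ⟨rfl, hb⟩⟩

/-- The cone equations in real coordinates, for a point with vanishing fifth coordinate. -/
lemma cone_coords {z : E5} (hz : z ∈ unitCone) (h4 : z 4 = 0) :
    (z 0).re * (z 0).re + (z 0).im * (z 0).im + ((z 1).re * (z 1).re + (z 1).im * (z 1).im)
      + ((z 2).re * (z 2).re + (z 2).im * (z 2).im) + ((z 3).re * (z 3).re + (z 3).im * (z 3).im) = 1
    ∧ (z 0).re * (z 0).re - (z 0).im * (z 0).im + ((z 1).re * (z 1).re - (z 1).im * (z 1).im)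
      + ((z 2).re * (z 2).re - (z 2).im * (z 2).im) + ((z 3).re * (z 3).re - (z 3).im * (z 3).im) = 0
    ∧ (z 0).re * (z 0).im + (z 1).re * (z 1).im + (z 2).re * (z 2).im + (z 3).re * (z 3).im = 0 := by
  obtain ⟨h1, h2, h3⟩ := (mem_cone_iff z).1 hz
  simp only [nsq, q1, q2, Fin.sum_univ_five, h4, Complex.zero_re, Complex.zero_im, mul_zero,
    add_zero, sub_zero] at h1 h2 h3
  exact ⟨h1, h2, h3⟩

lemma constraint_A {z : E5} (hz : z ∈ unitCone) (h4 : z 4 = 0) :
    (p 0 1 z + p 2 3 z) ^ 2 + (p 0 2 z - p 1 3 z) ^ 2 + (p 0 3 z + p 1 2 z) ^ 2 = 1 := by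
  obtain ⟨h1, h2, h3⟩ := cone_coords hz h4
  have key : (p 0 1 z + p 2 3 z) ^ 2 + (p 0 2 z - p 1 3 z) ^ 2 + (p 0 3 z + p 1 2 z) ^ 2
      = ((z 0).re * (z 0).re + (z 0).im * (z 0).im + ((z 1).re * (z 1).re + (z 1).im * (z 1).im)
      + ((z 2).re * (z 2).re + (z 2).im * (z 2).im) + ((z 3).re * (z 3).re + (z 3).im * (z 3).im)) ^ 2
      - ((z 0).re * (z 0).re - (z 0).im * (z 0).im + ((z 1).re * (z 1).re - (z 1).im * (z 1).im)
      + ((z 2).re * (z 2).re - (z 2).im * (z 2).im) + ((z 3).re * (z 3).re - (z 3).im * (z 3).im)) ^ 2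
      - 4 * ((z 0).re * (z 0).im + (z 1).re * (z 1).im + (z 2).re * (z 2).im + (z 3).re * (z 3).im) ^ 2 := by
    simp only [p]
    ring
  rw [key, h1, h2, h3]
  norm_num

lemma constraint_B {z : E5} (hz : z ∈ unitCone) (h4 : z 4 = 0) :
    (p 0 1 z - p 2 3 z) ^ 2 + (p 0 2 z + p 1 3 z) ^ 2 + (p 0 3 z - p 1 2 z) ^ 2 = 1 := by
  obtain ⟨h1, h2, h3⟩ := cone_coords hz h4
  have key : (p 0 1 z - p 2 3 z) ^ 2 + (p 0 2 z + p 1 3 z) ^ 2 + (p 0 3 z - p 1 2 z) ^ 2
      = ((z 0).re * (z 0).re + (z 0).im * (z 0).im + ((z 1).re * (z 1).re + (z 1).im * (z 1).im)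
      + ((z 2).re * (z 2).re + (z 2).im * (z 2).im) + ((z 3).re * (z 3).re + (z 3).im * (z 3).im)) ^ 2
      - ((z 0).re * (z 0).re - (z 0).im * (z 0).im + ((z 1).re * (z 1).re - (z 1).im * (z 1).im)
      + ((z 2).re * (z 2).re - (z 2).im * (z 2).im) + ((z 3).re * (z 3).re - (z 3).im * (z 3).im)) ^ 2
      - 4 * ((z 0).re * (z 0).im + (z 1).re * (z 1).im + (z 2).re * (z 2).im + (z 3).re * (z 3).im) ^ 2 := by
    simp only [p]
    ring
  rw [key, h1, h2, h3]
  norm_num

/-- Consequences of the vanishing of `Wq` on the cone. -/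
lemma Pv_cases {z : E5} (hz : z ∈ unitCone) (h4 : z 4 = 0) (hW : Wq (Pv z) = 0) :
    p 0 3 z = 0 ∧ p 1 2 z = 0 ∧ p 1 3 z = 0 ∧ p 2 3 z = 0 ∧
      ((p 0 1 z = -1 ∧ p 0 2 z = 0) ∨ (p 0 1 z = 1 / 2 ∧ p 0 2 z ^ 2 = 3 / 4)) := by
  have h0 := congrFun hW 0
  have h1 := congrFun hW 1
  have h2 := congrFun hW 2
  have h3 := congrFun hW 3
  have h5 := congrFun hW 4
  have h6 := congrFun hW 5
  exact solve_W (a := p 0 1 z) (b := p 0 2 z) (c := p 0 3 z) (d := p 1 2 z) (e := p 1 3 z)
    (f := p 2 3 z) h0 h1 h2 h3 h5 h6 (constraint_A hz h4) (constraint_B hz h4)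

/-! ### The special points -/

/-- `√2 / 2` -/
def s2 : ℝ := Real.sqrt 2 / 2

/-- `√3 / 2` -/
def s3 : ℝ := Real.sqrt 3 / 2

lemma s2_sq : s2 * s2 = 1 / 2 := by
  have h : Real.sqrt 2 * Real.sqrt 2 = 2 := Real.mul_self_sqrt (by norm_num)
  unfold s2
  linear_combination (1 / 4) * h

lemma s3_sq : s3 * s3 = 3 / 4 := by
  have h : Real.sqrt 3 * Real.sqrt 3 = 3 := Real.mul_self_sqrt (by norm_num)
  unfold s3
  linear_combination (1 / 4) * h

lemma s2_pos : 0 < s2 := by
  unfold s2
  positivity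

lemma s3_pos : 0 < s3 := by
  unfold s3
  positivity

/-- The special points on the cone. -/
def zs (a b : ℝ) : E5 :=
  mk5 (s2 : ℂ) (((s2 * a : ℝ) : ℂ) * Complex.I) (((s2 * b : ℝ) : ℂ) * Complex.I) 0 0

lemma zs_re0 (a b : ℝ) : (zs a b 0).re = s2 := by simp [zs]
lemma zs_im0 (a b : ℝ) : (zs a b 0).im = 0 := by simp [zs]
lemma zs_re1 (a b : ℝ) : (zs a b 1).re = 0 := by simp [zs]
lemma zs_im1 (a b : ℝ) : (zs a b 1).im = s2 * a := by simp [zs]
lemma zs_re2 (a b : ℝ) : (zs a b 2).re = 0 := by simp [zs]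
lemma zs_im2 (a b : ℝ) : (zs a b 2).im = s2 * b := by simp [zs]
lemma zs_3 (a b : ℝ) : zs a b 3 = 0 := rfl
lemma zs_4 (a b : ℝ) : zs a b 4 = 0 := rfl

lemma zs_cone {a b : ℝ} (h : a * a + b * b = 1) : zs a b ∈ unitCone := by
  rw [mem_cone_iff]
  have hs := s2_sq
  refine ⟨?_, ?_, ?_⟩
  · simp only [nsq, Fin.sum_univ_five, zs_re0, zs_im0, zs_re1, zs_im1, zs_re2, zs_im2, zs_3, zs_4,
      Complex.zero_re, Complex.zero_im]
    linear_combination (a * a + b * b + 1) * hs + (1 / 2) * h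
  · simp only [q1, Fin.sum_univ_five, zs_re0, zs_im0, zs_re1, zs_im1, zs_re2, zs_im2, zs_3, zs_4,
      Complex.zero_re, Complex.zero_im]
    linear_combination (1 - a * a - b * b) * hs - (1 / 2) * h
  · simp only [q2, Fin.sum_univ_five, zs_re0, zs_im0, zs_re1, zs_im1, zs_re2, zs_im2, zs_3, zs_4,
      Complex.zero_re, Complex.zero_im]
    ring

lemma p01_zs (a b : ℝ) : p 0 1 (zs a b) = a := by
  have hs := s2_sq
  simp only [p, zs_re0, zs_im0, zs_re1, zs_im1]
  linear_combination 2 * a * hs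

lemma p02_zs (a b : ℝ) : p 0 2 (zs a b) = b := by
  have hs := s2_sq
  simp only [p, zs_re0, zs_im0, zs_re2, zs_im2]
  linear_combination 2 * b * hs

lemma p03_zs (a b : ℝ) : p 0 3 (zs a b) = 0 := by simp [p, zs_3]
lemma p12_zs (a b : ℝ) : p 1 2 (zs a b) = 0 := by simp [p, zs_re1, zs_re2]
lemma p13_zs (a b : ℝ) : p 1 3 (zs a b) = 0 := by simp [p, zs_3]
lemma p23_zs (a b : ℝ) : p 2 3 (zs a b) = 0 := by simp [p, zs_3]

/-- Eigenvector equation for the special points. -/
lemma Gz_zs {a b l : ℝ} (h1 : b * (2 + 4 * a) = l) (h2 : l * a = 2 * b) (h3 : l * b = 2 * (1 + a)) :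
    Gz (zs a b) = ((l : ℂ) * Complex.I) • zs a b := by
  have e01 : g01 (zs a b) = 2 * b := by rw [g01, p02_zs]
  have e02 : g02 (zs a b) = 2 * (1 + a) := by rw [g02, p01_zs]
  have e03 : g03 (zs a b) = 0 := by simp [g03, p03_zs]
  have e12 : g12 (zs a b) = 0 := by simp [g12, p12_zs]
  have e13 : g13 (zs a b) = 0 := by simp [g13, p23_zs]
  have e23 : g23 (zs a b) = 0 := by simp [g23, p13_zs]
  refine ext5 ?_ ?_ ?_ ?_ ?_
  · apply Complex.ext
    · simp only [Pi.smul_apply, smul_eq_mul, Complex.mul_re, Complex.mul_im, Complex.ofReal_re,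
        Complex.ofReal_im, Complex.I_re, Complex.I_im, Gz_re0, e01, e02, e03, zs_re0, zs_im0,
        zs_re1, zs_im1, zs_re2, zs_im2, zs_3, Complex.zero_re, Complex.zero_im]
      ring
    · simp only [Pi.smul_apply, smul_eq_mul, Complex.mul_re, Complex.mul_im, Complex.ofReal_re,
        Complex.ofReal_im, Complex.I_re, Complex.I_im, Gz_im0, e01, e02, e03, zs_re0, zs_im0,
        zs_re1, zs_im1, zs_re2, zs_im2, zs_3, Complex.zero_re, Complex.zero_im]
      linear_combination s2 * h1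
  · apply Complex.ext
    · simp only [Pi.smul_apply, smul_eq_mul, Complex.mul_re, Complex.mul_im, Complex.ofReal_re,
        Complex.ofReal_im, Complex.I_re, Complex.I_im, Gz_re1, e01, e12, e13, zs_re0, zs_im0,
        zs_re1, zs_im1, zs_re2, zs_im2, zs_3, Complex.zero_re, Complex.zero_im]
      linear_combination s2 * h2
    · simp only [Pi.smul_apply, smul_eq_mul, Complex.mul_re, Complex.mul_im, Complex.ofReal_re,
        Complex.ofReal_im, Complex.I_re, Complex.I_im, Gz_im1, e01, e12, e13, zs_re0, zs_im0,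
        zs_re1, zs_im1, zs_re2, zs_im2, zs_3, Complex.zero_re, Complex.zero_im]
      ring
  · apply Complex.ext
    · simp only [Pi.smul_apply, smul_eq_mul, Complex.mul_re, Complex.mul_im, Complex.ofReal_re,
        Complex.ofReal_im, Complex.I_re, Complex.I_im, Gz_re2, e02, e12, e23, zs_re0, zs_im0,
        zs_re1, zs_im1, zs_re2, zs_im2, zs_3, Complex.zero_re, Complex.zero_im]
      linear_combination s2 * h3
    · simp only [Pi.smul_apply, smul_eq_mul, Complex.mul_re, Complex.mul_im, Complex.ofReal_re,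
        Complex.ofReal_im, Complex.I_re, Complex.I_im, Gz_im2, e02, e12, e23, zs_re0, zs_im0,
        zs_re1, zs_im1, zs_re2, zs_im2, zs_3, Complex.zero_re, Complex.zero_im]
      ring
  · apply Complex.ext
    · simp only [Pi.smul_apply, smul_eq_mul, Complex.mul_re, Complex.mul_im, Complex.ofReal_re,
        Complex.ofReal_im, Complex.I_re, Complex.I_im, Gz_re3, e03, e13, e23, zs_re0, zs_im0,
        zs_re1, zs_im1, zs_re2, zs_im2, zs_3, Complex.zero_re, Complex.zero_im]
      ring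
    · simp only [Pi.smul_apply, smul_eq_mul, Complex.mul_re, Complex.mul_im, Complex.ofReal_re,
        Complex.ofReal_im, Complex.I_re, Complex.I_im, Gz_im3, e03, e13, e23, zs_re0, zs_im0,
        zs_re1, zs_im1, zs_re2, zs_im2, zs_3, Complex.zero_re, Complex.zero_im]
      ring
  · simp [Gz, zs_4]

/-! ### Recovery of the line from the values of the `p i j` -/

lemma recover {z : E5} (hz : z ∈ unitCone) (h4 : z 4 = 0) (h03 : p 0 3 z = 0) (h12 : p 1 2 z = 0)
    (h13 : p 1 3 z = 0) (h23 : p 2 3 z = 0) :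
    z 1 = ((p 0 1 z : ℂ) * Complex.I) * z 0 ∧ z 2 = ((p 0 2 z : ℂ) * Complex.I) * z 0 ∧ z 3 = 0 := by
  obtain ⟨hN, hQ1, hQ2⟩ := cone_coords hz h4
  have r1 : p 0 1 z * (z 0).re - p 1 2 z * (z 2).re - p 1 3 z * (z 3).re = (z 1).im := by
    simp only [p]
    linear_combination (z 1).im * hN + (z 1).im * hQ1 - 2 * (z 1).re * hQ2
  have i1 : p 0 1 z * (z 0).im - p 1 2 z * (z 2).im - p 1 3 z * (z 3).im = -(z 1).re := by
    simp only [p]
    linear_combination 2 * (z 1).im * hQ2 - (z 1).re * hN + (z 1).re * hQ1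
  have r2 : p 0 2 z * (z 0).re + p 1 2 z * (z 1).re - p 2 3 z * (z 3).re = (z 2).im := by
    simp only [p]
    linear_combination (z 2).im * hN + (z 2).im * hQ1 - 2 * (z 2).re * hQ2
  have i2 : p 0 2 z * (z 0).im + p 1 2 z * (z 1).im - p 2 3 z * (z 3).im = -(z 2).re := by
    simp only [p]
    linear_combination 2 * (z 2).im * hQ2 - (z 2).re * hN + (z 2).re * hQ1
  have r3 : p 0 3 z * (z 0).re + p 1 3 z * (z 1).re + p 2 3 z * (z 2).re = (z 3).im := by
    simp only [p]
    linear_combination (z 3).im * hN + (z 3).im * hQ1 - 2 * (z 3).re * hQ2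
  have i3 : p 0 3 z * (z 0).im + p 1 3 z * (z 1).im + p 2 3 z * (z 2).im = -(z 3).re := by
    simp only [p]
    linear_combination 2 * (z 3).im * hQ2 - (z 3).re * hN + (z 3).re * hQ1
  rw [h03, h12, h13, h23] at *
  refine ⟨?_, ?_, ?_⟩
  · apply Complex.ext
    · simp only [Complex.mul_re, Complex.mul_im, Complex.ofReal_re, Complex.ofReal_im, Complex.I_re,
        Complex.I_im]
      linear_combination i1
    · simp only [Complex.mul_re, Complex.mul_im, Complex.ofReal_re, Complex.ofReal_im, Complex.I_re,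
        Complex.I_im]
      linear_combination -r1
  · apply Complex.ext
    · simp only [Complex.mul_re, Complex.mul_im, Complex.ofReal_re, Complex.ofReal_im, Complex.I_re,
        Complex.I_im]
      linear_combination i2
    · simp only [Complex.mul_re, Complex.mul_im, Complex.ofReal_re, Complex.ofReal_im, Complex.I_re,
        Complex.I_im]
      linear_combination -r2
  · apply Complex.ext
    · simp only [Complex.zero_re]
      linear_combination i3
    · simp only [Complex.zero_im]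
      linear_combination -r3

lemma span_eq_zs {z : E5} (hz : z ∈ unitCone) (h4 : z 4 = 0) (h03 : p 0 3 z = 0) (h12 : p 1 2 z = 0)
    (h13 : p 1 3 z = 0) (h23 : p 2 3 z = 0) :
    Submodule.span ℂ {z} = Submodule.span ℂ {zs (p 0 1 z) (p 0 2 z)} := by
  obtain ⟨e1, e2, e3⟩ := recover hz h4 h03 h12 h13 h23
  have hs : (s2 : ℂ) ≠ 0 := by exact_mod_cast s2_pos.ne'
  have hz0 : z 0 ≠ 0 := by
    intro h0
    have hN := ((mem_cone_iff z).1 hz).1
    rw [h0, mul_zero] at e1 e2
    simp [nsq, Fin.sum_univ_five, h0, e1, e2, e3, h4] at hN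
  have hzeq : z = (z 0 / s2) • zs (p 0 1 z) (p 0 2 z) := by
    refine ext5 ?_ ?_ ?_ ?_ ?_
    · simp only [Pi.smul_apply, smul_eq_mul, zs, mk5_0]
      field_simp
    · simp only [Pi.smul_apply, smul_eq_mul, zs, mk5_1]
      rw [e1]
      push_cast
      field_simp
    · simp only [Pi.smul_apply, smul_eq_mul, zs, mk5_2]
      rw [e2]
      push_cast
      field_simp
    · simp [zs, e3]
    · simp [zs, h4]
  have hunit : IsUnit (z 0 / (s2 : ℂ)) := (div_ne_zero hz0 hs).isUnit
  conv_lhs => rw [hzeq]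
  exact Submodule.span_singleton_smul_eq hunit _

/-! ### Classification of the fixed lines -/

/-- The map `A = diag(-1, -1, -1, -1, 1)`. -/
def negA (z : E5) : E5 := mk5 (-z 0) (-z 1) (-z 2) (-z 3) (z 4)

lemma negA_negA (z : E5) : negA (negA z) = z := by
  refine ext5 ?_ ?_ ?_ ?_ ?_ <;> simp [negA]

lemma nsq_negA (z : E5) : nsq (negA z) = nsq z := by
  simp [nsq, negA, Fin.sum_univ_five]

lemma nsq_smul' (c : ℂ) (z : E5) : nsq (c • z) = (c.re * c.re + c.im * c.im) * nsq z := by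
  simp only [nsq, Pi.smul_apply, smul_eq_mul, Complex.mul_re, Complex.mul_im, Finset.mul_sum]
  refine Finset.sum_congr rfl fun j _ => ?_
  ring

namespace Setup

variable {S : Setup}

theorem classify {z : E5} (hz : z ∈ unitCone) {c : ℂ} (h : c • z = negA (S.Φ (1, z))) :
    Submodule.span ℂ {z} = Submodule.span ℂ {zs (-1) 0} ∨
    Submodule.span ℂ {z} = Submodule.span ℂ {zs (1 / 2) s3} ∨
    Submodule.span ℂ {z} = Submodule.span ℂ {zs (1 / 2) (-s3)} := by
  have h1 : |(1 : ℝ)| < 2 := by norm_num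
  have c4 := flow_coord4 (S := S) z h1
  have c0 : c * z 0 = - S.Φ (1, z) 0 := congrFun h 0
  have c1 : c * z 1 = - S.Φ (1, z) 1 := congrFun h 1
  have c2 : c * z 2 = - S.Φ (1, z) 2 := congrFun h 2
  have c3 : c * z 3 = - S.Φ (1, z) 3 := congrFun h 3
  have c4' : c * z 4 = S.Φ (1, z) 4 := congrFun h 4
  by_cases hz4 : z 4 = 0
  · -- the main case
    have hN := ((mem_cone_iff z).1 hz).1
    have hcn : c.re * c.re + c.im * c.im = 1 := by
      have h2 := congrArg nsq h
      rw [nsq_smul', hN, nsq_negA, flow_nsq z h1, hN, mul_one] at h2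
      exact h2
    have hcnorm : ‖(-c)‖ = 1 := by
      have h2 : ‖(-c)‖ ^ 2 = 1 := by
        rw [norm_neg, Complex.sq_norm, Complex.normSq_apply]
        exact hcn
      have h3 : 0 ≤ ‖(-c)‖ := norm_nonneg _
      nlinarith
    have hy : S.Φ (1, z) = (-c) • z := by
      refine ext5 ?_ ?_ ?_ ?_ ?_
      · simp only [Pi.smul_apply, smul_eq_mul]
        linear_combination c0
      · simp only [Pi.smul_apply, smul_eq_mul]
        linear_combination c1
      · simp only [Pi.smul_apply, smul_eq_mul]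
        linear_combination c2
      · simp only [Pi.smul_apply, smul_eq_mul]
        linear_combination c3
      · simp only [Pi.smul_apply, smul_eq_mul]
        rw [c4, hz4, mul_zero]
    have hper : Pv (S.Φ (1, z)) = Pv z := by
      rw [hy]
      unfold Pv
      simp only [p_smul hcnorm]
    have hW := Wq_zero_of_periodic (S := S) hz hper
    obtain ⟨h03, h12, h13, h23, hcases⟩ := Pv_cases hz hz4 hW
    have hspan := span_eq_zs hz hz4 h03 h12 h13 h23
    rcases hcases with ⟨ha, hb⟩ | ⟨ha, hb⟩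
    · left
      rw [hspan, ha, hb]
    · right
      have hs3 := s3_sq
      have hfac : (p 0 2 z - s3) * (p 0 2 z + s3) = 0 := by
        linear_combination hb - hs3
      rcases mul_eq_zero.1 hfac with hb' | hb'
      · left
        have : p 0 2 z = s3 := by linarith
        rw [hspan, ha, this]
      · right
        have : p 0 2 z = -s3 := by linarith
        rw [hspan, ha, this]
  · exfalso
    have hc1 : c = 1 := by
      have h2 : (c - 1) * z 4 = 0 := by
        rw [sub_mul, c4', c4, one_mul, sub_self]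
      exact sub_eq_zero.1 ((mul_eq_zero.1 h2).resolve_right hz4)
    subst hc1
    rw [one_mul] at c0 c1 c2 c3
    exact no_antipodal (S := S) hz (by rw [c0, neg_neg]) (by rw [c1, neg_neg]) (by rw [c2, neg_neg])
      (by rw [c3, neg_neg])

/-- The explicit motion of the special points. -/
theorem flow_zs {a b l : ℝ} (hab : a * a + b * b = 1) (h1 : b * (2 + 4 * a) = l) (h2 : l * a = 2 * b)
    (h3 : l * b = 2 * (1 + a)) {t : ℝ} (ht : |t| < 2) :
    S.Φ (t, zs a b) = Complex.exp (((-S.ε * l * t : ℝ) : ℂ) * Complex.I) • zs a b := by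
  symm
  refine S.flow_unique (c := fun s => Complex.exp (((-S.ε * l * s : ℝ) : ℂ) * Complex.I) • zs a b)
    (fun t ht => ?_) (by simp) ht
  have hnorm : ‖Complex.exp (((-S.ε * l * t : ℝ) : ℂ) * Complex.I)‖ = 1 :=
    Complex.norm_exp_ofReal_mul_I _
  have hYe : Ye S.ε (Complex.exp (((-S.ε * l * t : ℝ) : ℂ) * Complex.I) • zs a b)
      = (((-S.ε * l : ℝ) : ℂ) * Complex.I * Complex.exp (((-S.ε * l * t : ℝ) : ℂ) * Complex.I)) •
        zs a b := by
    rw [Ye_smul _ hnorm, Ye_eq, ((mem_cone_iff _).1 (zs_cone hab)).1, chi_eq_one (by norm_num),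
      mul_one, Gz_zs h1 h2 h3, smul_comm, smul_smul]
    funext j
    simp only [Pi.smul_apply, smul_eq_mul, Complex.real_smul]
    push_cast
    ring
  rw [hYe]
  have hexp : HasDerivAt (fun s : ℝ => Complex.exp (((-S.ε * l * s : ℝ) : ℂ) * Complex.I))
      (((-S.ε * l : ℝ) : ℂ) * Complex.I * Complex.exp (((-S.ε * l * t : ℝ) : ℂ) * Complex.I)) t := by
    have h4 : HasDerivAt (fun w : ℂ => Complex.exp (((-S.ε * l : ℝ) : ℂ) * w * Complex.I))
        (Complex.exp (((-S.ε * l : ℝ) : ℂ) * (t : ℂ) * Complex.I) *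
          (((-S.ε * l : ℝ) : ℂ) * 1 * Complex.I)) (t : ℂ) :=
      (((hasDerivAt_id (t : ℂ)).const_mul _).mul_const _).cexp
    have h5 := h4.comp_ofReal
    simp only [mul_one] at h5
    convert h5 using 1
    · funext s
      push_cast
      ring_nf
    · push_cast
      ring_nf
  exact hexp.smul_const _

end Setup

end Crest.Agent.Lib.QuadricFlow
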