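import Crest.Agent.Lib.QuadricLines

/-!
# The rotation, the lift, and the Hamilton equation
-/

open scoped ContDiff Topology NNReal
open Set

set_option linter.unusedSectionVars false
set_option linter.unusedSimpArgs false
set_option linter.unusedVariables false

noncomputable section

namespace Crest.Agent.Lib.QuadricFlow

open Crest.GeometryTopology.Quadric

/-- The rotation `R(t)`. -/
def rot (t : ℝ) (y : E5) : E5 :=
  mk5 (Real.cos (Real.pi * t) • y 0 + Real.sin (Real.pi * t) • y 1)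
    (-Real.sin (Real.pi * t) • y 0 + Real.cos (Real.pi * t) • y 1)
    (Real.cos (Real.pi * t) • y 2 + Real.sin (Real.pi * t) • y 3)
    (-Real.sin (Real.pi * t) • y 2 + Real.cos (Real.pi * t) • y 3)
    (y 4)

/-- The generator of the rotation. -/
def Jv (v : E5) : E5 := mk5 (v 1) (-v 0) (v 3) (-v 2) 0

lemma rot_zero (y : E5) : rot 0 y = y := by
  refine ext5 ?_ ?_ ?_ ?_ ?_ <;> simp [rot]

lemma rot_one (y : E5) : rot 1 y = negA y := by
  refine ext5 ?_ ?_ ?_ ?_ ?_ <;> simp [rot, negA]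

lemma cast_sq_aux {c s : ℝ} (h : c * c + s * s = 1) : (c : ℂ) * (c : ℂ) + (s : ℂ) * (s : ℂ) = 1 := by
  exact_mod_cast h

lemma rot_neg_rot_aux {c s : ℝ} (h : c * c + s * s = 1) (y : E5) :
    (c • (c • y 0 + s • y 1) + (-s) • ((-s) • y 0 + c • y 1) = y 0) ∧
    ((-(-s)) • (c • y 0 + s • y 1) + c • ((-s) • y 0 + c • y 1) = y 1) ∧
    (c • (c • y 2 + s • y 3) + (-s) • ((-s) • y 2 + c • y 3) = y 2) ∧
    ((-(-s)) • (c • y 2 + s • y 3) + c • ((-s) • y 2 + c • y 3) = y 3) := by
  have h' := cast_sq_aux h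
  simp only [Complex.real_smul]
  push_cast
  refine ⟨?_, ?_, ?_, ?_⟩
  · linear_combination (y 0) * h'
  · linear_combination (y 1) * h'
  · linear_combination (y 2) * h'
  · linear_combination (y 3) * h'

lemma rot_neg_rot (t : ℝ) (y : E5) : rot (-t) (rot t y) = y := by
  have h : Real.cos (Real.pi * t) * Real.cos (Real.pi * t)
      + Real.sin (Real.pi * t) * Real.sin (Real.pi * t) = 1 := by
    have h := Real.cos_sq_add_sin_sq (Real.pi * t)
    linear_combination h
  obtain ⟨h0, h1, h2, h3⟩ := rot_neg_rot_aux h y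
  refine ext5 ?_ ?_ ?_ ?_ ?_
  · simp only [rot, mk5_0, mk5_1, mul_neg, Real.cos_neg, Real.sin_neg]
    exact h0
  · simp only [rot, mk5_0, mk5_1, mul_neg, Real.cos_neg, Real.sin_neg]
    exact h1
  · simp only [rot, mk5_2, mk5_3, mul_neg, Real.cos_neg, Real.sin_neg]
    exact h2
  · simp only [rot, mk5_2, mk5_3, mul_neg, Real.cos_neg, Real.sin_neg]
    exact h3
  · simp [rot]

lemma rot_rot_neg (t : ℝ) (y : E5) : rot t (rot (-t) y) = y := by
  have h := rot_neg_rot (-t) y
  rwa [neg_neg] at h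

lemma rot_smul (t : ℝ) (c : ℂ) (y : E5) : rot t (c • y) = c • rot t y := by
  refine ext5 ?_ ?_ ?_ ?_ ?_ <;>
  · simp only [rot, mk5_0, mk5_1, mk5_2, mk5_3, mk5_4, Pi.smul_apply, smul_eq_mul, Complex.real_smul]
    try ring

lemma rot_add (t : ℝ) (x y : E5) : rot t (x + y) = rot t x + rot t y := by
  refine ext5 ?_ ?_ ?_ ?_ ?_ <;>
  · simp only [rot, mk5_0, mk5_1, mk5_2, mk5_3, mk5_4, Pi.add_apply, smul_eq_mul, Complex.real_smul]
    try ring

lemma rot_rsmul (t : ℝ) (r : ℝ) (y : E5) : rot t (r • y) = r • rot t y := by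
  refine ext5 ?_ ?_ ?_ ?_ ?_ <;>
  · simp only [rot, mk5_0, mk5_1, mk5_2, mk5_3, mk5_4, Pi.smul_apply, smul_eq_mul, Complex.real_smul]
    try ring

lemma cos_sq_add_real (t : ℝ) : Real.cos (Real.pi * t) * Real.cos (Real.pi * t)
    + Real.sin (Real.pi * t) * Real.sin (Real.pi * t) = 1 := by
  have h := Real.cos_sq_add_sin_sq (Real.pi * t)
  linear_combination h

lemma nsq_rot (t : ℝ) (y : E5) : nsq (rot t y) = nsq y := by
  have h := cos_sq_add_real t
  simp only [nsq, Fin.sum_univ_five, rot, mk5_0, mk5_1, mk5_2, mk5_3, mk5_4, Complex.add_re,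
    Complex.add_im, Complex.smul_re, Complex.smul_im, smul_eq_mul]
  linear_combination ((y 0).re * (y 0).re + (y 0).im * (y 0).im + (y 1).re * (y 1).re +
    (y 1).im * (y 1).im + (y 2).re * (y 2).re + (y 2).im * (y 2).im + (y 3).re * (y 3).re +
    (y 3).im * (y 3).im) * h

lemma q1_rot (t : ℝ) (y : E5) : q1 (rot t y) = q1 y := by
  have h := cos_sq_add_real t
  simp only [q1, Fin.sum_univ_five, rot, mk5_0, mk5_1, mk5_2, mk5_3, mk5_4, Complex.add_re,
    Complex.add_im, Complex.smul_re, Complex.smul_im, smul_eq_mul]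
  linear_combination ((y 0).re * (y 0).re - (y 0).im * (y 0).im + (y 1).re * (y 1).re -
    (y 1).im * (y 1).im + (y 2).re * (y 2).re - (y 2).im * (y 2).im + (y 3).re * (y 3).re -
    (y 3).im * (y 3).im) * h

lemma q2_rot (t : ℝ) (y : E5) : q2 (rot t y) = q2 y := by
  have h := cos_sq_add_real t
  simp only [q2, Fin.sum_univ_five, rot, mk5_0, mk5_1, mk5_2, mk5_3, mk5_4, Complex.add_re,
    Complex.add_im, Complex.smul_re, Complex.smul_im, smul_eq_mul]
  linear_combination ((y 0).re * (y 0).im + (y 1).re * (y 1).im + (y 2).re * (y 2).im +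
    (y 3).re * (y 3).im) * h

lemma rot_cone {y : E5} (hy : y ∈ unitCone) (t : ℝ) : rot t y ∈ unitCone := by
  rw [mem_cone_iff] at hy ⊢
  rw [nsq_rot, q1_rot, q2_rot]
  exact hy

lemma herm_im_add (u v w : E5) : (herm (u + v) w).im = (herm u w).im + (herm v w).im := by
  simp only [herm_im, ← Finset.sum_add_distrib]
  refine Finset.sum_congr rfl fun j _ => ?_
  simp only [Pi.add_apply, Complex.add_re, Complex.add_im]
  ring

lemma herm_im_smul (r : ℝ) (u w : E5) : (herm (r • u) w).im = r * (herm u w).im := by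
  simp only [herm_im, Finset.mul_sum]
  refine Finset.sum_congr rfl fun j _ => ?_
  simp only [Pi.smul_apply, Complex.smul_re, Complex.smul_im, smul_eq_mul]
  ring

lemma herm_im_rot (t : ℝ) (u w : E5) : (herm (rot t u) w).im = (herm u (rot (-t) w)).im := by
  simp only [herm_im, Fin.sum_univ_five, rot, mk5_0, mk5_1, mk5_2, mk5_3, mk5_4, Complex.add_re,
    Complex.add_im, Complex.smul_re, Complex.smul_im, smul_eq_mul, mul_neg, Real.cos_neg,
    Real.sin_neg]
  ring

lemma herm_im_Jv (x w : E5) : 2 * (herm (Jv x) w).im = -(dp 0 1 x w + dp 2 3 x w) := by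
  simp only [herm_im, Fin.sum_univ_five, Jv, mk5_0, mk5_1, mk5_2, mk5_3, mk5_4, dp, Complex.neg_re,
    Complex.neg_im, Complex.zero_re, Complex.zero_im]
  ring

lemma herm_im_Gz (y w : E5) : 2 * (herm (Gz y) w).im = -dFt y w := by
  simp only [herm_im, Fin.sum_univ_five, Gz_re0, Gz_re1, Gz_re2, Gz_re3, Gz_re4, Gz_im0, Gz_im1,
    Gz_im2, Gz_im3, Gz_im4, dFt, dp]
  ring

lemma Ft_hasDerivAt {y : ℝ → E5} {y' : E5} {t : ℝ} (h : HasDerivAt y y' t) :
    HasDerivAt (fun s => Ft (y s)) (dFt (y t) y') t := by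
  have h01 := p_hasDerivAt h 0 1
  have h02 := p_hasDerivAt h 0 2
  have h03 := p_hasDerivAt h 0 3
  have h12 := p_hasDerivAt h 1 2
  have h13 := p_hasDerivAt h 1 3
  have h23 := p_hasDerivAt h 2 3
  have h1 := ((((h02.const_mul 2).mul (h01.const_add 1)).add ((h13.const_mul 2).mul h23)).add
    (h03.pow 2)).sub (h12.pow 2)
  refine h1.congr_deriv ?_
  simp only [dFt, g01, g02, g03, g12, g13, g23]
  ring

lemma Ft_smul {c : ℂ} (hc : ‖c‖ = 1) (z : E5) : Ft (c • z) = Ft z := by
  simp only [Ft, Setup.p_smul hc]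

lemma contDiff_Ft : ContDiff ℝ ∞ Ft := by
  unfold Ft
  exact (((((contDiff_const.mul (contDiff_p 0 2)).mul (contDiff_const.add (contDiff_p 0 1))).add
    ((contDiff_const.mul (contDiff_p 1 3)).mul (contDiff_p 2 3)))).add ((contDiff_p 0 3).pow 2)).sub
    ((contDiff_p 1 2).pow 2)

lemma contDiff_rot {X : Type} [NormedAddCommGroup X] [NormedSpace ℝ X] {τ : X → ℝ} {y : X → E5}
    (hτ : ContDiff ℝ ∞ τ) (hy : ContDiff ℝ ∞ y) : ContDiff ℝ ∞ (fun u => rot (τ u) (y u)) := by
  have hc : ContDiff ℝ ∞ (fun u => Real.cos (Real.pi * τ u)) :=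
    Real.contDiff_cos.comp (contDiff_const.mul hτ)
  have hs : ContDiff ℝ ∞ (fun u => Real.sin (Real.pi * τ u)) :=
    Real.contDiff_sin.comp (contDiff_const.mul hτ)
  have hyj : ∀ j, ContDiff ℝ ∞ (fun u => y u j) := fun j => (contDiff_coord j).comp hy
  rw [contDiff_pi]
  intro j
  fin_cases j
  · exact (hc.smul (hyj 0)).add (hs.smul (hyj 1))
  · exact (hs.neg.smul (hyj 0)).add (hc.smul (hyj 1))
  · exact (hc.smul (hyj 2)).add (hs.smul (hyj 3))
  · exact (hs.neg.smul (hyj 2)).add (hc.smul (hyj 3))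
  · exact hyj 4

/-- The derivative of the rotation along a curve. -/
lemma rot_curve {d : ℝ → E5} {d' : E5} {t : ℝ} (h : HasDerivAt d d' t) :
    HasDerivAt (fun s => rot s (d s)) (Real.pi • Jv (rot t (d t)) + rot t d') t := by
  have hlin : HasDerivAt (fun s : ℝ => Real.pi * s) Real.pi t := by
    simpa using (hasDerivAt_id t).const_mul Real.pi
  have hc : HasDerivAt (fun s : ℝ => Real.cos (Real.pi * s))
      (-Real.sin (Real.pi * t) * Real.pi) t := hlin.cos
  have hs : HasDerivAt (fun s : ℝ => Real.sin (Real.pi * s))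
      (Real.cos (Real.pi * t) * Real.pi) t := hlin.sin
  have hs' : HasDerivAt (fun s : ℝ => -Real.sin (Real.pi * s))
      (-(Real.cos (Real.pi * t) * Real.pi)) t := hs.neg
  have hd := hasDerivAt_coord h
  have h0 : HasDerivAt (fun s => rot s (d s) 0) ((Real.pi • Jv (rot t (d t)) + rot t d') 0) t := by
    refine ((hc.smul (hd 0)).add (hs.smul (hd 1))).congr_deriv ?_
    simp only [Pi.add_apply, Pi.smul_apply, Jv, rot, mk5_0, mk5_1, mk5_2, mk5_3, mk5_4,
      Complex.real_smul]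
    generalize Real.cos (Real.pi * t) = c
    generalize Real.sin (Real.pi * t) = s
    push_cast
    ring
  have h1 : HasDerivAt (fun s => rot s (d s) 1) ((Real.pi • Jv (rot t (d t)) + rot t d') 1) t := by
    refine ((hs'.smul (hd 0)).add (hc.smul (hd 1))).congr_deriv ?_
    simp only [Pi.add_apply, Pi.smul_apply, Jv, rot, mk5_0, mk5_1, mk5_2, mk5_3, mk5_4,
      Complex.real_smul]
    generalize Real.cos (Real.pi * t) = c
    generalize Real.sin (Real.pi * t) = s
    push_cast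
    ring
  have h2 : HasDerivAt (fun s => rot s (d s) 2) ((Real.pi • Jv (rot t (d t)) + rot t d') 2) t := by
    refine ((hc.smul (hd 2)).add (hs.smul (hd 3))).congr_deriv ?_
    simp only [Pi.add_apply, Pi.smul_apply, Jv, rot, mk5_0, mk5_1, mk5_2, mk5_3, mk5_4,
      Complex.real_smul]
    generalize Real.cos (Real.pi * t) = c
    generalize Real.sin (Real.pi * t) = s
    push_cast
    ring
  have h3 : HasDerivAt (fun s => rot s (d s) 3) ((Real.pi • Jv (rot t (d t)) + rot t d') 3) t := by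
    refine ((hs'.smul (hd 2)).add (hc.smul (hd 3))).congr_deriv ?_
    simp only [Pi.add_apply, Pi.smul_apply, Jv, rot, mk5_0, mk5_1, mk5_2, mk5_3, mk5_4,
      Complex.real_smul]
    generalize Real.cos (Real.pi * t) = c
    generalize Real.sin (Real.pi * t) = s
    push_cast
    ring
  have h4 : HasDerivAt (fun s => rot s (d s) 4) ((Real.pi • Jv (rot t (d t)) + rot t d') 4) t := by
    refine (hd 4).congr_deriv ?_
    simp [Jv, rot]
  rw [hasDerivAt_pi]
  intro j
  fin_cases j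
  · exact h0
  · exact h1
  · exact h2
  · exact h3
  · exact h4

/-! ### Line derivatives -/

lemma fderiv_of_line {F : Type} [NormedAddCommGroup F] [NormedSpace ℝ F] {f : E5 → F} {x w : E5}
    {d : F} (hf : DifferentiableAt ℝ f x) (h : HasDerivAt (fun δ : ℝ => f (x + δ • w)) d 0) :
    fderiv ℝ f x w = d := by
  have hline : HasDerivAt (fun δ : ℝ => x + δ • w) w 0 := by
    have h1 := ((hasDerivAt_id (0 : ℝ)).smul_const w).const_add x
    simpa using h1
  have hf' : HasFDerivAt f (fderiv ℝ f x) (x + (0 : ℝ) • w) := by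
    simpa using hf.hasFDerivAt
  exact (hf'.comp_hasDerivAt (0 : ℝ) hline).unique h

lemma line_deriv (x w : E5) : HasDerivAt (fun δ : ℝ => x + δ • w) w 0 := by
  have h1 := ((hasDerivAt_id (0 : ℝ)).smul_const w).const_add x
  simpa using h1

/-! ### The lift -/

/-- The reparametrisation of time. -/
def rhoF (t : ℝ) : ℝ := Real.sin (Real.pi / 2 * t)

/-- The derivative of the reparametrisation. -/
def rhoD (t : ℝ) : ℝ := Real.pi / 2 * Real.cos (Real.pi / 2 * t)

lemma rhoF_hasDerivAt (t : ℝ) : HasDerivAt rhoF (rhoD t) t := by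
  have hlin : HasDerivAt (fun s : ℝ => Real.pi / 2 * s) (Real.pi / 2) t := by
    simpa using (hasDerivAt_id t).const_mul (Real.pi / 2)
  have h := hlin.sin
  refine h.congr_deriv ?_
  unfold rhoD
  ring

lemma abs_rhoF_lt (t : ℝ) : |rhoF t| < 2 :=
  lt_of_le_of_lt (Real.abs_sin_le_one _) (by norm_num)

lemma rhoF_zero : rhoF 0 = 0 := by simp [rhoF]

lemma rhoF_one : rhoF 1 = 1 := by simp [rhoF]

lemma contDiff_rhoF : ContDiff ℝ ∞ rhoF :=
  Real.contDiff_sin.comp (contDiff_const.mul contDiff_id)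

lemma contDiff_rhoD : ContDiff ℝ ∞ rhoD :=
  contDiff_const.mul (Real.contDiff_cos.comp (contDiff_const.mul contDiff_id))

namespace Setup

variable (S : Setup)

/-- The lifted isotopy. -/
def PsiF (u : ℝ × E5) : E5 := rot u.1 (S.Φ (rhoF u.1, u.2))

/-- The lifted Hamiltonian. -/
def HF (u : ℝ × E5) : ℝ :=
  -Real.pi * (p 0 1 u.2 + p 2 3 u.2) + rhoD u.1 * S.ε * Ft (rot (-u.1) u.2)

variable {S}

lemma contDiff_flow_rho : ContDiff ℝ ∞ (fun u : ℝ × E5 => S.Φ (rhoF u.1, u.2)) := by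
  rw [contDiff_iff_contDiffAt]
  intro u
  have h1 : ContDiffAt ℝ ∞ S.Φ (rhoF u.1, u.2) := S.smooth _ (abs_rhoF_lt u.1)
  have h2 : ContDiff ℝ ∞ (fun u : ℝ × E5 => (rhoF u.1, u.2)) :=
    (contDiff_rhoF.comp contDiff_fst).prodMk contDiff_snd
  exact h1.comp u h2.contDiffAt

lemma contDiff_PsiF : ContDiff ℝ ∞ S.PsiF :=
  contDiff_rot contDiff_fst contDiff_flow_rho

lemma contDiff_HF : ContDiff ℝ ∞ S.HF := by
  unfold HF
  refine (contDiff_const.mul (((contDiff_p 0 1).comp contDiff_snd).add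
    ((contDiff_p 2 3).comp contDiff_snd))).add
    (((contDiff_rhoD.comp contDiff_fst).mul contDiff_const).mul ?_)
  exact contDiff_Ft.comp (contDiff_rot contDiff_fst.neg contDiff_snd)

lemma PsiF_cone (t : ℝ) {z : E5} (hz : z ∈ unitCone) : S.PsiF (t, z) ∈ unitCone :=
  rot_cone (flow_cone hz (abs_rhoF_lt t)) t

lemma PsiF_smul (t : ℝ) {c : ℂ} (hc : ‖c‖ = 1) (z : E5) : S.PsiF (t, c • z) = c • S.PsiF (t, z) := by
  unfold PsiF
  simp only
  rw [flow_smul hc z (abs_rhoF_lt t), rot_smul]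

lemma PsiF_zero (z : E5) : S.PsiF (0, z) = z := by
  unfold PsiF
  simp only
  rw [rhoF_zero, S.init, rot_zero]

lemma PsiF_one (z : E5) : S.PsiF (1, z) = negA (S.Φ (1, z)) := by
  unfold PsiF
  simp only
  rw [rhoF_one, rot_one]

lemma HF_smul (t : ℝ) {c : ℂ} (hc : ‖c‖ = 1) (z : E5) : S.HF (t, c • z) = S.HF (t, z) := by
  unfold HF
  simp only
  rw [p_smul hc, p_smul hc, rot_smul, Ft_smul hc]

/-- **Hamilton's equation.** -/
theorem hamilton_eq (t : ℝ) {z : E5} (hz : z ∈ unitCone) (w : E5) :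
    2 * (herm (deriv (fun s : ℝ => S.PsiF (s, z)) t) w).im =
      fderiv ℝ (fun x : E5 => S.HF (t, x)) (S.PsiF (t, z)) w := by
  set y := S.Φ (rhoF t, z) with hy
  set x := S.PsiF (t, z) with hx
  have hxy : x = rot t y := rfl
  -- the curve in the flow
  have h1 : HasDerivAt (fun s => S.Φ (rhoF s, z)) (rhoD t • ((-S.ε) • Gz y)) t :=
    HasDerivAt.scomp (h := rhoF) (g₁ := fun s => S.Φ (s, z)) t
      (curve_deriv_cone hz (abs_rhoF_lt t)) (rhoF_hasDerivAt t)
  have h2 : HasDerivAt (fun s => S.PsiF (s, z))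
      (Real.pi • Jv x + rot t (rhoD t • ((-S.ε) • Gz y))) t := rot_curve h1
  rw [h2.deriv]
  -- left-hand side
  have hL : 2 * (herm (Real.pi • Jv x + rot t (rhoD t • ((-S.ε) • Gz y))) w).im
      = -Real.pi * (dp 0 1 x w + dp 2 3 x w) + rhoD t * S.ε * dFt y (rot (-t) w) := by
    rw [herm_im_add, herm_im_smul, rot_rsmul, rot_rsmul, herm_im_smul, herm_im_smul, herm_im_rot]
    have e1 := herm_im_Jv x w
    have e2 := herm_im_Gz y (rot (-t) w)
    linear_combination Real.pi * e1 + (-rhoD t * S.ε) * e2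
  rw [hL]
  -- right-hand side
  have hdiff : DifferentiableAt ℝ (fun x : E5 => S.HF (t, x)) x :=
    ((contDiff_HF.comp (contDiff_prodMk_right t)).differentiable (by simp)) x
  have hline := line_deriv x w
  have hp01 := p_hasDerivAt hline 0 1
  have hp23 := p_hasDerivAt hline 2 3
  have hzero : x + (0 : ℝ) • w = x := by simp
  simp only [hzero] at hp01 hp23
  have hrotline : HasDerivAt (fun δ : ℝ => rot (-t) (x + δ • w)) (rot (-t) w) 0 := by
    have e : (fun δ : ℝ => rot (-t) (x + δ • w)) = fun δ : ℝ => rot (-t) x + δ • rot (-t) w := by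
      funext δ
      rw [rot_add, rot_rsmul]
    rw [e]
    exact line_deriv _ _
  have hFt := Ft_hasDerivAt hrotline
  have hrx : rot (-t) (x + (0 : ℝ) • w) = y := by
    rw [hzero, hxy, rot_neg_rot]
  simp only [hrx] at hFt
  have htotal : HasDerivAt (fun δ : ℝ => S.HF (t, x + δ • w))
      (-Real.pi * (dp 0 1 x w + dp 2 3 x w) + rhoD t * S.ε * dFt y (rot (-t) w)) 0 :=
    ((hp01.add hp23).const_mul (-Real.pi)).add (hFt.const_mul (rhoD t * S.ε))
  rw [fderiv_of_line hdiff htotal]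

end Setup

end Crest.Agent.Lib.QuadricFlow
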