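import Crest.Agent.Lib.QuadricAlg

/-!
# The flow of the cut-off vector field on complex 5-space
-/

open scoped ContDiff Topology NNReal
open Set

set_option linter.unusedSectionVars false
set_option linter.unusedSimpArgs false

noncomputable section

namespace Crest.Agent.Lib.QuadricFlow

open Crest.GeometryTopology.Quadric
open Crest.Agent.Lib.SmoothFlow

/-! ### Smoothness -/

lemma contDiff_coord (j : Fin 5) : ContDiff ℝ ∞ (fun z : E5 => z j) :=
  contDiff_apply ℝ ℂ j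

lemma contDiff_re (j : Fin 5) : ContDiff ℝ ∞ (fun z : E5 => (z j).re) :=
  Complex.reCLM.contDiff.comp (contDiff_coord j)

lemma contDiff_im (j : Fin 5) : ContDiff ℝ ∞ (fun z : E5 => (z j).im) :=
  Complex.imCLM.contDiff.comp (contDiff_coord j)

lemma contDiff_p (i j : Fin 5) : ContDiff ℝ ∞ (p i j) := by
  unfold p
  exact contDiff_const.mul (((contDiff_re i).mul (contDiff_im j)).sub
    ((contDiff_im i).mul (contDiff_re j)))

lemma contDiff_nsq : ContDiff ℝ ∞ nsq := by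
  unfold nsq
  exact ContDiff.sum fun j _ => ((contDiff_re j).mul (contDiff_re j)).add
    ((contDiff_im j).mul (contDiff_im j))

lemma contDiff_g01 : ContDiff ℝ ∞ g01 := contDiff_const.mul (contDiff_p _ _)
lemma contDiff_g02 : ContDiff ℝ ∞ g02 := contDiff_const.mul (contDiff_const.add (contDiff_p _ _))
lemma contDiff_g03 : ContDiff ℝ ∞ g03 := contDiff_const.mul (contDiff_p _ _)
lemma contDiff_g12 : ContDiff ℝ ∞ g12 := contDiff_const.mul (contDiff_p _ _)
lemma contDiff_g13 : ContDiff ℝ ∞ g13 := contDiff_const.mul (contDiff_p _ _)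
lemma contDiff_g23 : ContDiff ℝ ∞ g23 := contDiff_const.mul (contDiff_p _ _)

lemma contDiff_Gz : ContDiff ℝ ∞ Gz := by
  rw [contDiff_pi]
  intro j
  fin_cases j
  · exact ((contDiff_g01.smul (contDiff_coord 1)).add (contDiff_g02.smul (contDiff_coord 2))).add
      (contDiff_g03.smul (contDiff_coord 3))
  · exact ((contDiff_g01.neg.smul (contDiff_coord 0)).add (contDiff_g12.smul (contDiff_coord 2))).add
      (contDiff_g13.smul (contDiff_coord 3))
  · exact ((contDiff_g02.neg.smul (contDiff_coord 0)).sub (contDiff_g12.smul (contDiff_coord 1))).add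
      (contDiff_g23.smul (contDiff_coord 3))
  · exact ((contDiff_g03.neg.smul (contDiff_coord 0)).sub (contDiff_g13.smul (contDiff_coord 1))).sub
      (contDiff_g23.smul (contDiff_coord 2))
  · exact contDiff_const

/-- The cut-off function. -/
def chi (r : ℝ) : ℝ := Real.smoothTransition (3 - r)

lemma chi_eq_one {r : ℝ} (h : r ≤ 2) : chi r = 1 :=
  Real.smoothTransition.one_of_one_le (by linarith)

lemma chi_eq_zero {r : ℝ} (h : 3 ≤ r) : chi r = 0 :=
  Real.smoothTransition.zero_of_nonpos (by linarith)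

lemma contDiff_chi : ContDiff ℝ ∞ chi :=
  Real.smoothTransition.contDiff.comp (contDiff_const.sub contDiff_id)

/-- The cut-off vector field. -/
def Y1 (z : E5) : E5 := chi (nsq z) • Gz z

/-- The small cut-off vector field. -/
def Ye (ε : ℝ) (z : E5) : E5 := (-ε) • Y1 z

lemma contDiff_Y1 : ContDiff ℝ ∞ Y1 :=
  (contDiff_chi.comp contDiff_nsq).smul contDiff_Gz

lemma contDiff_Ye (ε : ℝ) : ContDiff ℝ ∞ (Ye ε) :=
  contDiff_Y1.const_smul (-ε)

lemma norm_sq_le_nsq (z : E5) : ‖z‖ ^ 2 ≤ nsq z := by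
  have hne : (0 : ℝ) ≤ nsq z := by
    unfold nsq
    exact Finset.sum_nonneg fun j _ => add_nonneg (mul_self_nonneg _) (mul_self_nonneg _)
  have hsqrt : ‖z‖ ≤ Real.sqrt (nsq z) := by
    refine (pi_norm_le_iff_of_nonneg (Real.sqrt_nonneg _)).2 fun j => ?_
    apply Real.le_sqrt_of_sq_le
    have h1 : ‖z j‖ ^ 2 = (z j).re * (z j).re + (z j).im * (z j).im := by
      rw [Complex.sq_norm, Complex.normSq_apply]
    rw [h1]
    unfold nsq
    exact Finset.single_le_sum (f := fun j => (z j).re * (z j).re + (z j).im * (z j).im)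
      (fun j _ => add_nonneg (mul_self_nonneg _) (mul_self_nonneg _)) (Finset.mem_univ j)
  calc ‖z‖ ^ 2 ≤ Real.sqrt (nsq z) ^ 2 := by gcongr
    _ = nsq z := Real.sq_sqrt hne

lemma hasCompactSupport_Y1 : HasCompactSupport Y1 := by
  refine HasCompactSupport.intro (K := Metric.closedBall (0 : E5) 2)
    (isCompact_closedBall _ _) fun z hz => ?_
  have h1 : 2 < ‖z‖ := by simpa using hz
  have h2 : 3 ≤ nsq z := by
    have := norm_sq_le_nsq z
    nlinarith
  simp [Y1, chi_eq_zero h2]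

lemma exists_lipschitz_Y1 : ∃ K : ℝ≥0, LipschitzWith K Y1 :=
  contDiff_Y1.lipschitzWith_of_hasCompactSupport hasCompactSupport_Y1 (by simp)

lemma Ye_eq (ε : ℝ) (z : E5) : Ye ε z = (-ε * chi (nsq z)) • Gz z := by
  simp [Ye, Y1, smul_smul]

/-- All the data of the flow. -/
structure Setup where
  ε : ℝ
  ε_pos : 0 < ε
  ε_le : ε ≤ 1 / 72
  K : ℝ≥0
  lip : LipschitzWith K (Ye ε)
  K_lt : (K : ℝ) < 1 / 2
  Φ : ℝ × E5 → E5
  smooth : ∀ u : ℝ × E5, |u.1| < 2 → ContDiffAt ℝ ∞ Φ u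
  init : ∀ x, Φ (0, x) = x
  ode : ∀ t x, |t| < 2 → HasDerivAt (fun s => Φ (s, x)) (Ye ε (Φ (t, x))) t

theorem exists_setup : Nonempty Setup := by
  obtain ⟨K₁, hK₁⟩ := exists_lipschitz_Y1
  set ε : ℝ := min (1 / 72) (1 / (4 * ((K₁ : ℝ) + 1))) with hε
  have hK₁0 : (0 : ℝ) ≤ K₁ := K₁.2
  have h4 : (0 : ℝ) < 4 * ((K₁ : ℝ) + 1) := by positivity
  have hε0 : 0 < ε := lt_min (by norm_num) (by positivity)
  have hε1 : ε ≤ 1 / 72 := min_le_left _ _
  have hε2 : ε * (K₁ : ℝ) < 1 / 2 := by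
    have h5 : ε ≤ 1 / (4 * ((K₁ : ℝ) + 1)) := min_le_right _ _
    have h6 : ε * (4 * ((K₁ : ℝ) + 1)) ≤ 1 := by
      rw [le_div_iff₀ h4] at h5
      exact h5
    nlinarith
  set K : ℝ≥0 := ⟨ε * K₁, by positivity⟩ with hK
  have hlip : LipschitzWith K (Ye ε) := by
    refine LipschitzWith.of_dist_le_mul fun x y => ?_
    have h1 := hK₁.dist_le_mul x y
    unfold Ye
    rw [dist_smul₀, Real.norm_eq_abs, abs_neg, abs_of_pos hε0]
    calc ε * dist (Y1 x) (Y1 y) ≤ ε * (K₁ * dist x y) := by gcongr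
      _ = ε * K₁ * dist x y := by ring
  have hK2 : (K : ℝ) < 1 / 2 := hε2
  obtain ⟨Φ, h1, h2, h3⟩ := exists_smooth_flow (Ye ε) (contDiff_Ye ε) hlip hK2
  exact ⟨⟨ε, hε0, hε1, K, hlip, hK2, Φ, h1, h2, fun t x ht => h3 t x ht⟩⟩

/-! ### Generalities on curves defined on `(-2, 2)` -/

lemma const_on_Ioo {V : Type*} [NormedAddCommGroup V] [NormedSpace ℝ V] {f : ℝ → V}
    (h : ∀ t, |t| < 2 → HasDerivAt f 0 t) {t : ℝ} (ht : |t| < 2) : f t = f 0 := by
  have hs : IsOpen (Ioo (-2 : ℝ) 2) := isOpen_Ioo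
  have hmem : ∀ t, |t| < 2 → t ∈ Ioo (-2 : ℝ) 2 := fun t ht => abs_lt.1 ht
  have hmem' : ∀ t ∈ Ioo (-2 : ℝ) 2, |t| < 2 := fun t ht => abs_lt.2 ht
  exact hs.is_const_of_deriv_eq_zero isPreconnected_Ioo
    (fun x hx => (h x (hmem' x hx)).differentiableAt.differentiableWithinAt)
    (fun x hx => (h x (hmem' x hx)).deriv) (hmem t ht) (hmem 0 (by norm_num))

namespace Setup

variable (S : Setup)

lemma flow_unique {c : ℝ → E5} (hc : ∀ t, |t| < 2 → HasDerivAt c (Ye S.ε (c t)) t) {x : E5}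
    (h0 : c 0 = x) {t : ℝ} (ht : |t| < 2) : c t = S.Φ (t, x) := by
  have hmem : t ∈ Ioo (-2 : ℝ) 2 := abs_lt.1 ht
  have hmem' : ∀ t ∈ Ioo (-2 : ℝ) 2, |t| < 2 := fun t ht => abs_lt.2 ht
  exact ODE_solution_unique_of_mem_Ioo (v := fun _ => Ye S.ε) (s := fun _ => univ) (K := S.K)
    (a := -2) (b := 2) (t₀ := 0) (f := c) (g := fun s => S.Φ (s, x))
    (fun _ _ => S.lip.lipschitzOnWith) (by norm_num)
    (fun t ht => ⟨hc t (hmem' t ht), mem_univ _⟩)
    (fun t ht => ⟨S.ode t x (hmem' t ht), mem_univ _⟩)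
    (by simp [h0, S.init]) hmem

lemma flow_eq_const {x : E5} (hx : Gz x = 0) {t : ℝ} (ht : |t| < 2) : S.Φ (t, x) = x := by
  refine (S.flow_unique (c := fun _ => x) (fun t _ => ?_) rfl ht).symm
  have : Ye S.ε x = 0 := by simp [Ye, Y1, hx]
  rw [this]
  exact hasDerivAt_const _ _

variable {S}

lemma curve_deriv (x : E5) {t : ℝ} (ht : |t| < 2) :
    HasDerivAt (fun s => S.Φ (s, x))
      ((-S.ε * chi (nsq (S.Φ (t, x)))) • Gz (S.Φ (t, x))) t := by
  have := S.ode t x ht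
  rwa [Ye_eq] at this

lemma flow_nsq (x : E5) {t : ℝ} (ht : |t| < 2) : nsq (S.Φ (t, x)) = nsq x := by
  have h : ∀ t, |t| < 2 → HasDerivAt (fun s => nsq (S.Φ (s, x))) 0 t := fun t ht => by
    have h1 := nsq_hasDerivAt (curve_deriv (S := S) x ht)
    rwa [nsq_polar_Gz, mul_zero] at h1
  have h2 := const_on_Ioo h ht
  simpa [S.init] using h2

lemma flow_q1 (x : E5) {t : ℝ} (ht : |t| < 2) : q1 (S.Φ (t, x)) = q1 x := by
  have h : ∀ t, |t| < 2 → HasDerivAt (fun s => q1 (S.Φ (s, x))) 0 t := fun t ht => by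
    have h1 := q1_hasDerivAt (curve_deriv (S := S) x ht)
    rwa [q1_polar_Gz, mul_zero] at h1
  have h2 := const_on_Ioo h ht
  simpa [S.init] using h2

lemma flow_q2 (x : E5) {t : ℝ} (ht : |t| < 2) : q2 (S.Φ (t, x)) = q2 x := by
  have h : ∀ t, |t| < 2 → HasDerivAt (fun s => q2 (S.Φ (s, x))) 0 t := fun t ht => by
    have h1 := q2_hasDerivAt (curve_deriv (S := S) x ht)
    rwa [q2_polar_Gz] at h1
  have h2 := const_on_Ioo h ht
  simpa [S.init] using h2

lemma flow_coord4 (x : E5) {t : ℝ} (ht : |t| < 2) : S.Φ (t, x) 4 = x 4 := by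
  have h : ∀ t, |t| < 2 → HasDerivAt (fun s => S.Φ (s, x) 4) 0 t := fun t ht => by
    have h1 := hasDerivAt_coord (curve_deriv (S := S) x ht) 4
    have h2 : ((-S.ε * chi (nsq (S.Φ (t, x)))) • Gz (S.Φ (t, x))) 4 = 0 := by
      simp [Gz]
    rwa [h2] at h1
  have h2 := const_on_Ioo h ht
  simpa [S.init] using h2

lemma flow_cone {x : E5} (hx : x ∈ unitCone) {t : ℝ} (ht : |t| < 2) : S.Φ (t, x) ∈ unitCone := by
  rw [mem_cone_iff] at hx ⊢
  rw [flow_nsq x ht, flow_q1 x ht, flow_q2 x ht]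
  exact hx

/-- On the cone, the flow is the flow of the uncut vector field. -/
lemma curve_deriv_cone {x : E5} (hx : x ∈ unitCone) {t : ℝ} (ht : |t| < 2) :
    HasDerivAt (fun s => S.Φ (s, x)) ((-S.ε) • Gz (S.Φ (t, x))) t := by
  have h := curve_deriv (S := S) x ht
  have h1 : nsq (S.Φ (t, x)) = 1 := ((mem_cone_iff _).1 (flow_cone hx ht)).1
  rw [h1, chi_eq_one (by norm_num), mul_one] at h
  exact h

/-! ### Equivariance under unit scalars -/

lemma c_sq {c : ℂ} (hc : ‖c‖ = 1) : c.re * c.re + c.im * c.im = 1 := by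
  have h := Complex.sq_norm c
  rw [hc, Complex.normSq_apply] at h
  linarith

lemma p_smul {c : ℂ} (hc : ‖c‖ = 1) (i j : Fin 5) (z : E5) : p i j (c • z) = p i j z := by
  have h := c_sq hc
  simp only [p, Pi.smul_apply, smul_eq_mul, Complex.mul_re, Complex.mul_im]
  linear_combination 2 * ((z i).re * (z j).im - (z i).im * (z j).re) * h

lemma nsq_smul {c : ℂ} (hc : ‖c‖ = 1) (z : E5) : nsq (c • z) = nsq z := by
  have h := c_sq hc
  simp only [nsq, Pi.smul_apply, smul_eq_mul, Complex.mul_re, Complex.mul_im]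
  refine Finset.sum_congr rfl fun j _ => ?_
  linear_combination ((z j).re * (z j).re + (z j).im * (z j).im) * h

lemma Gz_smul {c : ℂ} (hc : ‖c‖ = 1) (z : E5) : Gz (c • z) = c • Gz z := by
  have e01 : g01 (c • z) = g01 z := by simp only [g01, p_smul hc]
  have e02 : g02 (c • z) = g02 z := by simp only [g02, p_smul hc]
  have e03 : g03 (c • z) = g03 z := by simp only [g03, p_smul hc]
  have e12 : g12 (c • z) = g12 z := by simp only [g12, p_smul hc]
  have e13 : g13 (c • z) = g13 z := by simp only [g13, p_smul hc]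
  have e23 : g23 (c • z) = g23 z := by simp only [g23, p_smul hc]
  unfold Gz
  rw [e01, e02, e03, e12, e13, e23]
  refine ext5 ?_ ?_ ?_ ?_ ?_ <;>
  · simp only [mk5_0, mk5_1, mk5_2, mk5_3, mk5_4, Pi.smul_apply, smul_eq_mul, Complex.real_smul]
    ring

lemma Ye_smul (ε : ℝ) {c : ℂ} (hc : ‖c‖ = 1) (z : E5) : Ye ε (c • z) = c • Ye ε z := by
  rw [Ye_eq, Ye_eq, Gz_smul hc, nsq_smul hc, smul_comm]

lemma flow_smul {c : ℂ} (hc : ‖c‖ = 1) (x : E5) {t : ℝ} (ht : |t| < 2) :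
    S.Φ (t, c • x) = c • S.Φ (t, x) := by
  refine (S.flow_unique (c := fun s => c • S.Φ (s, x)) (fun t ht => ?_) ?_ ht).symm
  · rw [Ye_smul _ hc]
    exact (S.ode t x ht).const_smul c
  · simp [S.init]

end Setup

end Crest.Agent.Lib.QuadricFlow
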