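import Mathlib

/-!
# Smooth flows of smooth globally Lipschitz vector fields

We prove that a `C^∞`, globally Lipschitz vector field on a real Banach space has a global flow
which is jointly `C^∞` in time and space.  The proof applies the implicit function theorem on the
Banach space of continuous curves `C(Icc (-1) 1, E)` to the integral equation with a time scaling
parameter.
-/

open scoped ContDiff Topology NNReal
open Set

set_option linter.unusedSectionVars false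

noncomputable section

namespace Crest.Agent.Lib.SmoothFlow

universe u

section Nemytskii

variable {I : Type} [TopologicalSpace I] [CompactSpace I]
variable {E F : Type u} [NormedAddCommGroup E] [NormedSpace ℝ E]
  [NormedAddCommGroup F] [NormedSpace ℝ F]

/-- Post-composition with a continuous map. -/
def nem (f : E → F) (hf : Continuous f) : C(I, E) → C(I, F) :=
  fun γ => (⟨f, hf⟩ : C(E, F)).comp γ

@[simp] lemma nem_apply (f : E → F) (hf : Continuous f) (γ : C(I, E)) (s : I) :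
    nem f hf γ s = f (γ s) := rfl

lemma nem_continuous (f : E → F) (hf : Continuous f) :
    Continuous (nem f hf : C(I, E) → C(I, F)) :=
  ContinuousMap.continuous_postcomp _

variable {G : Type u} [NormedAddCommGroup G] [NormedSpace ℝ G]

/-- Pointwise application of a bilinear map to two curves. -/
def evalMap (B : G →L[ℝ] E →L[ℝ] F) (A : C(I, G)) (h : C(I, E)) : C(I, F) :=
  ⟨fun s => B (A s) (h s), by
    have h1 : Continuous fun s => B (A s) := B.continuous.comp A.continuous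
    have h2 : Continuous fun s => h s := h.continuous
    exact h1.clm_apply h2⟩

@[simp] lemma evalMap_apply (B : G →L[ℝ] E →L[ℝ] F) (A : C(I, G)) (h : C(I, E)) (s : I) :
    evalMap B A h s = B (A s) (h s) := rfl

lemma norm_evalMap_le (B : G →L[ℝ] E →L[ℝ] F) (A : C(I, G)) (h : C(I, E)) :
    ‖evalMap B A h‖ ≤ ‖B‖ * ‖A‖ * ‖h‖ := by
  refine (ContinuousMap.norm_le _ (by positivity)).2 fun s => ?_
  calc ‖B (A s) (h s)‖ ≤ ‖B‖ * ‖A s‖ * ‖h s‖ := B.le_opNorm₂ _ _
    _ ≤ ‖B‖ * ‖A‖ * ‖h‖ := by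
        gcongr
        · exact A.norm_coe_le_norm s
        · exact h.norm_coe_le_norm s

/-- `evalMap` as a bilinear map. -/
def evalLin (B : G →L[ℝ] E →L[ℝ] F) : C(I, G) →ₗ[ℝ] C(I, E) →ₗ[ℝ] C(I, F) :=
  LinearMap.mk₂ ℝ (evalMap B)
    (fun A B h => by ext s; simp)
    (fun c A h => by ext s; simp)
    (fun A h k => by ext s; simp)
    (fun c A h => by ext s; simp)

/-- `evalMap` as a continuous bilinear map. -/
def evalCLM (B : G →L[ℝ] E →L[ℝ] F) : C(I, G) →L[ℝ] C(I, E) →L[ℝ] C(I, F) :=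
  (evalLin B).mkContinuous₂ ‖B‖ (fun A h => by
    have e : evalLin B A h = evalMap B A h := rfl
    rw [e]
    exact norm_evalMap_le B A h)

@[simp] lemma evalCLM_apply (B : G →L[ℝ] E →L[ℝ] F) (A : C(I, G)) (h : C(I, E)) (s : I) :
    evalCLM B A h s = B (A s) (h s) := rfl

lemma nem_hasFDerivAt (f : E → F) (hf : ContDiff ℝ ∞ f) (γ : C(I, E)) :
    HasFDerivAt (nem f hf.continuous : C(I, E) → C(I, F))
      (evalCLM (ContinuousLinearMap.id ℝ (E →L[ℝ] F))
        (nem (fderiv ℝ f) (hf.continuous_fderiv (by simp)) γ)) γ := by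
  have hdf : Continuous (fderiv ℝ f) := hf.continuous_fderiv (by simp)
  rw [hasFDerivAt_iff_isLittleO_nhds_zero, Asymptotics.isLittleO_iff]
  intro c hc
  have hcont := (nem_continuous (I := I) (fderiv ℝ f) hdf).continuousAt (x := γ)
  rw [Metric.continuousAt_iff] at hcont
  obtain ⟨δ, hδ, hδ'⟩ := hcont c hc
  have hball : ∀ᶠ h in 𝓝 (0 : C(I, E)), ‖h‖ < δ := by
    have : Metric.ball (0 : C(I, E)) δ ∈ 𝓝 (0 : C(I, E)) := Metric.ball_mem_nhds _ hδ
    filter_upwards [this] with h hh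
    simpa using hh
  filter_upwards [hball] with h hh
  refine (ContinuousMap.norm_le _ (by positivity)).2 fun s => ?_
  have key : ∀ ξ ∈ segment ℝ (γ s) (γ s + h s), ‖fderiv ℝ f ξ - fderiv ℝ f (γ s)‖ ≤ c := by
    intro ξ hξ
    rw [segment_eq_image'] at hξ
    obtain ⟨θ, hθ, rfl⟩ := hξ
    have hθ0 : 0 ≤ θ := hθ.1
    have hθ1 : θ ≤ 1 := hθ.2
    have hdist : dist (γ + θ • h) γ < δ := by
      rw [dist_eq_norm]
      simp only [add_sub_cancel_left, norm_smul, Real.norm_eq_abs, abs_of_nonneg hθ0]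
      calc θ * ‖h‖ ≤ 1 * ‖h‖ := by gcongr
        _ = ‖h‖ := one_mul _
        _ < δ := hh
    have := hδ' hdist
    rw [dist_eq_norm] at this
    have h2 := ContinuousMap.norm_coe_le_norm
      (nem (fderiv ℝ f) hdf (γ + θ • h) - nem (fderiv ℝ f) hdf γ) s
    have h3 : (nem (fderiv ℝ f) hdf (γ + θ • h) - nem (fderiv ℝ f) hdf γ) s
        = fderiv ℝ f (γ s + θ • (γ s + h s - γ s)) - fderiv ℝ f (γ s) := by
      simp
    rw [h3] at h2
    exact h2.trans this.le
  have hmv := (convex_segment (γ s) (γ s + h s)).norm_image_sub_le_of_norm_hasFDerivWithin_le'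
    (f := f) (f' := fderiv ℝ f) (φ := fderiv ℝ f (γ s)) (C := c) (s := segment ℝ (γ s) (γ s + h s))
    (x := γ s) (y := γ s + h s)
    (fun x _ => ((hf.differentiable (by simp)) x).hasFDerivAt.hasFDerivWithinAt)
    key (left_mem_segment ℝ _ _) (right_mem_segment ℝ _ _)
  have hnorm : ‖h s‖ ≤ ‖h‖ := h.norm_coe_le_norm s
  have e1 : (nem f hf.continuous (γ + h) - nem f hf.continuous γ -
      (evalCLM (ContinuousLinearMap.id ℝ (E →L[ℝ] F)) (nem (fderiv ℝ f) hdf γ)) h : C(I, F)) s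
      = f (γ s + h s) - f (γ s) - (fderiv ℝ f (γ s)) (γ s + h s - γ s) := by
    simp
  rw [e1]
  calc _ ≤ c * ‖γ s + h s - γ s‖ := hmv
    _ ≤ c * ‖h‖ := by
      gcongr
      simpa using hnorm

theorem nem_contDiff (n : ℕ) : ∀ (F : Type u) [NormedAddCommGroup F] [NormedSpace ℝ F]
    (f : E → F) (hf : ContDiff ℝ ∞ f),
    ContDiff ℝ n (nem f hf.continuous : C(I, E) → C(I, F)) := by
  induction n with
  | zero =>
    intro F _ _ f hf
    have h := nem_continuous (I := I) f hf.continuous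
    exact_mod_cast (contDiff_zero (𝕜 := ℝ)).2 h
  | succ n ih =>
    intro F _ _ f hf
    have hdf : ContDiff ℝ ∞ (fderiv ℝ f) := hf.fderiv_right (by simp)
    have := ih (E →L[ℝ] F) (fderiv ℝ f) hdf
    push_cast
    rw [contDiff_succ_iff_hasFDerivAt]
    refine ⟨fun γ => evalCLM (ContinuousLinearMap.id ℝ (E →L[ℝ] F))
      (nem (fderiv ℝ f) hdf.continuous γ), ?_, ?_⟩
    · have h1 := ContinuousLinearMap.contDiff (𝕜 := ℝ) (n := (n : ℕ∞ω)) (evalCLM (I := I) (E := E) (F := F)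
        (ContinuousLinearMap.id ℝ (E →L[ℝ] F)))
      exact h1.comp this
    · intro γ
      exact nem_hasFDerivAt f hf γ

theorem nem_contDiff_infty (f : E → F) (hf : ContDiff ℝ ∞ f) :
    ContDiff ℝ ∞ (nem f hf.continuous : C(I, E) → C(I, F)) := by
  rw [contDiff_infty]
  intro n
  exact nem_contDiff n F f hf

end Nemytskii

section Flow

variable {E : Type u} [NormedAddCommGroup E] [NormedSpace ℝ E]

/-- The time interval `[-1, 1]`. -/
abbrev J : Type := Set.Icc (-1 : ℝ) 1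

lemma neg_one_le_one' : (-1 : ℝ) ≤ 1 := by norm_num

/-- Extension of a curve on `[-1, 1]` to the whole line. -/
def ext (f : C(J, E)) : ℝ → E := Set.IccExtend neg_one_le_one' f

lemma ext_continuous (f : C(J, E)) : Continuous (ext f) := f.continuous.Icc_extend'

lemma ext_of_mem (f : C(J, E)) {r : ℝ} (hr : r ∈ Icc (-1 : ℝ) 1) : ext f r = f ⟨r, hr⟩ :=
  Set.IccExtend_of_mem _ _ hr

lemma ext_coe (f : C(J, E)) (s : J) : ext f s = f s := Set.IccExtend_val _ _ _

lemma norm_ext_le (f : C(J, E)) (r : ℝ) : ‖ext f r‖ ≤ ‖f‖ := f.norm_coe_le_norm _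

/-- The primitive (based at `0`) of a curve. -/
def primFun (f : C(J, E)) : C(J, E) :=
  ⟨fun s => ∫ r in (0 : ℝ)..s, ext f r,
    (intervalIntegral.continuous_primitive
      (fun a b => (ext_continuous f).intervalIntegrable a b) 0).comp continuous_subtype_val⟩

@[simp] lemma primFun_apply (f : C(J, E)) (s : J) :
    primFun f s = ∫ r in (0 : ℝ)..s, ext f r := rfl

lemma ext_add (f g : C(J, E)) (r : ℝ) : ext (f + g) r = ext f r + ext g r := rfl

lemma ext_smul (c : ℝ) (f : C(J, E)) (r : ℝ) : ext (c • f) r = c • ext f r := rfl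

lemma norm_primFun_le (f : C(J, E)) : ‖primFun f‖ ≤ 1 * ‖f‖ := by
  refine (ContinuousMap.norm_le _ (by positivity)).2 fun s => ?_
  have h := intervalIntegral.norm_integral_le_of_norm_le_const (a := (0 : ℝ)) (b := (s : ℝ))
    (f := ext f) (C := ‖f‖) (fun x _ => norm_ext_le f x)
  have hs : |(s : ℝ) - 0| ≤ 1 := by
    rw [sub_zero, abs_le]
    exact ⟨s.2.1, s.2.2⟩
  rw [primFun_apply]
  calc _ ≤ ‖f‖ * |(s : ℝ) - 0| := h
    _ ≤ ‖f‖ * 1 := by gcongr
    _ = 1 * ‖f‖ := by ring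

/-- The primitive operator, as a continuous linear map. -/
def primI : C(J, E) →L[ℝ] C(J, E) :=
  LinearMap.mkContinuous
    { toFun := primFun
      map_add' := fun f g => by
        ext s
        simp only [primFun_apply, ContinuousMap.add_apply, ext_add]
        exact intervalIntegral.integral_add ((ext_continuous f).intervalIntegrable _ _)
          ((ext_continuous g).intervalIntegrable _ _)
      map_smul' := fun c f => by
        ext s
        simp only [primFun_apply, ContinuousMap.smul_apply, ext_smul, RingHom.id_apply]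
        exact intervalIntegral.integral_smul _ _ }
    1 norm_primFun_le

@[simp] lemma primI_apply (f : C(J, E)) (s : J) :
    primI f s = ∫ r in (0 : ℝ)..s, ext f r := rfl

lemma norm_primI_le : ‖(primI : C(J, E) →L[ℝ] C(J, E))‖ ≤ 1 :=
  LinearMap.mkContinuous_norm_le _ (by norm_num) _

/-- Constant curves. -/
def constL : E →L[ℝ] C(J, E) :=
  LinearMap.mkContinuous
    { toFun := fun x => ContinuousMap.const J x
      map_add' := fun _ _ => rfl
      map_smul' := fun _ _ => rfl }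
    1 (fun x => by
      refine (ContinuousMap.norm_le _ (by positivity)).2 fun s => ?_
      simp)

@[simp] lemma constL_apply (x : E) (s : J) : constL x s = x := rfl

variable (Y : E → E) (hc : Continuous Y)

/-- `γ` solves the integral equation with time scaling `τ` and initial value `x`. -/
def IsSol (τ : ℝ) (x : E) (γ : C(J, E)) : Prop :=
  γ = constL x + τ • primI (nem Y hc γ)

variable {Y hc}

lemma nem_lipschitz {K : ℝ≥0} (hK : LipschitzWith K Y) (γ γ' : C(J, E)) :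
    ‖nem Y hc γ - nem Y hc γ'‖ ≤ K * ‖γ - γ'‖ := by
  refine (ContinuousMap.norm_le _ (by positivity)).2 fun s => ?_
  have h1 := hK.dist_le_mul (γ s) (γ' s)
  rw [dist_eq_norm, dist_eq_norm] at h1
  calc ‖(nem Y hc γ - nem Y hc γ') s‖ = ‖Y (γ s) - Y (γ' s)‖ := rfl
    _ ≤ K * ‖γ s - γ' s‖ := h1
    _ ≤ K * ‖γ - γ'‖ := by
      gcongr
      exact (γ - γ').norm_coe_le_norm s

lemma contraction_bound {K : ℝ≥0} (hK : LipschitzWith K Y) (τ : ℝ) (γ γ' : C(J, E)) :
    ‖τ • primI (nem Y hc γ) - τ • primI (nem Y hc γ')‖ ≤ |τ| * K * ‖γ - γ'‖ := by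
  rw [← smul_sub, ← map_sub, norm_smul, Real.norm_eq_abs]
  have h1 : ‖primI (nem Y hc γ - nem Y hc γ')‖ ≤ 1 * ‖nem Y hc γ - nem Y hc γ'‖ := by
    have h0 : ‖(primI : C(J, E) →L[ℝ] C(J, E))‖ ≤ 1 := norm_primI_le
    have h00 := (primI : C(J, E) →L[ℝ] C(J, E)).le_opNorm (nem Y hc γ - nem Y hc γ')
    have h01 := norm_nonneg (nem Y hc γ - nem Y hc γ')
    nlinarith
  have h2 := nem_lipschitz (hc := hc) hK γ γ'
  calc |τ| * ‖primI (nem Y hc γ - nem Y hc γ')‖ ≤ |τ| * (K * ‖γ - γ'‖) := by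
        gcongr
        linarith
    _ = |τ| * K * ‖γ - γ'‖ := by ring

lemma isSol_unique {K : ℝ≥0} (hK : LipschitzWith K Y) {τ : ℝ} (hτ : |τ| * K < 1) {x : E}
    {γ γ' : C(J, E)} (h : IsSol Y hc τ x γ) (h' : IsSol Y hc τ x γ') : γ = γ' := by
  have e : γ - γ' = τ • primI (nem Y hc γ) - τ • primI (nem Y hc γ') := by
    conv_lhs => rw [h, h']
    abel
  have h1 : ‖γ - γ'‖ ≤ |τ| * K * ‖γ - γ'‖ := by
    conv_lhs => rw [e]
    exact contraction_bound hK τ γ γ'
  have h2 : ‖γ - γ'‖ ≤ 0 := by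
    by_contra hne
    push Not at hne
    nlinarith
  exact sub_eq_zero.1 (norm_le_zero_iff.1 h2)

lemma exists_isSol [CompleteSpace E] {K : ℝ≥0} (hK : LipschitzWith K Y) {τ : ℝ}
    (hτ : |τ| * K < 1) (x : E) : ∃ γ : C(J, E), IsSol Y hc τ x γ := by
  let T : C(J, E) → C(J, E) := fun γ => constL x + τ • primI (nem Y hc γ)
  have hT : ContractingWith (⟨|τ| * K, by positivity⟩ : ℝ≥0) T := by
    refine ⟨hτ, LipschitzWith.of_dist_le_mul fun γ γ' => ?_⟩
    rw [dist_eq_norm, dist_eq_norm]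
    have e : T γ - T γ' = τ • primI (nem Y hc γ) - τ • primI (nem Y hc γ') := by
      simp only [T]
      abel
    rw [e]
    exact contraction_bound hK τ γ γ'
  exact ⟨hT.fixedPoint T, (hT.fixedPoint_isFixedPt).symm⟩

open Classical in
/-- The solution curve (junk if there is none). -/
def sol (Y : E → E) (hc : Continuous Y) (τ : ℝ) (x : E) : C(J, E) :=
  if h : ∃ γ : C(J, E), IsSol Y hc τ x γ then h.choose else 0

lemma sol_isSol [CompleteSpace E] {K : ℝ≥0} (hK : LipschitzWith K Y) {τ : ℝ}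
    (hτ : |τ| * K < 1) (x : E) : IsSol Y hc τ x (sol Y hc τ x) := by
  have h := exists_isSol (hc := hc) hK hτ x
  rw [sol, dif_pos h]
  exact h.choose_spec

lemma isInvertible_id_sub {B : Type u} [NormedAddCommGroup B] [NormedSpace ℝ B] [CompleteSpace B]
    (C : B →L[ℝ] B) (hC : ‖C‖ < 1) : (ContinuousLinearMap.id ℝ B - C).IsInvertible := by
  refine ⟨ContinuousLinearEquiv.unitsEquiv ℝ B (Units.oneSub C hC), ?_⟩
  ext v
  simp [Units.oneSub]

/-- The equation map to which the implicit function theorem is applied. -/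
def Fmap (Y : E → E) (hc : Continuous Y) (p : (ℝ × E) × C(J, E)) : C(J, E) :=
  p.2 - constL p.1.2 - p.1.1 • primI (nem Y hc p.2)

lemma Fmap_contDiff (hY : ContDiff ℝ ∞ Y) : ContDiff ℝ ∞ (Fmap Y hY.continuous) := by
  have hN : ContDiff ℝ ∞ (nem Y hY.continuous : C(J, E) → C(J, E)) := nem_contDiff_infty Y hY
  unfold Fmap
  have h1 : ContDiff ℝ ∞ (constL : E →L[ℝ] C(J, E)) := ContinuousLinearMap.contDiff _
  have h2 : ContDiff ℝ ∞ (primI : C(J, E) →L[ℝ] C(J, E)) := ContinuousLinearMap.contDiff _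
  refine (contDiff_snd.sub (h1.comp (contDiff_snd.comp contDiff_fst))).sub ?_
  exact (contDiff_fst.comp contDiff_fst).smul (h2.comp (hN.comp contDiff_snd))

lemma isSol_iff_Fmap {τ : ℝ} {x : E} {γ : C(J, E)} :
    IsSol Y hc τ x γ ↔ Fmap Y hc ((τ, x), γ) = 0 := by
  unfold IsSol Fmap
  simp only
  rw [sub_sub, sub_eq_zero]

lemma Fmap_partial_invertible [CompleteSpace E] (hY : ContDiff ℝ ∞ Y) {K : ℝ≥0}
    (hK : LipschitzWith K Y) (p : (ℝ × E) × C(J, E)) (hp : |p.1.1| * K < 1) :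
    (fderiv ℝ (Fmap Y hY.continuous) p ∘L
      ContinuousLinearMap.inr ℝ (ℝ × E) (C(J, E))).IsInvertible := by
  obtain ⟨⟨τ, x⟩, γ⟩ := p
  simp only at hp
  have hN : ContDiff ℝ ∞ (nem Y hY.continuous : C(J, E) → C(J, E)) := nem_contDiff_infty Y hY
  have hNd : HasFDerivAt (nem Y hY.continuous : C(J, E) → C(J, E))
      (fderiv ℝ (nem Y hY.continuous) γ) γ :=
    ((hN.differentiable (by simp)) γ).hasFDerivAt
  have hNL : LipschitzWith K (nem Y hY.continuous : C(J, E) → C(J, E)) := by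
    refine LipschitzWith.of_dist_le_mul fun γ γ' => ?_
    rw [dist_eq_norm, dist_eq_norm]
    exact nem_lipschitz hK γ γ'
  have hNn : ‖fderiv ℝ (nem Y hY.continuous : C(J, E) → C(J, E)) γ‖ ≤ K :=
    norm_fderiv_le_of_lipschitz ℝ hNL
  set C : C(J, E) →L[ℝ] C(J, E) :=
    τ • (primI ∘L fderiv ℝ (nem Y hY.continuous : C(J, E) → C(J, E)) γ) with hC
  have hCn : ‖C‖ < 1 := by
    have h0 : ‖C‖ ≤ |τ| * ‖primI ∘L fderiv ℝ (nem Y hY.continuous : C(J, E) → C(J, E)) γ‖ := by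
      rw [hC, ← Real.norm_eq_abs]
      exact ContinuousLinearMap.opNorm_smul_le _ _
    refine lt_of_le_of_lt h0 ?_
    have h1 : ‖primI ∘L fderiv ℝ (nem Y hY.continuous : C(J, E) → C(J, E)) γ‖ ≤ K := by
      calc _ ≤ ‖(primI : C(J, E) →L[ℝ] C(J, E))‖ *
            ‖fderiv ℝ (nem Y hY.continuous : C(J, E) → C(J, E)) γ‖ :=
            ContinuousLinearMap.opNorm_comp_le _ _
        _ ≤ 1 * K := by
            gcongr
            exact norm_primI_le
        _ = K := one_mul _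
    calc _ ≤ |τ| * (K : ℝ) := by gcongr
      _ < 1 := hp
  have key : fderiv ℝ (Fmap Y hY.continuous) ((τ, x), γ) ∘L
      ContinuousLinearMap.inr ℝ (ℝ × E) (C(J, E)) = ContinuousLinearMap.id ℝ _ - C := by
    have h1 : HasFDerivAt (fun γ' : C(J, E) => Fmap Y hY.continuous ((τ, x), γ'))
        (fderiv ℝ (Fmap Y hY.continuous) ((τ, x), γ) ∘L
          ContinuousLinearMap.inr ℝ (ℝ × E) (C(J, E))) γ := by
      have h2 : HasFDerivAt (Fmap Y hY.continuous)
          (fderiv ℝ (Fmap Y hY.continuous) ((τ, x), γ)) ((τ, x), γ) :=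
        (((Fmap_contDiff hY).differentiable (by simp)) _).hasFDerivAt
      have h3 : HasFDerivAt (fun γ' : C(J, E) => (((τ, x), γ') : (ℝ × E) × C(J, E)))
          (ContinuousLinearMap.inr ℝ (ℝ × E) (C(J, E))) γ :=
        hasFDerivAt_prodMk_right _ _
      exact h2.comp γ h3
    have h4 : HasFDerivAt (fun γ' : C(J, E) => Fmap Y hY.continuous ((τ, x), γ'))
        (ContinuousLinearMap.id ℝ _ - C) γ := by
      have h5 : HasFDerivAt (fun γ' : C(J, E) => τ • primI (nem Y hY.continuous γ')) C γ := by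
        have := (primI.hasFDerivAt (x := nem Y hY.continuous γ)).comp γ hNd
        exact this.const_smul τ
      have h6 : HasFDerivAt (fun γ' : C(J, E) => γ' - constL x)
          (ContinuousLinearMap.id ℝ _) γ := (hasFDerivAt_id γ).sub_const _
      exact h6.sub h5
    exact h1.unique h4
  rw [key]
  exact isInvertible_id_sub C hCn

theorem sol_contDiffAt [CompleteSpace E] (hY : ContDiff ℝ ∞ Y) {K : ℝ≥0}
    (hK : LipschitzWith K Y) (u₀ : ℝ × E) (hu₀ : |u₀.1| * K < 1) :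
    ContDiffAt ℝ ∞ (fun u : ℝ × E => sol Y hY.continuous u.1 u.2) u₀ := by
  set p : (ℝ × E) × C(J, E) := (u₀, sol Y hY.continuous u₀.1 u₀.2) with hp
  have cdf : ContDiffAt ℝ ∞ (Fmap Y hY.continuous) p := (Fmap_contDiff hY).contDiffAt
  have inv := Fmap_partial_invertible hY hK p hu₀
  have pn : (∞ : WithTop ℕ∞) ≠ 0 := by simp
  have h1 := cdf.contDiffAt_implicitFunction pn inv
  have h2 := cdf.eventually_apply_implicitFunction pn inv
  have h3 : Fmap Y hY.continuous p = 0 :=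
    isSol_iff_Fmap.1 (sol_isSol (hc := hY.continuous) hK hu₀ u₀.2)
  have hopen : ∀ᶠ u in 𝓝 u₀, |u.1| * (K : ℝ) < 1 := by
    have hcont : Continuous fun u : ℝ × E => |u.1| * (K : ℝ) :=
      (continuous_abs.comp continuous_fst).mul continuous_const
    exact hcont.continuousAt.eventually (gt_mem_nhds hu₀)
  refine h1.congr_of_eventuallyEq ?_
  filter_upwards [h2, hopen] with u hu hu'
  rw [h3] at hu
  have hsol : IsSol Y hY.continuous u.1 u.2 (cdf.implicitFunction pn inv u) :=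
    isSol_iff_Fmap.2 hu
  exact isSol_unique hK hu' (sol_isSol hK hu' u.2) hsol

/-- The point `1` of `[-1, 1]`. -/
def oneJ : J := ⟨1, by norm_num, le_rfl⟩

/-- The flow map. -/
def flowMap (Y : E → E) (hc : Continuous Y) (u : ℝ × E) : E := sol Y hc u.1 u.2 oneJ

theorem flowMap_contDiffAt [CompleteSpace E] (hY : ContDiff ℝ ∞ Y) {K : ℝ≥0}
    (hK : LipschitzWith K Y) (u₀ : ℝ × E) (hu₀ : |u₀.1| * K < 1) :
    ContDiffAt ℝ ∞ (flowMap Y hY.continuous) u₀ := by
  have h := sol_contDiffAt hY hK u₀ hu₀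
  have h1 : ContDiff ℝ ∞ (ContinuousMap.evalCLM ℝ oneJ : C(J, E) →L[ℝ] E) :=
    ContinuousLinearMap.contDiff _
  have h2 : ContDiffAt ℝ ∞ (fun γ : C(J, E) => γ oneJ) (sol Y hY.continuous u₀.1 u₀.2) :=
    h1.contDiffAt
  exact h2.comp u₀ h

lemma isSol_apply {τ : ℝ} {x : E} {γ : C(J, E)} (h : IsSol Y hc τ x γ) (s : J) :
    γ s = x + τ • ∫ r in (0 : ℝ)..s, ext (nem Y hc γ) r := by
  conv_lhs => rw [h]
  rfl

lemma ext_nem (γ : C(J, E)) (r : ℝ) : ext (nem Y hc γ) r = Y (ext γ r) := rfl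

lemma mul_mem_J {σ : ℝ} (hσ : |σ| ≤ 1) (s : J) : σ * (s : ℝ) ∈ Icc (-1 : ℝ) 1 := by
  have h1 : |σ * s| ≤ 1 := by
    rw [abs_mul]
    have h2 : |(s : ℝ)| ≤ 1 := abs_le.2 ⟨s.2.1, s.2.2⟩
    calc |σ| * |(s : ℝ)| ≤ 1 * 1 := by gcongr
      _ = 1 := one_mul 1
  exact abs_le.1 h1

/-- Scaling of solutions in time. -/
def scaleCurve (σ : ℝ) (hσ : |σ| ≤ 1) (γ : C(J, E)) : C(J, E) :=
  ⟨fun s => γ ⟨σ * s, mul_mem_J hσ s⟩,
    γ.continuous.comp (Continuous.subtype_mk (continuous_const.mul continuous_subtype_val) _)⟩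

lemma scale_isSol [CompleteSpace E] {τ σ : ℝ} (hσ : |σ| ≤ 1) {x : E} {γ : C(J, E)}
    (h : IsSol Y hc τ x γ) : IsSol Y hc (τ * σ) x (scaleCurve σ hσ γ) := by
  unfold IsSol
  ext s
  have hs : (σ * (s : ℝ)) ∈ Icc (-1 : ℝ) 1 := mul_mem_J hσ s
  have e1 : scaleCurve σ hσ γ s = γ ⟨σ * s, hs⟩ := rfl
  rw [e1, isSol_apply h ⟨σ * s, hs⟩]
  change _ = x + (τ * σ) • ∫ r in (0 : ℝ)..s, ext (nem Y hc (scaleCurve σ hσ γ)) r
  congr 1
  rw [mul_smul]
  congr 1
  have e2 : (∫ r in (0 : ℝ)..s, ext (nem Y hc (scaleCurve σ hσ γ)) r)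
      = ∫ r in (0 : ℝ)..s, ext (nem Y hc γ) (σ * r) := by
    refine intervalIntegral.integral_congr fun r hr => ?_
    have hr1 : r ∈ Icc (-1 : ℝ) 1 := by
      have h3 : Set.uIcc (0 : ℝ) s ⊆ Icc (-1 : ℝ) 1 :=
        Set.uIcc_subset_Icc (by norm_num) s.2
      exact h3 hr
    have hr2 : (σ * r) ∈ Icc (-1 : ℝ) 1 := by
      have h1 : |σ * r| ≤ 1 := by
        rw [abs_mul]
        have h2 : |r| ≤ 1 := abs_le.2 hr1
        calc |σ| * |r| ≤ 1 * 1 := by gcongr
          _ = 1 := one_mul 1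
      exact abs_le.1 h1
    simp only [ext_nem]
    rw [ext_of_mem _ hr1, ext_of_mem _ hr2]
    rfl
  rw [e2]
  have e3 := intervalIntegral.smul_integral_comp_mul_left
    (fun r => ext (nem Y hc γ) r) (a := (0 : ℝ)) (b := (s : ℝ)) σ
  simp only [mul_zero] at e3
  exact e3.symm

lemma flowMap_zero [CompleteSpace E] {K : ℝ≥0} (hK : LipschitzWith K Y) (x : E) :
    flowMap Y hc (0, x) = x := by
  have h := sol_isSol (hc := hc) hK (τ := 0) (by simp) x
  have h2 := isSol_apply h oneJ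
  simpa [flowMap] using h2

/-- The flow solves the ODE. -/
theorem flowMap_hasDerivAt [CompleteSpace E] {K : ℝ≥0} (hK : LipschitzWith K Y)
    (hK2 : (K : ℝ) < 1 / 2) {t : ℝ} (ht : |t| < 2) (x : E) :
    HasDerivAt (fun s => flowMap Y hc (s, x)) (Y (flowMap Y hc (t, x))) t := by
  have hT : |(2 : ℝ)| * K < 1 := by
    rw [abs_of_pos (by norm_num : (0 : ℝ) < 2)]
    linarith
  set γ := sol Y hc 2 x with hγ
  have hγs : IsSol Y hc 2 x γ := sol_isSol hK hT x
  -- on `|s| ≤ 2`, the flow is a reparametrisation of `γ`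
  have key : ∀ s : ℝ, ∀ hs : s / 2 ∈ Icc (-1 : ℝ) 1, flowMap Y hc (s, x) = γ ⟨s / 2, hs⟩ := by
    intro s hs
    have hσ : |s / 2| ≤ 1 := abs_le.2 hs
    have h1 := scale_isSol hσ hγs
    have e : (2 : ℝ) * (s / 2) = s := by ring
    rw [e] at h1
    have hs' : |s| * (K : ℝ) < 1 := by
      have h2 : |s| ≤ 2 := by
        have : |s / 2| = |s| / 2 := by
          rw [abs_div, abs_of_pos (by norm_num : (0 : ℝ) < 2)]
        rw [this] at hσ
        linarith
      have : (0 : ℝ) ≤ K := K.2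
      nlinarith [abs_nonneg s]
    have h3 := isSol_unique hK hs' (sol_isSol (hc := hc) hK hs' x) h1
    unfold flowMap
    simp only
    rw [h3]
    have e4 : (⟨(s / 2) * ((oneJ : J) : ℝ), (by simpa [oneJ] using hs)⟩ : J) = ⟨s / 2, hs⟩ := by
      ext
      simp [oneJ]
    exact congrArg γ e4
  have ht1 : t / 2 ∈ Ioo (-1 : ℝ) 1 := by
    rw [mem_Ioo, ← abs_lt, abs_div, abs_of_pos (by norm_num : (0 : ℝ) < 2)]
    linarith
  -- the integral representation
  have key2 : ∀ᶠ s in 𝓝 t, flowMap Y hc (s, x)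
      = x + (2 : ℝ) • ∫ r in (0 : ℝ)..(s / 2), ext (nem Y hc γ) r := by
    have hopen : ∀ᶠ s in 𝓝 t, s / 2 ∈ Ioo (-1 : ℝ) 1 := by
      have hcont : Continuous fun s : ℝ => s / 2 := by fun_prop
      exact hcont.continuousAt.eventually (Ioo_mem_nhds ht1.1 ht1.2)
    filter_upwards [hopen] with s hs
    have hs' : s / 2 ∈ Icc (-1 : ℝ) 1 := ⟨hs.1.le, hs.2.le⟩
    rw [key s hs', isSol_apply hγs ⟨s / 2, hs'⟩]
  have hcont : Continuous (ext (nem Y hc γ)) := ext_continuous _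
  have hprim : HasDerivAt (fun s : ℝ => ∫ r in (0 : ℝ)..s, ext (nem Y hc γ) r)
      (ext (nem Y hc γ) (t / 2)) (t / 2) :=
    intervalIntegral.integral_hasDerivAt_right (hcont.intervalIntegrable _ _)
      (hcont.stronglyMeasurableAtFilter _ _) hcont.continuousAt
  have hdiv : HasDerivAt (fun s : ℝ => s / 2) (1 / 2) t := (hasDerivAt_id t).div_const 2
  have hcomp : HasDerivAt (fun s : ℝ => ∫ r in (0 : ℝ)..(s / 2), ext (nem Y hc γ) r)
      ((1 / 2 : ℝ) • ext (nem Y hc γ) (t / 2)) t :=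
    HasDerivAt.scomp (h := fun s : ℝ => s / 2) t hprim hdiv
  have hfinal : HasDerivAt (fun s : ℝ => x + (2 : ℝ) • ∫ r in (0 : ℝ)..(s / 2), ext (nem Y hc γ) r)
      ((2 : ℝ) • ((1 / 2 : ℝ) • ext (nem Y hc γ) (t / 2))) t :=
    (hcomp.const_smul (2 : ℝ)).const_add x
  have e5 : (2 : ℝ) • ((1 / 2 : ℝ) • ext (nem Y hc γ) (t / 2)) = Y (flowMap Y hc (t, x)) := by
    rw [smul_smul]
    have e6 : (2 : ℝ) * (1 / 2) = 1 := by norm_num
    rw [e6, one_smul, ext_nem, key t ⟨ht1.1.le, ht1.2.le⟩, ext_of_mem _ ⟨ht1.1.le, ht1.2.le⟩]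
  rw [e5] at hfinal
  exact hfinal.congr_of_eventuallyEq key2

end Flow

/-- **Existence of a smooth local flow** for a smooth vector field with small Lipschitz constant,
on a Banach space: it is defined and smooth for times `|t| < 2`. -/
theorem exists_smooth_flow {E : Type u} [NormedAddCommGroup E] [NormedSpace ℝ E] [CompleteSpace E]
    (Y : E → E) (hY : ContDiff ℝ ∞ Y) {K : ℝ≥0} (hK : LipschitzWith K Y) (hK2 : (K : ℝ) < 1 / 2) :
    ∃ Φ : ℝ × E → E, (∀ u : ℝ × E, |u.1| < 2 → ContDiffAt ℝ ∞ Φ u) ∧ (∀ x, Φ (0, x) = x) ∧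
      ∀ t x, |t| < 2 → HasDerivAt (fun s => Φ (s, x)) (Y (Φ (t, x))) t := by
  refine ⟨flowMap Y hY.continuous, fun u hu => ?_, fun x => flowMap_zero hK x,
    fun t x ht => flowMap_hasDerivAt hK hK2 ht x⟩
  refine flowMap_contDiffAt hY hK u ?_
  have : (0 : ℝ) ≤ K := K.2
  nlinarith [abs_nonneg u.1]

/-- **Variational equation**: the space derivative of a smooth flow solves the linearised ODE
along the flow. -/
theorem variational {E : Type u} [NormedAddCommGroup E] [NormedSpace ℝ E]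
    {Φ : ℝ × E → E} {V : E → E} (hΦ : ∀ u : ℝ × E, |u.1| < 2 → ContDiffAt ℝ ∞ Φ u)
    (hV : Differentiable ℝ V)
    (hode : ∀ t x, |t| < 2 → HasDerivAt (fun s => Φ (s, x)) (V (Φ (t, x))) t)
    {t : ℝ} (ht : |t| < 2) (x w : E) :
    HasDerivAt (fun s => fderiv ℝ (fun x' => Φ (s, x')) x w)
      (fderiv ℝ V (Φ (t, x)) (fderiv ℝ (fun x' => Φ (t, x')) x w)) t := by
  set U := fderiv ℝ Φ with hU
  have hdiff : ∀ u : ℝ × E, |u.1| < 2 → HasFDerivAt Φ (U u) u := fun u hu =>
    ((hΦ u hu).differentiableAt (by simp)).hasFDerivAt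
  -- space derivative in terms of `U`
  have hspace : ∀ s x', |s| < 2 → HasFDerivAt (fun x'' => Φ (s, x''))
      (U (s, x') ∘L ContinuousLinearMap.inr ℝ ℝ E) x' := fun s x' hs =>
    (hdiff (s, x') hs).comp x' (hasFDerivAt_prodMk_right s x')
  have hspace' : ∀ s x', |s| < 2 →
      fderiv ℝ (fun x'' => Φ (s, x'')) x' w = U (s, x') (0, w) := fun s x' hs => by
    rw [(hspace s x' hs).fderiv]
    simp
  -- time derivative in terms of `U`
  have htime : ∀ s x', |s| < 2 → U (s, x') (1, 0) = V (Φ (s, x')) := fun s x' hs => by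
    have h1 : HasDerivAt (fun s' => Φ (s', x')) (U (s, x') (1, 0)) s := by
      have h2 : HasDerivAt (fun s' : ℝ => ((s', x') : ℝ × E)) ((1 : ℝ), (0 : E)) s :=
        (hasDerivAt_id s).prodMk (hasDerivAt_const s x')
      exact (hdiff (s, x') hs).comp_hasDerivAt s h2
    exact h1.unique (hode s x' hs)
  set u₀ : ℝ × E := (t, x) with hu₀
  have hsmooth := hΦ u₀ ht
  have hU2 : ContDiffAt ℝ ∞ U u₀ := hsmooth.fderiv_right (m := ∞) (by simp)
  have hU' : HasFDerivAt U (fderiv ℝ U u₀) u₀ := (hU2.differentiableAt (by simp)).hasFDerivAt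
  have h2le : minSmoothness ℝ 2 ≤ (∞ : WithTop ℕ∞) := by
    simp only [minSmoothness_of_isRCLikeNormedField]
    have h : ((2 : ℕ∞) : WithTop ℕ∞) ≤ ((⊤ : ℕ∞) : WithTop ℕ∞) := WithTop.coe_le_coe.2 le_top
    exact h
  have hsymm := (hsmooth.isSymmSndFDerivAt h2le).eq ((1 : ℝ), (0 : E)) ((0 : ℝ), w)
  -- the derivative along time of `U(s, x) (0, w)`
  have h1 : HasDerivAt (fun s => U (s, x) (0, w)) (fderiv ℝ U u₀ (1, 0) (0, w)) t := by
    have h2 : HasDerivAt (fun s' : ℝ => ((s', x) : ℝ × E)) ((1 : ℝ), (0 : E)) t :=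
      (hasDerivAt_id t).prodMk (hasDerivAt_const t x)
    have h3 : HasDerivAt (fun s => U (s, x)) (fderiv ℝ U u₀ (1, 0)) t :=
      hU'.comp_hasDerivAt t h2
    exact h3.clm_apply (hasDerivAt_const t ((0 : ℝ), w)) |>.congr_deriv (by simp)
  -- the derivative along space of `U(t, x') (1, 0)`
  have h4 : fderiv ℝ U u₀ (0, w) (1, 0) =
      fderiv ℝ V (Φ (t, x)) (fderiv ℝ (fun x' => Φ (t, x')) x w) := by
    have h5 : HasFDerivAt (fun x' => U (t, x')) (fderiv ℝ U u₀ ∘L ContinuousLinearMap.inr ℝ ℝ E) x :=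
      hU'.comp x (hasFDerivAt_prodMk_right t x)
    have h6 : HasFDerivAt (fun x' => U (t, x') (1, 0))
        ((ContinuousLinearMap.apply ℝ E ((1 : ℝ), (0 : E))) ∘L
          (fderiv ℝ U u₀ ∘L ContinuousLinearMap.inr ℝ ℝ E)) x :=
      (ContinuousLinearMap.apply ℝ E ((1 : ℝ), (0 : E))).hasFDerivAt.comp x h5
    have h7 : HasFDerivAt (fun x' => V (Φ (t, x')))
        (fderiv ℝ V (Φ (t, x)) ∘L fderiv ℝ (fun x' => Φ (t, x')) x) x := by
      have h8 : HasFDerivAt (fun x' => Φ (t, x')) (fderiv ℝ (fun x' => Φ (t, x')) x) x :=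
        (hspace t x ht).differentiableAt.hasFDerivAt
      exact (hV (Φ (t, x))).hasFDerivAt.comp x h8
    have h9 : (fun x' => U (t, x') (1, 0)) = fun x' => V (Φ (t, x')) := by
      funext x'
      exact htime t x' ht
    rw [h9] at h6
    have h10 := h6.unique h7
    have h11 := congrArg (fun A : E →L[ℝ] E => A w) h10
    simpa using h11
  have hopen : ∀ᶠ s in 𝓝 t, |s| < 2 :=
    continuous_abs.continuousAt.eventually (gt_mem_nhds ht)
  have h12 : (fun s => fderiv ℝ (fun x' => Φ (s, x')) x w) =ᶠ[𝓝 t] fun s => U (s, x) (0, w) := by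
    filter_upwards [hopen] with s hs
    exact hspace' s x hs
  have hfinal : HasDerivAt (fun s => fderiv ℝ (fun x' => Φ (s, x')) x w)
      (fderiv ℝ U u₀ (1, 0) (0, w)) t := h1.congr_of_eventuallyEq h12
  rw [hsymm, h4] at hfinal
  exact hfinal

end Crest.Agent.Lib.SmoothFlow
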