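import Mathlib
import Crest.Prelude.Def_TruncExpWeight

set_option autoImplicit false

open MeasureTheory Set Real

namespace Crest.Agent.Lib.TruncExp

/-- One step operator: averaging `f (v + a x)` against the exponential density. -/
noncomputable def T (a : ℝ) (f : ℝ → ℝ) (v : ℝ) : ℝ :=
  ∫ x in Ioi (0 : ℝ), f (v + a * x) * exp (-x)

lemma integrableOn_exp_neg : IntegrableOn (fun x : ℝ => exp (-x)) (Ioi 0) :=
  exp_neg_integrableOn_Ioi 0 one_pos |>.congr_fun (fun x _ => by simp) measurableSet_Ioi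

lemma integrableOn_rpow_exp (n : ℕ) :
    IntegrableOn (fun x : ℝ => x ^ n * exp (-x)) (Ioi 0) := by
  have h := Real.GammaIntegral_convergent (s := (n : ℝ) + 1) (by positivity)
  refine h.congr_fun (fun x hx => ?_) measurableSet_Ioi
  have hx' : (0 : ℝ) < x := hx
  simp only
  rw [add_sub_cancel_right, Real.rpow_natCast, mul_comm]

lemma integral_pow_exp (n : ℕ) :
    ∫ x in Ioi (0 : ℝ), x ^ n * exp (-x) = (n.factorial : ℝ) := by
  have h := Real.Gamma_nat_eq_factorial n
  rw [Real.Gamma_eq_integral (by positivity)] at h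
  rw [← h]
  refine setIntegral_congr_fun measurableSet_Ioi (fun x hx => ?_)
  have hx' : (0 : ℝ) < x := hx
  simp only [add_sub_cancel_right, Real.rpow_natCast]
  rw [mul_comm]

lemma integral_exp_neg' : ∫ x in Ioi (0 : ℝ), exp (-x) = 1 := by
  simpa using integral_exp_neg_Ioi_zero

lemma integral_id_exp : ∫ x in Ioi (0 : ℝ), x * exp (-x) = 1 := by
  simpa using integral_pow_exp 1

lemma integrableOn_id_exp : IntegrableOn (fun x : ℝ => x * exp (-x)) (Ioi 0) := by
  simpa using integrableOn_rpow_exp 1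

/-- A measurable function of at most linear growth against `exp (-x)`. -/
lemma integrable_of_growth {φ : ℝ → ℝ} (hφ : AEStronglyMeasurable φ (volume.restrict (Ioi 0)))
    {C D : ℝ} (h : ∀ x, 0 < x → |φ x| ≤ C + D * x) :
    IntegrableOn (fun x => φ x * exp (-x)) (Ioi 0) := by
  have hdom : IntegrableOn (fun x : ℝ => C * exp (-x) + D * (x * exp (-x))) (Ioi 0) :=
    (integrableOn_exp_neg.const_mul C).add (integrableOn_id_exp.const_mul D)
  refine Integrable.mono' hdom (hφ.mul (by fun_prop)) ?_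
  refine (ae_restrict_iff' measurableSet_Ioi).2 (Filter.Eventually.of_forall fun x hx => ?_)
  have hx' : (0 : ℝ) < x := hx
  rw [norm_mul, Real.norm_eq_abs, Real.norm_eq_abs, abs_of_pos (exp_pos _)]
  calc |φ x| * exp (-x) ≤ (C + D * x) * exp (-x) :=
        mul_le_mul_of_nonneg_right (h x hx') (exp_pos _).le
    _ = _ := by ring

lemma lip_growth {f : ℝ → ℝ} (hf : LipschitzWith 1 f) (u : ℝ) : |f u| ≤ |f 0| + |u| := by
  have := hf.dist_le_mul u 0
  simp only [NNReal.coe_one, one_mul, Real.dist_eq, sub_zero] at this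
  calc |f u| = |f 0 + (f u - f 0)| := by ring_nf
    _ ≤ |f 0| + |f u - f 0| := abs_add_le _ _
    _ ≤ _ := by linarith

lemma integrableOn_T {f : ℝ → ℝ} (hf : LipschitzWith 1 f) (a v : ℝ) :
    IntegrableOn (fun x => f (v + a * x) * exp (-x)) (Ioi 0) := by
  have hc : Continuous fun x => f (v + a * x) := hf.continuous.comp (by fun_prop)
  refine integrable_of_growth (C := |f 0| + |v|) (D := |a|) hc.aestronglyMeasurable ?_
  intro x hx
  have := lip_growth hf (v + a * x)
  have h2 : |v + a * x| ≤ |v| + |a| * x := by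
    calc |v + a * x| ≤ |v| + |a * x| := abs_add_le _ _
      _ = _ := by rw [abs_mul, abs_of_pos hx]
  linarith

lemma T_lipschitz {f : ℝ → ℝ} (hf : LipschitzWith 1 f) (a : ℝ) : LipschitzWith 1 (T a f) := by
  refine LipschitzWith.of_dist_le_mul fun u v => ?_
  simp only [NNReal.coe_one, one_mul, Real.dist_eq, T]
  rw [← integral_sub (integrableOn_T hf a u) (integrableOn_T hf a v)]
  have hbound : ∀ x ∈ Ioi (0 : ℝ),
      |f (u + a * x) * exp (-x) - f (v + a * x) * exp (-x)| ≤ |u - v| * exp (-x) := by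
    intro x _
    rw [← sub_mul, abs_mul, abs_of_pos (exp_pos _)]
    refine mul_le_mul_of_nonneg_right ?_ (exp_pos _).le
    have := hf.dist_le_mul (u + a * x) (v + a * x)
    simp only [NNReal.coe_one, one_mul, Real.dist_eq] at this
    calc _ ≤ _ := this
      _ = _ := by ring_nf
  calc |∫ x in Ioi (0 : ℝ), (f (u + a * x) * exp (-x) - f (v + a * x) * exp (-x))|
      ≤ ∫ x in Ioi (0 : ℝ), |f (u + a * x) * exp (-x) - f (v + a * x) * exp (-x)| :=
        abs_integral_le_integral_abs
    _ ≤ ∫ x in Ioi (0 : ℝ), |u - v| * exp (-x) := by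
        refine setIntegral_mono_on ((integrableOn_T hf a u).sub (integrableOn_T hf a v)).abs
          (integrableOn_exp_neg.const_mul _) measurableSet_Ioi hbound
    _ = |u - v| := by rw [integral_const_mul, integral_exp_neg', mul_one]

lemma T_mono {f h : ℝ → ℝ} (hf : LipschitzWith 1 f) (hh : LipschitzWith 1 h)
    (hle : ∀ u, f u ≤ h u) (a v : ℝ) : T a f v ≤ T a h v := by
  refine setIntegral_mono_on (integrableOn_T hf a v) (integrableOn_T hh a v) measurableSet_Ioi ?_
  intro x _
  exact mul_le_mul_of_nonneg_right (hle _) (exp_pos _).le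

lemma T_nonneg {f : ℝ → ℝ} (hf : ∀ u, 0 ≤ f u) (a v : ℝ) : 0 ≤ T a f v :=
  setIntegral_nonneg measurableSet_Ioi fun _ _ => mul_nonneg (hf _) (exp_pos _).le

/-- `T a (id + c) = id + c + a` -/
lemma T_affine (a c v : ℝ) : T a (fun u => u + c) v = v + c + a := by
  unfold T
  have h1 : ∀ x : ℝ, (v + a * x + c) * exp (-x) = (v + c) * exp (-x) + a * (x * exp (-x)) := by
    intro x; ring
  simp_rw [h1]
  rw [integral_add (integrableOn_exp_neg.const_mul _) (integrableOn_id_exp.const_mul _),
    integral_const_mul, integral_const_mul, integral_exp_neg', integral_id_exp]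
  ring

lemma lipschitz_add_const (c : ℝ) : LipschitzWith 1 (fun u : ℝ => u + c) := by
  refine LipschitzWith.of_dist_le_mul fun u v => ?_
  simp [Real.dist_eq]

lemma T_ge_affine {f : ℝ → ℝ} (hf : LipschitzWith 1 f) {c : ℝ} (hc : ∀ u, u + c ≤ f u)
    (a v : ℝ) : v + c + a ≤ T a f v := by
  rw [← T_affine]
  exact T_mono (lipschitz_add_const c) hf hc a v

/-- Shift equivariance. -/
lemma T_shift (a : ℝ) (f : ℝ → ℝ) (c v : ℝ) :
    T a (fun u => f (u + c)) v = T a f (v + c) := by
  unfold T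
  refine setIntegral_congr_fun measurableSet_Ioi (fun x _ => ?_)
  simp only
  congr 2
  ring

lemma T_zero {f : ℝ → ℝ} (v : ℝ) : T 0 f v = f v := by
  unfold T
  simp only [zero_mul, add_zero]
  rw [integral_const_mul, integral_exp_neg', mul_one]


/-- log-concavity in a form without logs. -/
def LC (f : ℝ → ℝ) : Prop :=
  ∀ X Y Δ : ℝ, X ≤ Y → 0 ≤ Δ → f X * f (Y + Δ) ≤ f (X + Δ) * f Y

lemma integral_Ioi_shift (φ : ℝ → ℝ) (d : ℝ) :
    ∫ s in Ioi d, φ s = ∫ s in Ioi (0 : ℝ), φ (s + d) := by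
  have h := (measurePreserving_add_right (volume : Measure ℝ) d).setIntegral_preimage_emb
    (measurableEmbedding_addRight d) φ (Ioi d)
  rw [← h]
  simp

lemma integrableOn_Ioi_shift (φ : ℝ → ℝ) (d : ℝ) :
    IntegrableOn φ (Ioi d) ↔ IntegrableOn (fun s => φ (s + d)) (Ioi 0) := by
  have h := (measurePreserving_add_right (volume : Measure ℝ) d).integrableOn_comp_preimage
    (measurableEmbedding_addRight d) (f := φ) (s := Ioi d)
  rw [← h]
  simp [Function.comp_def]

lemma T_split {f : ℝ → ℝ} (hf : LipschitzWith 1 f) (a : ℝ) {d : ℝ} (hd : 0 ≤ d) (u : ℝ) :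
    T a f u = (∫ s in Ioc (0 : ℝ) d, f (u + a * s) * exp (-s)) + exp (-d) * T a f (u + a * d) := by
  have hI := integrableOn_T hf a u
  have hU : Ioi (0 : ℝ) = Ioc 0 d ∪ Ioi d := (Ioc_union_Ioi_eq_Ioi hd).symm
  have h1 : ∫ x in Ioi (0 : ℝ), f (u + a * x) * exp (-x) =
      (∫ x in Ioc (0 : ℝ) d, f (u + a * x) * exp (-x)) + ∫ x in Ioi d, f (u + a * x) * exp (-x) := by
    conv_lhs => rw [hU]
    exact setIntegral_union (Ioc_disjoint_Ioi le_rfl) measurableSet_Ioi
      (hI.mono_set Ioc_subset_Ioi_self) (hI.mono_set (Ioi_subset_Ioi hd))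
  unfold T
  rw [h1]
  congr 1
  rw [integral_Ioi_shift, ← integral_const_mul]
  refine setIntegral_congr_fun measurableSet_Ioi (fun x _ => ?_)
  have e1 : u + a * (x + d) = u + a * d + a * x := by ring
  have e2 : exp (-(x + d)) = exp (-d) * exp (-x) := by rw [← Real.exp_add]; ring_nf
  rw [e1, e2]; ring

lemma T_LC_pos {f : ℝ → ℝ} (hf : LipschitzWith 1 f) (h0 : ∀ u, 0 ≤ f u) (hlc : LC f)
    {a : ℝ} (ha : 0 < a) : LC (T a f) := by
  intro x y δ hxy hδ
  set d := δ / a with hd_def
  have hd : 0 ≤ d := div_nonneg hδ ha.le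
  have had : a * d = δ := by rw [hd_def]; field_simp
  set P : ℝ → ℝ := fun u => ∫ s in Ioc (0 : ℝ) d, f (u + a * s) * exp (-s) with hP
  have hsx : T a f x = P x + exp (-d) * T a f (x + δ) := by
    have := T_split hf a hd x
    rwa [had] at this
  have hsy : T a f y = P y + exp (-d) * T a f (y + δ) := by
    have := T_split hf a hd y
    rwa [had] at this
  suffices hkey : P x * T a f (y + δ) ≤ T a f (x + δ) * P y by
    rw [hsx, hsy]
    nlinarith [hkey]
  have hPI : ∀ u, IntegrableOn (fun s => f (u + a * s) * exp (-s)) (Ioc (0 : ℝ) d) := fun u =>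
    (integrableOn_T hf a u).mono_set (fun s hs => hs.1)
  have hpt : ∀ s ∈ Ioc (0 : ℝ) d, f (x + a * s) * T a f (y + δ) ≤ f (y + a * s) * T a f (x + δ) := by
    intro s hs
    have has : a * s ≤ δ := by
      calc a * s ≤ a * d := mul_le_mul_of_nonneg_left hs.2 ha.le
        _ = δ := had
    unfold T
    rw [← integral_const_mul, ← integral_const_mul]
    refine setIntegral_mono_on ((integrableOn_T hf a (y + δ)).const_mul _)
      ((integrableOn_T hf a (x + δ)).const_mul _) measurableSet_Ioi ?_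
    intro x' hx'
    have hx'0 : (0 : ℝ) < x' := hx'
    have hLC := hlc (x + a * s) (x + δ + a * x') (y - x)
      (by nlinarith [mul_pos ha hx'0]) (by linarith)
    have e1 : x + δ + a * x' + (y - x) = y + δ + a * x' := by ring
    have e2 : x + a * s + (y - x) = y + a * s := by ring
    rw [e1, e2] at hLC
    calc f (x + a * s) * (f (y + δ + a * x') * exp (-x'))
        = (f (x + a * s) * f (y + δ + a * x')) * exp (-x') := by ring
      _ ≤ (f (y + a * s) * f (x + δ + a * x')) * exp (-x') :=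
          mul_le_mul_of_nonneg_right hLC (exp_pos _).le
      _ = _ := by ring
  have hLeft : P x * T a f (y + δ) =
      ∫ s in Ioc (0 : ℝ) d, (f (x + a * s) * T a f (y + δ)) * exp (-s) := by
    rw [hP]
    rw [← integral_mul_const]
    refine setIntegral_congr_fun measurableSet_Ioc (fun s _ => ?_)
    ring
  have hRight : T a f (x + δ) * P y =
      ∫ s in Ioc (0 : ℝ) d, (f (y + a * s) * T a f (x + δ)) * exp (-s) := by
    rw [hP]
    rw [← integral_const_mul]
    refine setIntegral_congr_fun measurableSet_Ioc (fun s _ => ?_)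
    ring
  rw [hLeft, hRight]
  have hI1 : IntegrableOn (fun s => (f (x + a * s) * T a f (y + δ)) * exp (-s)) (Ioc (0 : ℝ) d) := by
    have hi : IntegrableOn (fun s => f (x + a * s) * exp (-s) * T a f (y + δ)) (Ioc (0 : ℝ) d) :=
      (hPI x).mul_const (T a f (y + δ))
    refine hi.congr_fun (fun s _ => ?_) measurableSet_Ioc
    simp only
    ring
  have hI2 : IntegrableOn (fun s => (f (y + a * s) * T a f (x + δ)) * exp (-s)) (Ioc (0 : ℝ) d) := by
    have hi : IntegrableOn (fun s => f (y + a * s) * exp (-s) * T a f (x + δ)) (Ioc (0 : ℝ) d) :=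
      (hPI y).mul_const (T a f (x + δ))
    refine hi.congr_fun (fun s _ => ?_) measurableSet_Ioc
    simp only
    ring
  refine setIntegral_mono_on hI1 hI2 measurableSet_Ioc (fun s hs => ?_)
  exact mul_le_mul_of_nonneg_right (hpt s hs) (exp_pos _).le

lemma lipschitz_comp_neg {f : ℝ → ℝ} (hf : LipschitzWith 1 f) :
    LipschitzWith 1 (fun u => f (-u)) := by
  refine LipschitzWith.of_dist_le_mul fun u v => ?_
  have := hf.dist_le_mul (-u) (-v)
  simpa [Real.dist_eq, abs_sub_comm, sub_eq_add_neg, add_comm] using this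

lemma LC_comp_neg {f : ℝ → ℝ} (hlc : LC f) : LC (fun u => f (-u)) := by
  intro X Y Δ hXY hΔ
  have := hlc (-Y - Δ) (-X - Δ) Δ (by linarith) hΔ
  simp only
  have e1 : -(Y + Δ) = -Y - Δ := by ring
  have e2 : -(X + Δ) = -X - Δ := by ring
  have e3 : -X - Δ + Δ = -X := by ring
  have e4 : -Y - Δ + Δ = -Y := by ring
  rw [e3, e4] at this
  rw [e1, e2]
  linarith

lemma T_neg (b : ℝ) (f : ℝ → ℝ) (v : ℝ) : T (-b) f v = T b (fun u => f (-u)) (-v) := by
  unfold T
  refine setIntegral_congr_fun measurableSet_Ioi (fun x _ => ?_)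
  simp only
  congr 2
  ring

theorem T_LC {f : ℝ → ℝ} (hf : LipschitzWith 1 f) (h0 : ∀ u, 0 ≤ f u) (hlc : LC f) (a : ℝ) :
    LC (T a f) := by
  rcases lt_trichotomy a 0 with ha | ha | ha
  · have h1 : T a f = fun v => T (-a) (fun u => f (-u)) (-v) := by
      funext v
      have := T_neg (-a) f v
      rwa [neg_neg] at this
    have h2 := LC_comp_neg (T_LC_pos (lipschitz_comp_neg hf) (fun u => h0 _)
      (LC_comp_neg hlc) (a := -a) (by linarith))
    rw [h1]
    exact h2
  · subst ha
    have h1 : T 0 f = f := by funext v; exact T_zero v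
    rw [h1]; exact hlc
  · exact T_LC_pos hf h0 hlc ha

/-- Tilting preserves log-concavity. -/
lemma LC_tilt {f : ℝ → ℝ} (hlc : LC f) (θ : ℝ) : LC (fun u => f u * exp (-θ * u)) := by
  intro X Y Δ hXY hΔ
  have := hlc X Y Δ hXY hΔ
  simp only
  have e : exp (-θ * X) * exp (-θ * (Y + Δ)) = exp (-θ * (X + Δ)) * exp (-θ * Y) := by
    rw [← Real.exp_add, ← Real.exp_add]; ring_nf
  calc f X * exp (-θ * X) * (f (Y + Δ) * exp (-θ * (Y + Δ)))
      = (f X * f (Y + Δ)) * (exp (-θ * X) * exp (-θ * (Y + Δ))) := by ring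
    _ ≤ (f (X + Δ) * f Y) * (exp (-θ * X) * exp (-θ * (Y + Δ))) :=
        mul_le_mul_of_nonneg_right this (by positivity)
    _ = _ := by rw [e]; ring

/-- Continuous, nonnegative, log-concave functions are quasi-concave. -/
lemma LC_quasi {h : ℝ → ℝ} (hc : Continuous h) (h0 : ∀ u, 0 ≤ h u) (hlc : LC h)
    {p q r : ℝ} (hpq : p ≤ q) (hqr : q ≤ r) : min (h p) (h r) ≤ h q := by
  by_contra hcon
  rw [not_le] at hcon
  set c := min (h p) (h r) with hc_def
  have hcp : c ≤ h p := min_le_left _ _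
  have hcr : c ≤ h r := min_le_right _ _
  have hcpos : 0 < c := lt_of_le_of_lt (h0 q) hcon
  -- the last point before q with value ≥ c
  have hA : IsCompact (Icc p q ∩ {x | c ≤ h x}) :=
    isCompact_Icc.inter_right (isClosed_le continuous_const hc)
  have hB : IsCompact (Icc q r ∩ {x | c ≤ h x}) :=
    isCompact_Icc.inter_right (isClosed_le continuous_const hc)
  obtain ⟨q₁, hq₁, hq₁max⟩ := hA.exists_isGreatest ⟨p, ⟨le_refl _, hpq⟩, hcp⟩
  obtain ⟨q₂, hq₂, hq₂min⟩ := hB.exists_isLeast ⟨r, ⟨hqr, le_refl _⟩, hcr⟩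
  have hq₁c : c ≤ h q₁ := hq₁.2
  have hq₂c : c ≤ h q₂ := hq₂.2
  have hq₁q : q₁ ≤ q := hq₁.1.2
  have hqq₂ : q ≤ q₂ := hq₂.1.1
  have hq₁lt : q₁ < q := lt_of_le_of_ne hq₁q (by
    rintro rfl; linarith)
  have hltq₂ : q < q₂ := lt_of_le_of_ne hqq₂ (by
    rintro rfl; linarith)
  -- the midpoint
  set m := (q₁ + q₂) / 2 with hm
  have hmlt : h m < c := by
    by_contra hge
    rw [not_lt] at hge
    rcases le_total m q with hmq | hmq
    · have : m ≤ q₁ := hq₁max ⟨⟨by
        have := hq₁.1.1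
        simp only [hm]; linarith, hmq⟩, hge⟩
      simp only [hm] at this
      linarith
    · have : q₂ ≤ m := hq₂min ⟨⟨hmq, by
        have := hq₂.1.2
        simp only [hm]; linarith⟩, hge⟩
      simp only [hm] at this
      linarith
  have hLC := hlc q₁ m ((q₂ - q₁) / 2) (by simp only [hm]; linarith) (by linarith)
  have e1 : m + (q₂ - q₁) / 2 = q₂ := by simp only [hm]; ring
  have e2 : q₁ + (q₂ - q₁) / 2 = m := by simp only [hm]; ring
  rw [e1, e2] at hLC
  nlinarith [h0 m, mul_le_mul hq₁c hq₂c hcpos.le (h0 q₁)]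

/-- Quasi-concavity of all tilts. -/
lemma LC_quasi_tilt {f : ℝ → ℝ} (hc : Continuous f) (h0 : ∀ u, 0 ≤ f u) (hlc : LC f) (θ : ℝ)
    {p q r : ℝ} (hpq : p ≤ q) (hqr : q ≤ r) :
    min (f p * exp (-θ * p)) (f r * exp (-θ * r)) ≤ f q * exp (-θ * q) :=
  LC_quasi (h := fun u => f u * exp (-θ * u)) (by fun_prop)
    (fun u => mul_nonneg (h0 u) (exp_pos _).le) (LC_tilt hlc θ) hpq hqr


/-! ### The kernel and the comparators -/

noncomputable def κ (r : ℝ) : ℝ := (1 - r) * exp (-r)

noncomputable def L (S : ℝ → ℝ) (w : ℝ) : ℝ := ∫ r in Ioi (0 : ℝ), κ r * S (w - r)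

lemma hasDeriv_Q (t r : ℝ) :
    HasDerivAt (fun r : ℝ => (-r ^ 2 + (t - 1) * r - 1) * exp (-r)) (κ r * (t - r)) r := by
  have h1 : HasDerivAt (fun r : ℝ => -r ^ 2 + (t - 1) * r - 1) (-(2 * r) + (t - 1)) r := by
    have h := (((hasDerivAt_pow 2 r).fun_neg).fun_add
      ((hasDerivAt_id' r).const_mul (t - 1))).sub_const 1
    exact h.congr_deriv (by simp)
  have h2 : HasDerivAt (fun r : ℝ => exp (-r)) (exp (-r) * (-1)) r := (hasDerivAt_neg r).exp
  exact (h1.fun_mul h2).congr_deriv (by unfold κ; ring)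

lemma continuous_κ : Continuous κ := by unfold κ; fun_prop

lemma integral_kappa_linear (t : ℝ) {c : ℝ} (hc : 0 ≤ c) :
    ∫ r in Ioc (0 : ℝ) c, κ r * (t - r) = 1 + (-c ^ 2 + (t - 1) * c - 1) * exp (-c) := by
  rw [← intervalIntegral.integral_of_le hc]
  rw [intervalIntegral.integral_eq_sub_of_hasDerivAt (fun r _ => hasDeriv_Q t r)
    ((continuous_κ.mul (by fun_prop)).intervalIntegrable _ _)]
  simp
  ring

lemma integrableOn_Ioc_kappa_linear (t c : ℝ) :
    IntegrableOn (fun r => κ r * (t - r)) (Ioc (0 : ℝ) c) :=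
  (Continuous.integrableOn_Icc (continuous_κ.mul (by fun_prop))).mono_set Ioc_subset_Icc_self

lemma integral_exp_theta {θ : ℝ} (hθ : 0 < θ) :
    ∫ x in Ioi (0 : ℝ), exp (-(θ * x)) = 1 / θ := by
  have h := integral_comp_mul_left_Ioi (fun y => exp (-y)) 0 hθ
  rw [mul_zero, integral_exp_neg', smul_eq_mul, mul_one] at h
  rw [h, one_div]

lemma integrableOn_exp_theta {θ : ℝ} (hθ : 0 < θ) :
    IntegrableOn (fun x : ℝ => exp (-(θ * x))) (Ioi 0) := by
  have h := (integrableOn_Ioi_comp_mul_left_iff (fun y => exp (-y)) 0 hθ).2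
  rw [mul_zero] at h
  exact h integrableOn_exp_neg

lemma integral_id_exp_theta {θ : ℝ} (hθ : 0 < θ) :
    ∫ x in Ioi (0 : ℝ), x * exp (-(θ * x)) = 1 / θ ^ 2 := by
  have h := integral_comp_mul_left_Ioi (fun y => y * exp (-y)) 0 hθ
  rw [mul_zero, integral_id_exp, smul_eq_mul, mul_one] at h
  have h2 : ∫ x in Ioi (0 : ℝ), x * exp (-(θ * x)) =
      θ⁻¹ * ∫ x in Ioi (0 : ℝ), (θ * x) * exp (-(θ * x)) := by
    rw [← integral_const_mul]
    refine setIntegral_congr_fun measurableSet_Ioi (fun x _ => ?_)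
    field_simp
  rw [h2, h]
  field_simp

lemma integrableOn_id_exp_theta {θ : ℝ} (hθ : 0 < θ) :
    IntegrableOn (fun x : ℝ => x * exp (-(θ * x))) (Ioi 0) := by
  have h := (integrableOn_Ioi_comp_mul_left_iff (fun y => y * exp (-y)) 0 hθ).2
  rw [mul_zero] at h
  have h2 : IntegrableOn (fun x : ℝ => θ⁻¹ * (θ * x * exp (-(θ * x)))) (Ioi 0) :=
    (h integrableOn_id_exp).const_mul θ⁻¹
  refine h2.congr_fun (fun x _ => ?_) measurableSet_Ioi
  field_simp

/-- the integrand of the comparator (on the exponential part) in a convenient form. -/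
lemma kappa_exp_form {A : ℝ} (hA : 0 < A) (t c s : ℝ) :
    κ (s + c) * (A * exp ((t - (s + c)) / A - 1)) =
      (A * exp ((t - c) / A - 1 - c)) * ((1 - c) * exp (-((1 + 1 / A) * s)) -
        s * exp (-((1 + 1 / A) * s))) := by
  unfold κ
  have e : exp (-(s + c)) * exp ((t - (s + c)) / A - 1) =
      exp ((t - c) / A - 1 - c) * exp (-((1 + 1 / A) * s)) := by
    rw [← Real.exp_add, ← Real.exp_add]
    congr 1
    field_simp
    ring
  calc (1 - (s + c)) * exp (-(s + c)) * (A * exp ((t - (s + c)) / A - 1))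
      = (1 - (s + c)) * A * (exp (-(s + c)) * exp ((t - (s + c)) / A - 1)) := by ring
    _ = _ := by rw [e]; ring

lemma integrableOn_kappa_exp {A : ℝ} (hA : 0 < A) (t c : ℝ) :
    IntegrableOn (fun r => κ r * (A * exp ((t - r) / A - 1))) (Ioi c) := by
  have hθ : 0 < 1 + 1 / A := by positivity
  have h1 : IntegrableOn (fun s => κ (s + c) * (A * exp ((t - (s + c)) / A - 1))) (Ioi 0) := by
    simp_rw [kappa_exp_form hA]
    exact (((integrableOn_exp_theta hθ).const_mul _).sub (integrableOn_id_exp_theta hθ)).const_mul _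
  exact (integrableOn_Ioi_shift _ c).2 h1


lemma integral_kappa_exp {A : ℝ} (hA : 0 < A) (t c : ℝ) :
    ∫ r in Ioi c, κ r * (A * exp ((t - r) / A - 1)) =
      A * exp ((t - c) / A - 1 - c) * ((1 - c) / (1 + 1 / A) - 1 / (1 + 1 / A) ^ 2) := by
  have hθ : 0 < 1 + 1 / A := by positivity
  rw [integral_Ioi_shift]
  simp_rw [kappa_exp_form hA]
  rw [integral_const_mul, integral_sub ((integrableOn_exp_theta hθ).const_mul _)
    (integrableOn_id_exp_theta hθ), integral_const_mul, integral_exp_theta hθ,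
    integral_id_exp_theta hθ]
  ring

/-- quadratic growth against `exp (-x)` -/
lemma integrable_of_growth2 {φ : ℝ → ℝ} (hφ : AEStronglyMeasurable φ (volume.restrict (Ioi 0)))
    {C D E : ℝ} (h : ∀ x, 0 < x → |φ x| ≤ C + D * x + E * x ^ 2) :
    IntegrableOn (fun x => φ x * exp (-x)) (Ioi 0) := by
  have hdom : IntegrableOn (fun x : ℝ => C * exp (-x) + D * (x * exp (-x)) +
      E * (x ^ 2 * exp (-x))) (Ioi 0) :=
    ((integrableOn_exp_neg.const_mul C).add (integrableOn_id_exp.const_mul D)).add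
      ((integrableOn_rpow_exp 2).const_mul E)
  refine Integrable.mono' hdom (hφ.mul (by fun_prop)) ?_
  refine (ae_restrict_iff' measurableSet_Ioi).2 (Filter.Eventually.of_forall fun x hx => ?_)
  have hx' : (0 : ℝ) < x := hx
  rw [norm_mul, Real.norm_eq_abs, Real.norm_eq_abs, abs_of_pos (exp_pos _)]
  calc |φ x| * exp (-x) ≤ (C + D * x + E * x ^ 2) * exp (-x) :=
        mul_le_mul_of_nonneg_right (h x hx') (exp_pos _).le
    _ = _ := by ring

lemma integrableOn_L {S : ℝ → ℝ} (hS : LipschitzWith 1 S) (w : ℝ) :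
    IntegrableOn (fun r => κ r * S (w - r)) (Ioi 0) := by
  have hc : Continuous fun r => (1 - r) * S (w - r) :=
    (by fun_prop : Continuous fun r : ℝ => 1 - r).mul (hS.continuous.comp (by fun_prop))
  have h := integrable_of_growth2 (φ := fun r => (1 - r) * S (w - r))
    (C := |S 0| + |w|) (D := |S 0| + |w| + 1) (E := 1) hc.aestronglyMeasurable (by
      intro x hx
      have h1 := lip_growth hS (w - x)
      have h2 : |w - x| ≤ |w| + x := by
        calc |w - x| ≤ |w| + |x| := abs_sub _ _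
          _ = _ := by rw [abs_of_pos hx]
      have h3 : |1 - x| ≤ 1 + x := by
        calc |1 - x| ≤ |1| + |x| := abs_sub _ _
          _ = _ := by rw [abs_of_pos hx, abs_one]
      rw [abs_mul]
      have h4 : |S (w - x)| ≤ |S 0| + |w| + x := by linarith
      calc |1 - x| * |S (w - x)| ≤ (1 + x) * (|S 0| + |w| + x) :=
            mul_le_mul h3 h4 (abs_nonneg _) (by linarith)
        _ = _ := by ring)
  refine h.congr_fun (fun r _ => ?_) measurableSet_Ioi
  simp only [κ]
  ring

/-- Comparison of `L S t` with the comparator integrals. -/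
lemma L_ge_F {S : ℝ → ℝ} (hS : LipschitzWith 1 S) {A : ℝ} (hA : 0 < A) (t : ℝ) {c : ℝ}
    (hc : 0 ≤ c)
    (h1 : ∀ r ∈ Ioc (0 : ℝ) c, κ r * (t - r) ≤ κ r * S (t - r))
    (h2 : ∀ r ∈ Ioi c, κ r * (A * exp ((t - r) / A - 1)) ≤ κ r * S (t - r)) :
    1 + (-c ^ 2 + (t - 1) * c - 1) * exp (-c) +
      A * exp ((t - c) / A - 1 - c) * ((1 - c) / (1 + 1 / A) - 1 / (1 + 1 / A) ^ 2) ≤ L S t := by
  have hI := integrableOn_L hS t
  have hU : Ioi (0 : ℝ) = Ioc 0 c ∪ Ioi c := (Ioc_union_Ioi_eq_Ioi hc).symm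
  have hsplit : L S t = (∫ r in Ioc (0 : ℝ) c, κ r * S (t - r)) + ∫ r in Ioi c, κ r * S (t - r) := by
    unfold L
    conv_lhs => rw [hU]
    exact setIntegral_union (Ioc_disjoint_Ioi le_rfl) measurableSet_Ioi
      (hI.mono_set Ioc_subset_Ioi_self) (hI.mono_set (Ioi_subset_Ioi hc))
  rw [hsplit, ← integral_kappa_linear t hc, ← integral_kappa_exp hA]
  refine add_le_add ?_ ?_
  · exact setIntegral_mono_on (integrableOn_Ioc_kappa_linear t c)
      (hI.mono_set Ioc_subset_Ioi_self) measurableSet_Ioc h1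
  · exact setIntegral_mono_on (integrableOn_kappa_exp hA t c)
      (hI.mono_set (Ioi_subset_Ioi hc)) measurableSet_Ioi h2

section LemmaA

variable {S : ℝ → ℝ}

lemma claimU (hS : Continuous S) (h0 : ∀ u, 0 ≤ S u) (hlc : LC S) (hge : ∀ u, u ≤ S u)
    {u₀ A : ℝ} (hA : 0 < A) (hu₀A : u₀ < A) (hS₀ : S u₀ ≤ A * exp (u₀ / A - 1))
    {u : ℝ} (hu : u < u₀) : S u ≤ A * exp (u / A - 1) := by
  have key : ∀ θ, θ < 1 / A → S u ≤ A * exp (u₀ / A - 1 + θ * (u - u₀)) := by
    intro θ hθ
    have hq := LC_quasi_tilt hS h0 hlc θ hu.le hu₀A.le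
    have h2 : S u₀ * exp (-θ * u₀) < S A * exp (-θ * A) := by
      calc S u₀ * exp (-θ * u₀) ≤ A * exp (u₀ / A - 1) * exp (-θ * u₀) :=
            mul_le_mul_of_nonneg_right hS₀ (exp_pos _).le
        _ = A * exp (u₀ / A - 1 + -θ * u₀) := by rw [Real.exp_add]; ring
        _ < A * exp (-θ * A) := by
            refine mul_lt_mul_of_pos_left (Real.exp_lt_exp.2 ?_) hA
            have h3 : u₀ / A - 1 = -(A - u₀) * (1 / A) := by field_simp; ring
            rw [h3]
            nlinarith [mul_pos (sub_pos.2 hu₀A) (sub_pos.2 hθ)]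
        _ ≤ S A * exp (-θ * A) := mul_le_mul_of_nonneg_right (hge A) (exp_pos _).le
    rcases min_le_iff.1 hq with h | h
    · have h3 : S u * exp (-θ * u) ≤ A * exp (u₀ / A - 1) * exp (-θ * u₀) :=
        h.trans (mul_le_mul_of_nonneg_right hS₀ (exp_pos _).le)
      have h4 : A * exp (u₀ / A - 1) * exp (-θ * u₀) =
          A * exp (u₀ / A - 1 + θ * (u - u₀)) * exp (-θ * u) := by
        rw [mul_assoc, mul_assoc, ← Real.exp_add, ← Real.exp_add]
        ring_nf
      rw [h4] at h3
      exact le_of_mul_le_mul_right h3 (exp_pos _)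
    · exact absurd h (not_le.2 h2)
  have hlim : Filter.Tendsto (fun θ => A * exp (u₀ / A - 1 + θ * (u - u₀)))
      (nhdsWithin (1 / A) (Iio (1 / A))) (nhds (A * exp (u₀ / A - 1 + 1 / A * (u - u₀)))) := by
    have hc : Continuous (fun θ => A * exp (u₀ / A - 1 + θ * (u - u₀))) := by fun_prop
    exact (hc.tendsto (1 / A)).mono_left nhdsWithin_le_nhds
  have hfin := ge_of_tendsto hlim (Filter.eventually_of_mem self_mem_nhdsWithin key)
  have e : u₀ / A - 1 + 1 / A * (u - u₀) = u / A - 1 := by field_simp; ring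
  rwa [e] at hfin

/-- upper part of the comparator: for `u₀ ≤ u ≤ A`. -/
lemma claimL (hS : Continuous S) (h0 : ∀ u, 0 ≤ S u) (hlc : LC S) (hge : ∀ u, u ≤ S u)
    {u₀ A : ℝ} (hA : 0 < A) (hS₀ : A * exp (u₀ / A - 1) ≤ S u₀)
    {u : ℝ} (hu : u₀ ≤ u) (huA : u ≤ A) : A * exp (u / A - 1) ≤ S u := by
  have hq := LC_quasi_tilt hS h0 hlc (1 / A) hu huA
  have h1 : A * exp (-1) ≤ S u₀ * exp (-(1 / A) * u₀) := by
    calc A * exp (-1) = A * exp (u₀ / A - 1) * exp (-(1 / A) * u₀) := by
          rw [mul_assoc, ← Real.exp_add]; congr 2; field_simp; ring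
      _ ≤ _ := mul_le_mul_of_nonneg_right hS₀ (exp_pos _).le
  have h2 : A * exp (-1) ≤ S A * exp (-(1 / A) * A) := by
    have : -(1 / A) * A = -1 := by field_simp
    rw [this]
    exact mul_le_mul_of_nonneg_right (hge A) (exp_pos _).le
  have h3 := (le_min h1 h2).trans hq
  have h4 : A * exp (-1) = A * exp (u / A - 1) * exp (-(1 / A) * u) := by
    rw [mul_assoc, ← Real.exp_add]; congr 2; field_simp; ring
  rw [h4] at h3
  exact le_of_mul_le_mul_right h3 (exp_pos _)

end LemmaA


lemma y_bound : exp (-(1 / 3)) < 0.7166 := by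
  have h1 : exp (-(1 / 3)) ^ 3 = exp (-1) := by
    rw [← Real.exp_nat_mul]; norm_num
  have h2 : exp (-1) < 0.36788 := by
    rw [Real.exp_neg, inv_lt_comm₀ (exp_pos _) (by norm_num)]
    have := Real.exp_one_gt_d9
    norm_num at this ⊢
    linarith
  by_contra hcon
  rw [not_lt] at hcon
  have h3 : (0.7166 : ℝ) ^ 3 ≤ exp (-(1 / 3)) ^ 3 := pow_le_pow_left₀ (by norm_num) hcon 3
  rw [h1] at h3
  norm_num at h3 h2
  linarith

/-- numerical inequality in the first case -/
lemma ineqI : 4 / 9 * exp (-(1 / 3)) ≤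
    1 + (-(1 : ℝ) ^ 2 + (4 / 3 - 1) * 1 - 1) * exp (-1) +
      1 * exp ((4 / 3 - 1) / 1 - 1 - 1) * ((1 - 1) / (1 + 1 / 1) - 1 / (1 + 1 / 1) ^ 2) := by
  set y := exp (-(1 / 3)) with hy
  have hypos : 0 < y := exp_pos _
  have hyb := y_bound
  have h1 : exp (-1) = y ^ 3 := by rw [hy, ← Real.exp_nat_mul]; norm_num
  have h2 : exp ((4 / 3 - 1) / 1 - 1 - 1) = y ^ 5 := by rw [hy, ← Real.exp_nat_mul]; norm_num
  rw [h1, h2]
  norm_num at hyb ⊢
  have h3 : y ^ 3 ≤ (3583 / 5000 : ℝ) ^ 3 := pow_le_pow_left₀ hypos.le hyb.le 3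
  have h5 : y ^ 5 ≤ (3583 / 5000 : ℝ) ^ 5 := pow_le_pow_left₀ hypos.le hyb.le 5
  norm_num at h3 h5
  linarith

/-- numerical inequality, second case, `A ≥ 4/3` -/
lemma ineqIIa {A : ℝ} (hA : 0 < A) : 4 / 9 * exp (-(1 / 3)) ≤
    1 + (-(0 : ℝ) ^ 2 + (4 / 3 - 1) * 0 - 1) * exp (-0) +
      A * exp ((4 / 3 - 0) / A - 1 - 0) * ((1 - 0) / (1 + 1 / A) - 1 / (1 + 1 / A) ^ 2) := by
  set θ := 1 + 1 / A with hθ
  have hθpos : 0 < θ := by positivity
  have hAθ : A * (1 / θ - 1 / θ ^ 2) = 1 / θ ^ 2 := by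
    rw [hθ]; field_simp; ring
  set x := 2 * θ / 3 with hx
  have hxpos : 0 < x := by positivity
  have h1 : x ≤ exp (x - 1) := by
    have := Real.add_one_le_exp (x - 1)
    linarith
  have h2 : x ^ 2 ≤ exp (x - 1) ^ 2 := pow_le_pow_left₀ hxpos.le h1 2
  have h3 : exp (x - 1) ^ 2 * exp (-(1 / 3)) = exp ((4 / 3) / A - 1) := by
    rw [← Real.exp_nat_mul, ← Real.exp_add]
    congr 1
    rw [hx, hθ]; field_simp; ring
  have h4 : 4 / 9 * exp (-(1 / 3)) = x ^ 2 * exp (-(1 / 3)) * (1 / θ ^ 2) := by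
    rw [hx]; field_simp; ring
  have h5 : 1 + (-(0 : ℝ) ^ 2 + (4 / 3 - 1) * 0 - 1) * exp (-0) +
      A * exp ((4 / 3 - 0) / A - 1 - 0) * ((1 - 0) / θ - 1 / θ ^ 2) =
      exp ((4 / 3) / A - 1) * (A * (1 / θ - 1 / θ ^ 2)) := by
    simp
    ring
  rw [h5, hAθ, h4, ← h3]
  refine mul_le_mul_of_nonneg_right ?_ (by positivity)
  exact mul_le_mul_of_nonneg_right h2 (exp_pos _).le

/-- numerical inequality, second case, `1 ≤ A ≤ 4/3` -/
lemma ineqIIb {A : ℝ} (hA1 : 1 ≤ A) (hA2 : A ≤ 4 / 3) : 4 / 9 * exp (-(1 / 3)) ≤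
    1 + (-(4 / 3 - A) ^ 2 + (4 / 3 - 1) * (4 / 3 - A) - 1) * exp (-(4 / 3 - A)) +
      A * exp ((4 / 3 - (4 / 3 - A)) / A - 1 - (4 / 3 - A)) *
        ((1 - (4 / 3 - A)) / (1 + 1 / A) - 1 / (1 + 1 / A) ^ 2) := by
  have hA : 0 < A := by linarith
  set c := 4 / 3 - A with hc
  have hc0 : 0 ≤ c := by rw [hc]; linarith
  have hc1 : c ≤ 1 / 3 := by rw [hc]; linarith
  have hAc : A = 4 / 3 - c := by rw [hc]; ring
  set E := exp (-c) with hE
  have hEpos : 0 < E := exp_pos _
  have he : (4 / 3 - c) / A - 1 - c = -c := by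
    rw [← hAc]; field_simp; ring
  rw [he, ← hE]
  have hEq : E * (1 + c + c ^ 2 / 2) ≤ 1 := by
    have h1 := Real.quadratic_le_exp_of_nonneg hc0
    have h2 : E * exp c = 1 := by rw [hE, ← Real.exp_add]; simp
    calc E * (1 + c + c ^ 2 / 2) ≤ E * exp c := mul_le_mul_of_nonneg_left h1 hEpos.le
      _ = 1 := h2
  set B := c / (A + 1) + (2 * A + 1) / (A + 1) ^ 2 with hB
  have hform : 1 + (-c ^ 2 + (4 / 3 - 1) * c - 1) * E + A * E * ((1 - c) / (1 + 1 / A) -
      1 / (1 + 1 / A) ^ 2) = 1 - E * B := by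
    rw [hB]
    have hA' : A + 1 ≠ 0 := by linarith
    have h43 : (4 / 3 - 1) * c = (A + c - 1) * c := by rw [hAc]; ring
    rw [h43]
    field_simp
    ring
  rw [hform]
  have hBle : B ≤ 0.6815 * (1 + c + c ^ 2 / 2) := by
    rw [hB]
    have hA' : 0 < A + 1 := by linarith
    have hkey : c * (A + 1) + (2 * A + 1) ≤ 0.6815 * (1 + c + c ^ 2 / 2) * (A + 1) ^ 2 := by
      rw [hAc]
      norm_num
      nlinarith [mul_nonneg hc0 hc0, mul_nonneg hc0 (sub_nonneg.2 hc1),
        mul_nonneg (mul_nonneg hc0 hc0) (sub_nonneg.2 hc1),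
        mul_nonneg (mul_nonneg hc0 hc0) (mul_nonneg hc0 hc0)]
    have e : c / (A + 1) + (2 * A + 1) / (A + 1) ^ 2 = (c * (A + 1) + (2 * A + 1)) / (A + 1) ^ 2 := by
      field_simp
    rw [e, div_le_iff₀ (by positivity)]
    exact hkey
  have hEB : E * B ≤ 0.6815 := by
    calc E * B ≤ E * (0.6815 * (1 + c + c ^ 2 / 2)) := mul_le_mul_of_nonneg_left hBle hEpos.le
      _ = 0.6815 * (E * (1 + c + c ^ 2 / 2)) := by ring
      _ ≤ 0.6815 * 1 := mul_le_mul_of_nonneg_left hEq (by norm_num)
      _ = 0.6815 := by norm_num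
  have hy := y_bound
  norm_num at hy ⊢
  norm_num at hEB
  linarith

/-- **Lemma A**. -/
theorem lemmaA {S : ℝ → ℝ} (hL : LipschitzWith 1 S) (h0 : ∀ u, 0 ≤ S u) (hlc : LC S)
    (hge : ∀ u, u ≤ S u) : 4 / 9 * exp (-(1 / 3)) ≤ L S (4 / 3) := by
  have hc := hL.continuous
  by_cases hcase : S (1 / 3) ≤ 1 * exp ((1 / 3) / 1 - 1)
  · -- first case
    have hF := L_ge_F hL (A := 1) one_pos (4 / 3) (c := 1) zero_le_one
      (by
        intro r hr
        refine mul_le_mul_of_nonneg_left (hge _) ?_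
        exact mul_nonneg (by linarith [hr.2]) (exp_pos _).le)
      (by
        intro r hr
        have hr1 : (1 : ℝ) < r := hr
        have hk : κ r ≤ 0 := mul_nonpos_of_nonpos_of_nonneg (by linarith) (exp_pos _).le
        refine mul_le_mul_of_nonpos_left ?_ hk
        exact claimU hc h0 hlc hge one_pos (by norm_num) hcase (by linarith))
    exact ineqI.trans hF
  · rw [not_le] at hcase
    -- find `A > 1` with `β A = S (1/3)`
    set S₀ := S (1 / 3) with hS₀
    have hS₀nn : 0 ≤ S₀ := h0 _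
    set β : ℝ → ℝ := fun A => A * exp ((1 / 3) / A - 1) with hβ
    set B := exp 1 * S₀ + 1 with hB
    have hB1 : 1 ≤ B := by
      rw [hB]; nlinarith [exp_pos 1]
    have hβc : ContinuousOn β (Icc 1 B) := by
      refine continuousOn_id.mul (Real.continuous_exp.comp_continuousOn ?_)
      refine ContinuousOn.sub (ContinuousOn.div continuousOn_const continuousOn_id ?_)
        continuousOn_const
      intro x hx
      have : (1 : ℝ) ≤ x := hx.1
      exact (by linarith : (0 : ℝ) < x).ne'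
    have hβB : S₀ ≤ β B := by
      have h1 : exp (-1) ≤ exp ((1 / 3) / B - 1) := by
        refine Real.exp_le_exp.2 ?_
        have : 0 ≤ (1 / 3) / B := by positivity
        linarith
      have h2 : S₀ ≤ B * exp (-1) := by
        have h3 : exp 1 * exp (-1) = 1 := by rw [← Real.exp_add]; simp
        rw [hB]
        have : 0 < exp (-1) := exp_pos _
        nlinarith
      calc S₀ ≤ B * exp (-1) := h2
        _ ≤ B * exp ((1 / 3) / B - 1) := mul_le_mul_of_nonneg_left h1 (by linarith)
    obtain ⟨A, hAmem, hAeq⟩ := intermediate_value_Icc hB1 hβc ⟨hcase.le, hβB⟩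
    have hA1 : 1 < A := by
      refine lt_of_le_of_ne hAmem.1 ?_
      rintro rfl
      simp only [hβ] at hAeq
      rw [hAeq] at hcase
      exact lt_irrefl _ hcase
    have hApos : 0 < A := by linarith
    have hAeq' : A * exp ((1 / 3) / A - 1) = S (1 / 3) := hAeq
    have hcomp : ∀ r, 4 / 3 - r ≤ A →
        κ r * (A * exp ((4 / 3 - r) / A - 1)) ≤ κ r * S (4 / 3 - r) := by
      intro r hr
      by_cases hr1 : r ≤ 1
      · refine mul_le_mul_of_nonneg_left ?_ ?_
        · exact claimL hc h0 hlc hge hApos hAeq'.le (by linarith) hr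
        · exact mul_nonneg (by linarith) (exp_pos _).le
      · rw [not_le] at hr1
        have hk : κ r ≤ 0 := mul_nonpos_of_nonpos_of_nonneg (by linarith) (exp_pos _).le
        refine mul_le_mul_of_nonpos_left ?_ hk
        exact claimU hc h0 hlc hge hApos (by linarith) hAeq'.ge (by linarith)
    by_cases hAt : 4 / 3 ≤ A
    · have hF := L_ge_F hL (A := A) hApos (4 / 3) (c := 0) le_rfl
        (by intro r hr; exact absurd hr.2 (not_le.2 hr.1))
        (by
          intro r hr
          have hr0 : (0 : ℝ) < r := hr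
          exact hcomp r (by linarith))
      exact (ineqIIa hApos).trans hF
    · rw [not_le] at hAt
      have hF := L_ge_F hL (A := A) hApos (4 / 3) (c := 4 / 3 - A) (by linarith)
        (by
          intro r hr
          have hr2 : r ≤ 4 / 3 - A := hr.2
          refine mul_le_mul_of_nonneg_left (hge _) ?_
          exact mul_nonneg (by linarith) (exp_pos _).le)
        (by
          intro r hr
          have hr2 : 4 / 3 - A < r := hr
          exact hcomp r (by linarith))
      exact (ineqIIb hA1.le hAt.le).trans hF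


/-! ### Iteration -/

noncomputable def pos (u : ℝ) : ℝ := max u 0

lemma pos_lipschitz : LipschitzWith 1 pos := by
  refine LipschitzWith.of_dist_le_mul fun u v => ?_
  simp only [NNReal.coe_one, one_mul, Real.dist_eq, pos]
  exact abs_max_sub_max_le_abs u v 0

lemma pos_nonneg (u : ℝ) : 0 ≤ pos u := le_max_right _ _

lemma pos_ge (u : ℝ) : u ≤ pos u := le_max_left _ _

lemma pos_of_nonneg {u : ℝ} (hu : 0 ≤ u) : pos u = u := max_eq_left hu

lemma pos_of_nonpos {u : ℝ} (hu : u ≤ 0) : pos u = 0 := max_eq_right hu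

lemma pos_LC : LC pos := by
  intro X Y Δ hXY hΔ
  by_cases hX : X ≤ 0
  · rw [pos_of_nonpos hX, zero_mul]
    exact mul_nonneg (pos_nonneg _) (pos_nonneg _)
  · rw [not_le] at hX
    have hY : 0 < Y := lt_of_lt_of_le hX hXY
    rw [pos_of_nonneg hX.le, pos_of_nonneg (by linarith : 0 ≤ Y + Δ),
      pos_of_nonneg (by linarith : 0 ≤ X + Δ), pos_of_nonneg hY.le]
    nlinarith

noncomputable def iter (l : List ℝ) (f : ℝ → ℝ) : ℝ → ℝ := l.foldr T f

@[simp] lemma iter_nil (f : ℝ → ℝ) : iter [] f = f := rfl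

@[simp] lemma iter_cons (a : ℝ) (l : List ℝ) (f : ℝ → ℝ) : iter (a :: l) f = T a (iter l f) := rfl

lemma iter_lipschitz {f : ℝ → ℝ} (hf : LipschitzWith 1 f) (l : List ℝ) :
    LipschitzWith 1 (iter l f) := by
  induction l with
  | nil => simpa using hf
  | cons a l ih => simpa using T_lipschitz ih a

lemma iter_nonneg {f : ℝ → ℝ} (hf : ∀ u, 0 ≤ f u) (l : List ℝ) (u : ℝ) : 0 ≤ iter l f u := by
  induction l generalizing u with
  | nil => simpa using hf u
  | cons a l ih => simpa using T_nonneg ih a u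

lemma iter_LC {f : ℝ → ℝ} (hf : LipschitzWith 1 f) (h0 : ∀ u, 0 ≤ f u) (hlc : LC f)
    (l : List ℝ) : LC (iter l f) := by
  induction l with
  | nil => simpa using hlc
  | cons a l ih =>
      simpa using T_LC (iter_lipschitz hf l) (iter_nonneg h0 l) ih a

lemma iter_pos_ge (l : List ℝ) (u : ℝ) : u + l.sum ≤ iter l pos u := by
  induction l generalizing u with
  | nil => simpa using pos_ge u
  | cons a l ih =>
      have := T_ge_affine (iter_lipschitz pos_lipschitz l) (c := l.sum) ih a u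
      simp only [iter_cons, List.sum_cons]
      linarith

/-- the weight -/
noncomputable abbrev g : ℝ → ℝ := Crest.AlgGeometry.truncExpWeight

lemma g_of_nonpos {v : ℝ} (hv : v ≤ 0) : g v = 1 := by
  simp [g, Crest.AlgGeometry.truncExpWeight, hv]

lemma g_of_pos {v : ℝ} (hv : 0 < v) : g v = (1 + v) * exp (-v) := by
  simp [g, Crest.AlgGeometry.truncExpWeight, not_le.2 hv]

lemma one_sub_g (v : ℝ) : 1 - g v = L pos v := by
  by_cases hv : v ≤ 0
  · rw [g_of_nonpos hv, sub_self]
    unfold L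
    symm
    refine setIntegral_eq_zero_of_forall_eq_zero (fun r hr => ?_)
    have hr' : (0 : ℝ) < r := hr
    rw [pos_of_nonpos (by linarith), mul_zero]
  · rw [not_le] at hv
    rw [g_of_pos hv]
    have hI := integrableOn_L pos_lipschitz v
    have hU : Ioi (0 : ℝ) = Ioc 0 v ∪ Ioi v := (Ioc_union_Ioi_eq_Ioi hv.le).symm
    have hsplit : L pos v = (∫ r in Ioc (0 : ℝ) v, κ r * pos (v - r)) +
        ∫ r in Ioi v, κ r * pos (v - r) := by
      unfold L
      conv_lhs => rw [hU]
      exact setIntegral_union (Ioc_disjoint_Ioi le_rfl) measurableSet_Ioi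
        (hI.mono_set Ioc_subset_Ioi_self) (hI.mono_set (Ioi_subset_Ioi hv.le))
    have h2 : ∫ r in Ioi v, κ r * pos (v - r) = 0 := by
      refine setIntegral_eq_zero_of_forall_eq_zero (fun r hr => ?_)
      have hr' : v < r := hr
      rw [pos_of_nonpos (by linarith), mul_zero]
    have h1 : ∫ r in Ioc (0 : ℝ) v, κ r * pos (v - r) = ∫ r in Ioc (0 : ℝ) v, κ r * (v - r) := by
      refine setIntegral_congr_fun measurableSet_Ioc (fun r hr => ?_)
      rw [pos_of_nonneg (by linarith [hr.2])]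
    rw [hsplit, h2, h1, integral_kappa_linear v hv.le]
    ring

lemma continuous_g : Continuous g := by
  have : g = fun v => if v ≤ 0 then 1 else (1 + v) * exp (-v) := by
    funext v; rfl
  rw [this]
  refine Continuous.if_le continuous_const (by fun_prop) continuous_id continuous_const ?_
  intro x hx
  simp [hx]

lemma g_abs_le (v : ℝ) : |g v| ≤ 1 := by
  by_cases hv : v ≤ 0
  · rw [g_of_nonpos hv]; simp
  · rw [not_le] at hv
    rw [g_of_pos hv, abs_of_nonneg (by positivity)]
    have h1 := Real.add_one_le_exp v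
    have h2 : exp (-v) * exp v = 1 := by rw [← Real.exp_add]; simp
    have h3 : 0 < exp (-v) := exp_pos _
    nlinarith

/-- product integrability for the Fubini step. -/
lemma integrable_fubini {S : ℝ → ℝ} (hS : LipschitzWith 1 S) (a v : ℝ) :
    Integrable (Function.uncurry fun x r => κ r * S (v + a * x - r) * exp (-x))
      ((volume.restrict (Ioi (0 : ℝ))).prod (volume.restrict (Ioi (0 : ℝ)))) := by
  have hD1 : Integrable (fun x : ℝ => (1 + x) * exp (-x)) (volume.restrict (Ioi (0 : ℝ))) := by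
    have h := (integrableOn_exp_neg).add integrableOn_id_exp
    refine h.congr ?_
    exact Filter.Eventually.of_forall (fun x => by simp only [Pi.add_apply]; ring)
  have hD2 : Integrable (fun r : ℝ => (1 + r) ^ 2 * exp (-r)) (volume.restrict (Ioi (0 : ℝ))) := by
    have h := ((integrableOn_exp_neg).add (integrableOn_id_exp.const_mul 2)).add
      (integrableOn_rpow_exp 2)
    refine h.congr ?_
    exact Filter.Eventually.of_forall (fun x => by simp only [Pi.add_apply]; ring)
  have hprod := (hD1.mul_prod hD2).const_mul (|S 0| + |v| + |a| + 1)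
  refine Integrable.mono' hprod ?_ ?_
  · have hc : Continuous (Function.uncurry fun x r => κ r * S (v + a * x - r) * exp (-x)) := by
      have hSc := hS.continuous
      unfold Function.uncurry
      simp only
      have hκ := continuous_κ
      fun_prop
    exact hc.aestronglyMeasurable
  · rw [Measure.prod_restrict]
    refine (ae_restrict_iff' (measurableSet_Ioi.prod measurableSet_Ioi)).2
      (Filter.Eventually.of_forall fun z hz => ?_)
    obtain ⟨x, r⟩ := z
    have hx : (0 : ℝ) < x := hz.1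
    have hr : (0 : ℝ) < r := hz.2
    simp only [Function.uncurry_apply_pair]
    set M := |S 0| + |v| + |a| + 1 with hM
    have hMnn : 0 ≤ |S 0| + |v| + |a| := by positivity
    have h1 := lip_growth hS (v + a * x - r)
    have h2 : |v + a * x - r| ≤ |v| + |a| * x + r := by
      calc |v + a * x - r| ≤ |v + a * x| + |r| := abs_sub _ _
        _ ≤ |v| + |a * x| + |r| := by gcongr; exact abs_add_le _ _
        _ = _ := by rw [abs_mul, abs_of_pos hx, abs_of_pos hr]
    have h3 : |S (v + a * x - r)| ≤ M * (1 + x) * (1 + r) := by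
      have h4 : 0 ≤ |S 0| := abs_nonneg _
      have h5 : 0 ≤ |v| := abs_nonneg _
      have h6 : 0 ≤ |a| := abs_nonneg _
      have h7 : 0 ≤ x * r := by positivity
      have h8 : |S 0| + |v| + |a| * x + r ≤ M * (1 + x) * (1 + r) := by
        have : M * (1 + x) * (1 + r) = M + M * x + M * r + M * (x * r) := by ring
        rw [this]
        have hM1 : 1 ≤ M := by rw [hM]; linarith
        have hMa : |a| ≤ M := by rw [hM]; linarith
        nlinarith [mul_le_mul_of_nonneg_right hMa hx.le, mul_le_mul_of_nonneg_right hM1 hr.le,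
          mul_nonneg (by linarith : 0 ≤ M) h7]
      linarith
    have h9 : |1 - r| ≤ 1 + r := by
      calc |1 - r| ≤ |1| + |r| := abs_sub _ _
        _ = _ := by rw [abs_of_pos hr, abs_one]
    rw [Real.norm_eq_abs, abs_mul, abs_mul, abs_of_pos (exp_pos (-x))]
    unfold κ
    rw [abs_mul, abs_of_pos (exp_pos (-r))]
    have hMpos : 0 < M := by rw [hM]; linarith
    have hbound : |1 - r| * |S (v + a * x - r)| ≤ (1 + r) * (M * (1 + x) * (1 + r)) :=
      mul_le_mul h9 h3 (abs_nonneg _) (by linarith)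
    calc |1 - r| * exp (-r) * |S (v + a * x - r)| * exp (-x)
        = (|1 - r| * |S (v + a * x - r)|) * (exp (-r) * exp (-x)) := by ring
      _ ≤ ((1 + r) * (M * (1 + x) * (1 + r))) * (exp (-r) * exp (-x)) :=
          mul_le_mul_of_nonneg_right hbound (by positivity)
      _ = _ := by ring

lemma integrableOn_T_L {S : ℝ → ℝ} (hS : LipschitzWith 1 S) (a v : ℝ) :
    IntegrableOn (fun x => L S (v + a * x) * exp (-x)) (Ioi 0) := by
  have h := (integrable_fubini hS a v).integral_prod_left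
  refine h.congr (Filter.Eventually.of_forall fun x => ?_)
  simp only [Function.uncurry_apply_pair]
  rw [integral_mul_const]
  rfl

lemma T_L {S : ℝ → ℝ} (hS : LipschitzWith 1 S) (a v : ℝ) : T a (L S) v = L (T a S) v := by
  have hsw := integral_integral_swap (integrable_fubini hS a v)
  unfold T L at *
  have h1 : ∫ x in Ioi (0 : ℝ), (∫ r in Ioi (0 : ℝ), κ r * S (v + a * x - r)) * exp (-x) =
      ∫ x in Ioi (0 : ℝ), ∫ r in Ioi (0 : ℝ), κ r * S (v + a * x - r) * exp (-x) := by
    refine setIntegral_congr_fun measurableSet_Ioi (fun x _ => ?_)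
    rw [integral_mul_const]
  have h2 : ∫ r in Ioi (0 : ℝ), κ r * ∫ x in Ioi (0 : ℝ), S (v - r + a * x) * exp (-x) =
      ∫ r in Ioi (0 : ℝ), ∫ x in Ioi (0 : ℝ), κ r * S (v + a * x - r) * exp (-x) := by
    refine setIntegral_congr_fun measurableSet_Ioi (fun r _ => ?_)
    rw [← integral_const_mul]
    refine setIntegral_congr_fun measurableSet_Ioi (fun x _ => ?_)
    have e : v - r + a * x = v + a * x - r := by ring
    rw [e]
    ring
  rw [h1, h2]
  exact hsw

/-- the representation of the iterates of `g`. -/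
lemma iter_g (l : List ℝ) (v : ℝ) : iter l g v = 1 - L (iter l pos) v := by
  induction l generalizing v with
  | nil => simpa using (one_sub_g v).symm ▸ by ring
  | cons a l ih =>
      simp only [iter_cons]
      rw [← T_L (iter_lipschitz pos_lipschitz l) a v]
      unfold T
      simp_rw [ih]
      have e : ∀ x : ℝ, (1 - L (iter l pos) (v + a * x)) * exp (-x) =
          exp (-x) - L (iter l pos) (v + a * x) * exp (-x) := by
        intro x; ring
      simp_rw [e]
      rw [integral_sub integrableOn_exp_neg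
        (integrableOn_T_L (iter_lipschitz pos_lipschitz l) a v), integral_exp_neg']

/-- Upper bound for the iterate of `g` when the list has zero sum. -/
lemma iter_g_le {l : List ℝ} (hl : l.sum = 0) : iter l g (4 / 3) ≤ 1 - 4 / 9 * exp (-(1 / 3)) := by
  rw [iter_g]
  have h := lemmaA (S := iter l pos) (iter_lipschitz pos_lipschitz l) (iter_nonneg pos_nonneg l)
    (iter_LC pos_lipschitz pos_nonneg pos_LC l) (fun u => by
      have := iter_pos_ge l u
      rwa [hl, add_zero] at this)
  linarith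


/-! ### The orthant integral -/

lemma integrableOn_exp_sum (n : ℕ) :
    IntegrableOn (fun x : Fin n → ℝ => exp (-∑ i, x i))
      (Set.pi univ (fun _ : Fin n => Ioi (0 : ℝ))) := by
  have h := Integrable.fintype_prod (ι := Fin n) (E := ℝ) (𝕜 := ℝ)
    (f := fun _ x => exp (-x)) (μ := fun _ => volume.restrict (Ioi (0 : ℝ)))
    (fun _ => integrableOn_exp_neg)
  rw [← Measure.restrict_pi_pi] at h
  refine h.congr (Filter.Eventually.of_forall fun x => ?_)
  simp only
  rw [← Real.exp_sum, Finset.sum_neg_distrib]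

theorem orthant_eq_iter {f : ℝ → ℝ} (hf : Continuous f) (hb : ∀ u, |f u| ≤ 1) (N : ℕ) :
    ∀ (a : Fin N → ℝ) (v : ℝ),
      ∫ x in Set.pi univ (fun _ : Fin N => Ioi (0 : ℝ)),
        f (v + ∑ i, a i * x i) * exp (-∑ i, x i) = iter (List.ofFn a) f v := by
  induction N with
  | zero =>
      intro a v
      simp
      have h1 : (Set.pi univ fun _ : Fin 0 => Ioi (0 : ℝ)) = univ := by
        ext x; simp
      rw [h1]
      simp [Measure.real, MeasureTheory.volume_pi, Measure.pi_empty_univ]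
  | succ n ih =>
      intro a v
      have hmp := volume_preserving_piFinSuccAbove (fun _ : Fin (n + 1) => ℝ) 0
      set e := MeasurableEquiv.piFinSuccAbove (fun _ : Fin (n + 1) => ℝ) 0 with he
      set G : ℝ × (Fin n → ℝ) → ℝ := fun y =>
        f (v + a 0 * y.1 + ∑ i, a i.succ * y.2 i) * (exp (-y.1) * exp (-∑ i, y.2 i)) with hG
      have hpre : e ⁻¹' (Ioi (0 : ℝ) ×ˢ Set.pi univ (fun _ : Fin n => Ioi (0 : ℝ))) =
          Set.pi univ (fun _ : Fin (n + 1) => Ioi (0 : ℝ)) := by
        ext x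
        simp only [mem_preimage, mem_prod, mem_pi, mem_univ, forall_true_left, mem_Ioi]
        rw [Fin.forall_fin_succ (P := fun i => 0 < x i)]
        rfl
      have hcomp : ∀ x : Fin (n + 1) → ℝ, G (e x) =
          f (v + ∑ i, a i * x i) * exp (-∑ i, x i) := by
        intro x
        have h1 : (e x).1 = x 0 := rfl
        have h2 : ∀ i, (e x).2 i = x i.succ := fun i => rfl
        simp only [hG, h1, h2]
        rw [Fin.sum_univ_succ (fun i => a i * x i), Fin.sum_univ_succ (fun i => x i),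
          ← Real.exp_add, add_assoc, neg_add]
      have hstep : ∫ x in Set.pi univ (fun _ : Fin (n + 1) => Ioi (0 : ℝ)),
          f (v + ∑ i, a i * x i) * exp (-∑ i, x i) =
          ∫ y in (Ioi (0 : ℝ) ×ˢ Set.pi univ (fun _ : Fin n => Ioi (0 : ℝ))), G y := by
        rw [← hmp.setIntegral_preimage_emb e.measurableEmbedding G, hpre]
        refine setIntegral_congr_fun ?_ (fun x _ => (hcomp x).symm)
        exact MeasurableSet.univ_pi (fun _ => measurableSet_Ioi)
      have hint : IntegrableOn G (Ioi (0 : ℝ) ×ˢ Set.pi univ (fun _ : Fin n => Ioi (0 : ℝ)))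
          (volume.prod volume) := by
        have hdom := (integrableOn_exp_neg).mul_prod (integrableOn_exp_sum n)
        rw [Measure.prod_restrict] at hdom
        refine Integrable.mono' hdom ?_ ?_
        · have hc : Continuous G := by
            rw [hG]
            fun_prop
          exact hc.aestronglyMeasurable
        · refine Filter.Eventually.of_forall fun z => ?_
          simp only [hG]
          have hpos : 0 < exp (-z.1) * exp (-∑ i, z.2 i) := by positivity
          rw [norm_mul, Real.norm_eq_abs, Real.norm_eq_abs, abs_of_pos hpos]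
          calc _ ≤ 1 * (exp (-z.1) * exp (-∑ i, z.2 i)) :=
                mul_le_mul_of_nonneg_right (hb _) hpos.le
            _ = _ := one_mul _
      rw [hstep, Measure.volume_eq_prod, setIntegral_prod G hint]
      rw [List.ofFn_succ, iter_cons]
      unfold T
      refine setIntegral_congr_fun measurableSet_Ioi (fun x₀ _ => ?_)
      simp only [hG]
      rw [← ih (fun i => a i.succ) (v + a 0 * x₀), ← integral_mul_const]
      refine setIntegral_congr_fun ?_ (fun x _ => ?_)
      · exact MeasurableSet.univ_pi (fun _ => measurableSet_Ioi)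
      · ring


/-! ### Second part: the supremum is approached -/

noncomputable def g1 (v : ℝ) : ℝ := if v ≤ 0 then 0 else -v * exp (-v)

lemma g1_of_nonpos {v : ℝ} (hv : v ≤ 0) : g1 v = 0 := by simp [g1, hv]

lemma g1_of_pos {v : ℝ} (hv : 0 < v) : g1 v = -v * exp (-v) := by simp [g1, not_le.2 hv]

lemma hasDeriv_p2 (v : ℝ) :
    HasDerivAt (fun x : ℝ => (1 + x) * exp (-x)) (-v * exp (-v)) v := by
  have h1 : HasDerivAt (fun x : ℝ => 1 + x) 1 v := (hasDerivAt_id' v).const_add 1
  have h2 : HasDerivAt (fun x : ℝ => exp (-x)) (exp (-v) * (-1)) v := (hasDerivAt_neg v).exp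
  exact (h1.fun_mul h2).congr_deriv (by ring)

lemma g_hasDeriv (v : ℝ) : HasDerivAt g (g1 v) v := by
  rcases lt_trichotomy v 0 with hv | hv | hv
  · rw [g1_of_nonpos hv.le]
    have h : g =ᶠ[nhds v] fun _ => 1 := by
      filter_upwards [Iio_mem_nhds hv] with x hx
      exact g_of_nonpos (le_of_lt hx)
    exact (hasDerivAt_const v (1 : ℝ)).congr_of_eventuallyEq h
  · subst hv
    rw [g1_of_nonpos le_rfl]
    have hl : HasDerivWithinAt g 0 (Iic 0) 0 := by
      refine (hasDerivWithinAt_const 0 (Iic 0) (1 : ℝ)).congr (fun x hx => g_of_nonpos hx) ?_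
      exact g_of_nonpos le_rfl
    have hr : HasDerivWithinAt g 0 (Ici 0) 0 := by
      have h := (hasDeriv_p2 0).hasDerivWithinAt (s := Ici 0)
      have hz : -(0 : ℝ) * exp (-0) = 0 := by simp
      rw [hz] at h
      refine h.congr (fun x hx => ?_) ?_
      · rcases eq_or_lt_of_le (show (0 : ℝ) ≤ x from hx) with h0 | h0
        · subst h0
          rw [g_of_nonpos le_rfl]; simp
        · exact g_of_pos h0
      · rw [g_of_nonpos le_rfl]; simp
    have hu := hl.union hr
    rwa [Iic_union_Ici, hasDerivWithinAt_univ] at hu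
  · rw [g1_of_pos hv]
    have h : g =ᶠ[nhds v] fun x => (1 + x) * exp (-x) := by
      filter_upwards [Ioi_mem_nhds hv] with x hx
      exact g_of_pos hx
    exact (hasDeriv_p2 v).congr_of_eventuallyEq h

lemma g1_abs_le (v : ℝ) : |g1 v| ≤ 1 := by
  by_cases hv : v ≤ 0
  · rw [g1_of_nonpos hv]; simp
  · rw [not_le] at hv
    rw [g1_of_pos hv, abs_mul, abs_neg, abs_of_pos hv, abs_of_pos (exp_pos _)]
    have h1 := Real.add_one_le_exp v
    have h2 : exp (-v) * exp v = 1 := by rw [← Real.exp_add]; simp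
    have h3 : 0 < exp (-v) := exp_pos _
    nlinarith

lemma g_lipschitz : LipschitzWith 1 g := by
  refine lipschitzWith_of_nnnorm_deriv_le (fun x => (g_hasDeriv x).differentiableAt) (fun x => ?_)
  rw [(g_hasDeriv x).deriv, ← NNReal.coe_le_coe]
  simpa using g1_abs_le x

/-- `v ↦ g1 v + v` is monotone. -/
lemma g1_add_mono {x y : ℝ} (hxy : x ≤ y) : g1 x + x ≤ g1 y + y := by
  by_cases hy : y ≤ 0
  · rw [g1_of_nonpos hy, g1_of_nonpos (hxy.trans hy)]; linarith
  · rw [not_le] at hy
    by_cases hx : x ≤ 0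
    · rw [g1_of_nonpos hx, g1_of_pos hy]
      have h1 : exp (-y) ≤ 1 := by
        rw [Real.exp_le_one_iff]; linarith
      nlinarith
    · rw [not_le] at hx
      rw [g1_of_pos hx, g1_of_pos hy]
      have h1 : exp (-y) ≤ exp (-x) := Real.exp_le_exp.2 (by linarith)
      have h2 : exp (-x) ≤ 1 := by
        rw [Real.exp_le_one_iff]; linarith
      have h3 : 0 < exp (-y) := exp_pos _
      nlinarith [mul_nonneg (sub_nonneg.2 hxy) (sub_nonneg.2 (h1.trans h2)),
        mul_nonneg hx.le (sub_nonneg.2 h1)]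

lemma phi_hasDeriv (v : ℝ) : HasDerivAt (fun x => g x + x ^ 2 / 2) (g1 v + v) v := by
  have h := (g_hasDeriv v).fun_add ((hasDerivAt_pow 2 v).div_const 2)
  exact h.congr_deriv (by simp)

/-- second-order lower bound for `g`. -/
lemma g_semi (w z : ℝ) : g w + g1 w * (z - w) - (z - w) ^ 2 / 2 ≤ g z := by
  set φ : ℝ → ℝ := fun x => g x + x ^ 2 / 2 with hφ
  have hφc : Continuous φ := by
    rw [hφ]
    have := continuous_g
    fun_prop
  have key : φ w + (g1 w + w) * (z - w) ≤ φ z := by
    rcases lt_trichotomy w z with h | h | h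
    · obtain ⟨c, hc, hce⟩ := exists_hasDerivAt_eq_slope φ (fun x => g1 x + x) h
        hφc.continuousOn (fun x _ => phi_hasDeriv x)
      have h1 := g1_add_mono hc.1.le
      have h2 : φ z - φ w = (g1 c + c) * (z - w) := by
        rw [hce]; field_simp [sub_ne_zero.2 h.ne']
      nlinarith [mul_le_mul_of_nonneg_right h1 (sub_pos.2 h).le]
    · subst h; simp
    · obtain ⟨c, hc, hce⟩ := exists_hasDerivAt_eq_slope φ (fun x => g1 x + x) h
        hφc.continuousOn (fun x _ => phi_hasDeriv x)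
      have h1 := g1_add_mono hc.2.le
      have h2 : φ w - φ z = (g1 c + c) * (w - z) := by
        rw [hce]; field_simp [sub_ne_zero.2 h.ne']
      nlinarith [mul_le_mul_of_nonneg_right h1 (sub_pos.2 h).le]
  simp only [hφ] at key
  nlinarith

lemma integrable_quad (p q r : ℝ) :
    IntegrableOn (fun x : ℝ => p * exp (-x) + q * (x * exp (-x)) + r * (x ^ 2 * exp (-x))) (Ioi 0) :=
  ((integrableOn_exp_neg.const_mul p).add (integrableOn_id_exp.const_mul q)).add
    ((integrableOn_rpow_exp 2).const_mul r)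

lemma integral_quad (p q r : ℝ) :
    ∫ x in Ioi (0 : ℝ), (p * exp (-x) + q * (x * exp (-x)) + r * (x ^ 2 * exp (-x))) =
      p + q + 2 * r := by
  have h12 : IntegrableOn (fun x : ℝ => p * exp (-x) + q * (x * exp (-x))) (Ioi 0) :=
    (integrableOn_exp_neg.const_mul p).add (integrableOn_id_exp.const_mul q)
  rw [integral_add h12 ((integrableOn_rpow_exp 2).const_mul r),
    integral_add (integrableOn_exp_neg.const_mul p) (integrableOn_id_exp.const_mul q),
    integral_const_mul, integral_const_mul, integral_const_mul, integral_exp_neg',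
    integral_id_exp, integral_pow_exp 2]
  norm_num
  ring

lemma T_neg_g_ge (b v : ℝ) : g (v - b) - b ^ 2 / 2 ≤ T (-b) g v := by
  set w := v - b with hw
  have h1 : ∫ x in Ioi (0 : ℝ), ((g w + g1 w * b - b ^ 2 / 2) * exp (-x) +
      (-(g1 w * b) + b ^ 2) * (x * exp (-x)) + (-(b ^ 2 / 2)) * (x ^ 2 * exp (-x))) =
      g w - b ^ 2 / 2 := by
    rw [integral_quad]; ring
  rw [← h1]
  refine setIntegral_mono_on (integrable_quad _ _ _) (integrableOn_T g_lipschitz _ _)
    measurableSet_Ioi (fun x _ => ?_)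
  have h2 := g_semi w (v + -b * x)
  have e : v + -b * x - w = b * (1 - x) := by rw [hw]; ring
  rw [e] at h2
  calc (g w + g1 w * b - b ^ 2 / 2) * exp (-x) +
      (-(g1 w * b) + b ^ 2) * (x * exp (-x)) + (-(b ^ 2 / 2)) * (x ^ 2 * exp (-x))
      = (g w + g1 w * (b * (1 - x)) - (b * (1 - x)) ^ 2 / 2) * exp (-x) := by ring
    _ ≤ g (v + -b * x) * exp (-x) := mul_le_mul_of_nonneg_right h2 (exp_pos _).le

lemma T_sub_const {f : ℝ → ℝ} (hf : LipschitzWith 1 f) (a c v : ℝ) :
    T a (fun u => f u - c) v = T a f v - c := by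
  unfold T
  have e : ∀ x, (f (v + a * x) - c) * exp (-x) = f (v + a * x) * exp (-x) - c * exp (-x) := by
    intro x; ring
  simp_rw [e]
  rw [integral_sub (integrableOn_T hf a v) (integrableOn_exp_neg.const_mul c), integral_const_mul,
    integral_exp_neg', mul_one]

lemma lipschitz_shift_sub {f : ℝ → ℝ} (hf : LipschitzWith 1 f) (d c : ℝ) :
    LipschitzWith 1 (fun u => f (u - d) - c) := by
  refine LipschitzWith.of_dist_le_mul fun u v => ?_
  have := hf.dist_le_mul (u - d) (v - d)
  simp only [NNReal.coe_one, one_mul, Real.dist_eq] at this ⊢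
  calc |f (u - d) - c - (f (v - d) - c)| = |f (u - d) - f (v - d)| := by ring_nf
    _ ≤ |u - d - (v - d)| := this
    _ = |u - v| := by ring_nf

/-- iterating `T (-b)` starting from `g`. -/
lemma iter_replicate_ge (b : ℝ) (k : ℕ) (v : ℝ) :
    g (v - k * b) - k * (b ^ 2 / 2) ≤ iter (List.replicate k (-b)) g v := by
  induction k generalizing v with
  | zero => simp
  | succ k ih =>
      rw [List.replicate_succ, iter_cons]
      have hL := lipschitz_shift_sub g_lipschitz (k * b) (k * (b ^ 2 / 2))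
      have h1 := T_mono hL (iter_lipschitz g_lipschitz (List.replicate k (-b))) ih (-b) v
      have h2 : T (-b) (fun u => g (u - k * b) - k * (b ^ 2 / 2)) v =
          T (-b) g (v - k * b) - k * (b ^ 2 / 2) := by
        have hL2 : LipschitzWith 1 (fun u => g (u - k * b)) := by
          have := lipschitz_shift_sub g_lipschitz (k * b) 0
          simpa using this
        rw [T_sub_const hL2]
        have := T_shift (-b) g (-(k * b)) v
        simp only [← sub_eq_add_neg] at this
        rw [this]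
      rw [h2] at h1
      have h3 := T_neg_g_ge b (v - k * b)
      push_cast
      have e : v - (k + 1) * b = v - k * b - b := by ring
      rw [e]
      linarith

/-- the exact value at the extremal direction. -/
lemma T_two_g : T 2 g (-(2 / 3)) = 1 - 4 / 9 * exp (-(1 / 3)) := by
  have h1 := T_split g_lipschitz 2 (d := 1 / 3) (by norm_num) (-(2 / 3))
  have e1 : -(2 / 3 : ℝ) + 2 * (1 / 3) = 0 := by ring
  rw [e1] at h1
  have h2 : ∫ s in Ioc (0 : ℝ) (1 / 3), g (-(2 / 3) + 2 * s) * exp (-s) =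
      1 - exp (-(1 / 3)) := by
    have h3 : ∫ s in Ioc (0 : ℝ) (1 / 3), g (-(2 / 3) + 2 * s) * exp (-s) =
        ∫ s in Ioc (0 : ℝ) (1 / 3), (1 : ℝ) * exp (-s) := by
      refine setIntegral_congr_fun measurableSet_Ioc (fun s hs => ?_)
      rw [g_of_nonpos (by linarith [hs.2])]
    rw [h3]
    have h4 := T_split (f := fun _ => 1) ((LipschitzWith.const (1 : ℝ)).weaken zero_le_one) 0 (d := 1 / 3)
      (by norm_num) 0
    have h5 : T 0 (fun _ => (1 : ℝ)) 0 = 1 := T_zero 0
    have h6 : T 0 (fun _ => (1 : ℝ)) (0 + 0 * (1 / 3)) = 1 := by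
      simpa using T_zero (f := fun _ => (1 : ℝ)) 0
    rw [h5, h6] at h4
    linarith
  have h7 : T 2 g 0 = 5 / 9 := by
    unfold T
    have e2 : ∀ x ∈ Ioi (0 : ℝ), g (0 + 2 * x) * exp (-x) =
        exp (-(3 * x)) + 2 * (x * exp (-(3 * x))) := by
      intro x hx
      have hx0 : (0 : ℝ) < x := hx
      rw [zero_add, g_of_pos (by linarith)]
      have : exp (-(3 * x)) = exp (-(2 * x)) * exp (-x) := by
        rw [← Real.exp_add]; ring_nf
      rw [this]; ring
    rw [setIntegral_congr_fun measurableSet_Ioi e2,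
      integral_add (integrableOn_exp_theta (by norm_num))
        ((integrableOn_id_exp_theta (by norm_num)).const_mul 2),
      integral_const_mul, integral_exp_theta (by norm_num), integral_id_exp_theta (by norm_num)]
    norm_num
  rw [h1, h2, h7]
  ring

/-- the lower bound for the explicit family. -/
lemma iter_family_ge {n : ℕ} (hn : 0 < n) :
    1 - 4 / 9 * exp (-(1 / 3)) - 2 / n ≤
      iter (2 :: List.replicate n (-(2 / n))) g (4 / 3) := by
  have hn' : (n : ℝ) ≠ 0 := by positivity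
  rw [iter_cons]
  set b : ℝ := 2 / n with hb
  have hk : (n : ℝ) * b = 2 := by rw [hb]; field_simp
  have hk2 : (n : ℝ) * (b ^ 2 / 2) = 2 / n := by
    rw [hb]; field_simp
  have h1 : ∀ u, g (u - 2) - 2 / n ≤ iter (List.replicate n (-b)) g u := by
    intro u
    have := iter_replicate_ge b n u
    rwa [hk, hk2] at this
  have hL := lipschitz_shift_sub g_lipschitz 2 (2 / n)
  have h2 := T_mono hL (iter_lipschitz g_lipschitz (List.replicate n (-b))) h1 2 (4 / 3)
  have hL2 : LipschitzWith 1 (fun u => g (u - 2)) := by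
    have := lipschitz_shift_sub g_lipschitz 2 0
    simpa using this
  rw [T_sub_const hL2] at h2
  have h3 := T_shift 2 g (-2) (4 / 3)
  simp only [← sub_eq_add_neg] at h3
  have e : (4 / 3 : ℝ) - 2 = -(2 / 3) := by norm_num
  rw [e, T_two_g] at h3
  rw [h3] at h2
  exact h2

end Crest.Agent.Lib.TruncExp
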